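import Vale.Agent.P154.Bridge

/-!
Polynomial approximants of the powers of `1 / (1 + u)`.
-/

namespace Vale.Agent.P154

open PolyR Cert

lemma apx_of_S (j m : ℕ) (Q S e u : ℝ) (hu : 0 < 1 + u)
    (h1 : (1 + u) ^ j * Q - 1 = u ^ m * S) (h2 : S ≤ e * (1 + u) ^ j) (h3 : -S ≤ e * (1 + u) ^ j) :
    |((1 + u)⁻¹) ^ j - Q| ≤ e * |u| ^ m := by
  set v := (1 + u)⁻¹ with hv
  have hv0 : 0 < v := inv_pos.mpr hu
  have hvj : v ^ j * (1 + u) ^ j = 1 := by
    rw [← mul_pow, hv, inv_mul_cancel₀ hu.ne', one_pow]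
  have hvj0 : 0 < v ^ j := by positivity
  have key : v ^ j - Q = - (v ^ j * (u ^ m * S)) := by
    rw [← h1]
    linear_combination Q * hvj
  rw [key, abs_neg, abs_mul, abs_of_pos hvj0, abs_mul, abs_pow]
  have hS : |S| ≤ e * (1 + u) ^ j := abs_le.mpr ⟨by linarith, h2⟩
  have h4 : v ^ j * |S| ≤ e := by
    calc v ^ j * |S| ≤ v ^ j * (e * (1 + u) ^ j) := mul_le_mul_of_nonneg_left hS hvj0.le
      _ = e * (v ^ j * (1 + u) ^ j) := by ring
      _ = e := by rw [hvj, mul_one]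
  calc v ^ j * (|u| ^ m * |S|) = (v ^ j * |S|) * |u| ^ m := by ring
    _ ≤ e * |u| ^ m := mul_le_mul_of_nonneg_right h4 (by positivity)

lemma cmul_nonpos {C x : ℝ} (hC : 0 < C) (h : C * x ≤ 0) : x ≤ 0 := by
  by_contra hn
  rw [not_le] at hn
  have := mul_pos hC hn
  linarith

/-- The trivial constraint. -/
def trivCon : TL × TL := ([(1, 0, 0)], [])

/-- The problem for a polynomial of one variable. -/
def uniPb (Nd w : ℕ) (l : List ITm) : Pb :=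
  ⟨chartGs false false Nd w [⟨0, 0, l⟩], trivCon, trivCon, [], w / 2⟩

lemma uni_le (Nd w : ℕ) (l : List ITm) (hw : 0 < w) (hw2 : w / 2 + w / 2 = w)
    (hd : degOK Nd [⟨0, 0, l⟩] = true)
    (hS : Sound (uniPb Nd w l) 0 (w / 2) 0 (w / 2)) (x : ℝ) (h0 : 0 ≤ x) (h1 : x ≤ 1) :
    evalIL l x 0 ≤ 0 := by
  have hwR : (0 : ℝ) < w := by exact_mod_cast hw
  have hw2R : ((w / 2 : ℕ) : ℝ) + ((w / 2 : ℕ) : ℝ) = w := by exact_mod_cast hw2
  have hW0 : (0 : ℝ) ≤ ((w / 2 : ℕ) : ℝ) := Nat.cast_nonneg _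
  have := hS ((w : ℝ) * x) ((w : ℝ) * 0) ((w : ℝ) * 0) ((w : ℝ) * 0)
    (by simp; positivity) (by simp; nlinarith) (by simp) (by simp)
    (by simp) (by show (w : ℝ) * 0 ≤ 2 * ((w / 2 : ℕ) : ℝ); simp)
    (by simp) (by show (w : ℝ) * 0 ≤ 2 * ((w / 2 : ℕ) : ℝ); simp)
    (by simp [uniPb, trivCon]) (by simp [uniPb, trivCon])
  have e : (uniPb Nd w l).gs = chartGs false false Nd w [⟨0, 0, l⟩] := rfl
  rw [e, chart_eval false false Nd w _ hd] at this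
  have hp : (0 : ℝ) < (w : ℝ) ^ Nd := by positivity
  have h3 : evalI [⟨0, 0, l⟩] x (sg false * 0) 0 (sg false * 0) = evalIL l x 0 := by
    simp [evalI, sg]
  rw [h3] at this
  by_contra hn
  rw [not_le] at hn
  have := mul_pos hp hn
  linarith

end Vale.Agent.P154
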