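import Vale.Agent.P154.Bridge

/-!
Assembly of the one-step inequality from the certified data.
-/

open Finset

namespace Vale.Agent.P154

open PolyR Cert

/-- The polynomial combination of all the tables. -/
noncomputable def mkFP (A : Apx) (R : Rows) (K01 K11 K21 K31 K12 K22 K32 K13 K23 K33 K24 K34 K35 : ℤ) : Poly :=
  sumP [smul K01 (combo A.p1 R.R01), smul K11 (combo A.p1 R.R11), smul K21 (combo A.p1 R.R21),
    smul K31 (combo A.p1 R.R31), smul K12 (combo A.p2 R.R12), smul K22 (combo A.p2 R.R22),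
    smul K32 (combo A.p2 R.R32), smul K13 (combo A.p3 R.R13), smul K23 (combo A.p3 R.R23),
    smul K33 (combo A.p3 R.R33), smul K24 (combo A.p4 R.R24), smul K34 (combo A.p4 R.R34),
    smul K35 (combo A.p5 R.R35)]

/-- The multipliers of the tables. -/
structure KsOK (A : Apx) (c1 c2 c4 CD : ℝ) (K01 K11 K21 K31 K12 K22 K32 K13 K23 K33 K24 K34 K35 : ℤ) : Prop where
  k01 : (K01 : ℝ) = CD / (9 * A.D1)
  k11 : (K11 : ℝ) = CD * (c1 / 36) / (9 * A.D1)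
  k21 : (K21 : ℝ) = CD * (c2 / 36) / (9 * A.D1)
  k31 : (K31 : ℝ) = CD * (c4 / 36) / (9 * A.D1)
  k12 : (K12 : ℝ) = CD * (c1 / 36) / (27 * A.D2)
  k22 : (K22 : ℝ) = CD * (c2 / 36) / (27 * A.D2)
  k32 : (K32 : ℝ) = CD * (c4 / 36) / (27 * A.D2)
  k13 : (K13 : ℝ) = CD * (c1 / 36) / (81 * A.D3)
  k23 : (K23 : ℝ) = CD * (c2 / 36) / (81 * A.D3)
  k33 : (K33 : ℝ) = CD * (c4 / 36) / (81 * A.D3)
  k24 : (K24 : ℝ) = CD * (c2 / 36) / (243 * A.D4)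
  k34 : (K34 : ℝ) = CD * (c4 / 36) / (243 * A.D4)
  k35 : (K35 : ℝ) = CD * (c4 / 36) / (729 * A.D5)

lemma ev_mkFP (A : Apx) (R : Rows) (hR : R.OK A) (c1 c2 c4 CD : ℝ)
    (K01 K11 K21 K31 K12 K22 K32 K13 K23 K33 K24 K34 K35 : ℤ)
    (hK : KsOK A c1 c2 c4 CD K01 K11 K21 K31 K12 K22 K32 K13 K23 K33 K24 K34 K35)
    (z t : Fin 3 → ℝ) (hz : ∑ i, z i = 0) (ht : ∑ i, t i = 0) :
    ev (mkFP A R K01 K11 K21 K31 K12 K22 K32 K13 K23 K33 K24 K34 K35) (iA z) (iB z) (iA t) (iB t)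
      = CD * Fav A c1 c2 c4 z t := by
  rw [Fav_rows A R hR c1 c2 c4 z t hz ht]
  unfold mkFP
  rw [ev_sumP]
  simp only [evs, List.map_cons, List.map_nil, List.sum_cons, List.sum_nil, ev_smul, add_zero]
  rw [hK.k01, hK.k11, hK.k21, hK.k31, hK.k12, hK.k22, hK.k32, hK.k13, hK.k23, hK.k33, hK.k24,
    hK.k34, hK.k35]
  ring

lemma s2_le_six (z : Fin 3 → ℝ) (hz : ∑ i, z i = 0) (h1 : ∀ i, -1 ≤ z i) : s2 z ≤ 6 := by
  have h2 := y_le_two hz h1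
  have key : ∀ i, z i ^ 2 ≤ z i + 2 := fun i => by nlinarith [h1 i, h2 i]
  have := Finset.sum_le_sum fun i (_ : i ∈ Finset.univ) => key i
  rw [Finset.sum_add_distrib, hz] at this
  simp at this
  unfold s2
  linarith

lemma prod_nonneg_eq (z : Fin 3 → ℝ) (hz : ∑ i, z i = 0) (h1 : ∀ i, -1 ≤ z i) :
    0 ≤ 1 - 3 * iA z + 2 * iB z := by
  have h2 : z 2 = - z 0 - z 1 := by
    rw [Fin.sum_univ_three] at hz; linarith
  have h : 0 ≤ (1 + z 0) * (1 + z 1) * (1 + z 2) := by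
    have a := h1 0; have b := h1 1; have c := h1 2
    exact mul_nonneg (mul_nonneg (by linarith) (by linarith)) (by linarith)
  have e : 1 - 3 * iA z + 2 * iB z = (1 + z 0) * (1 + z 1) * (1 + z 2) := by
    unfold iA iB
    simp only [Fin.sum_univ_three, h2]
    ring
  rw [e]; exact h

lemma iA_eq (z : Fin 3 → ℝ) : iA z = s2 z / 6 := rfl
lemma iB_eq (z : Fin 3 → ℝ) : iB z = s3 z / 6 := rfl

/-- Polar coordinates of a point of the simplex. -/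
lemma exists_polar (z : Fin 3 → ℝ) (hz : ∑ i, z i = 0) (h1 : ∀ i, -1 ≤ z i) :
    ∃ ρ τ : ℝ, 0 ≤ ρ ∧ ρ ≤ 1 ∧ |τ| ≤ 1 ∧ iA z = ρ ^ 2 ∧ iB z = ρ ^ 3 * τ ∧
      0 ≤ 1 - 3 * ρ ^ 2 + 2 * ρ ^ 3 * τ := by
  have hs := s2_nonneg z
  have hs6 := s2_le_six z hz h1
  have h6 := six_s3_sq_le z hz
  set ρ := Real.sqrt (s2 z / 6) with hρ
  have hρ0 : 0 ≤ ρ := Real.sqrt_nonneg _
  have hρ2 : ρ ^ 2 = s2 z / 6 := Real.sq_sqrt (by positivity)
  have hρ1 : ρ ≤ 1 := by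
    rw [hρ, Real.sqrt_le_iff]
    constructor
    · norm_num
    · linarith
  by_cases h0 : ρ = 0
  · have hs0 : s2 z = 0 := by
      have : s2 z / 6 = 0 := by rw [← hρ2, h0]; simp
      linarith
    have hb : s3 z = 0 := by
      rw [hs0] at h6
      have : s3 z ^ 2 ≤ 0 := by norm_num at h6; nlinarith
      nlinarith [sq_nonneg (s3 z)]
    refine ⟨0, 0, le_refl _, zero_le_one, by simp, ?_, ?_, by norm_num⟩
    · rw [iA_eq, hs0]; simp
    · rw [iB_eq, hb]; simp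
  · have hρp : 0 < ρ := lt_of_le_of_ne hρ0 (Ne.symm h0)
    refine ⟨ρ, (s3 z / 6) / ρ ^ 3, hρ0, hρ1, ?_, hρ2.symm, ?_, ?_⟩
    · rw [abs_div, abs_of_pos (by positivity : 0 < ρ ^ 3)]
      rw [div_le_one (by positivity)]
      apply abs_le_of_sq_le_sq _ (by positivity)
      have e : s2 z = 6 * ρ ^ 2 := by linarith
      rw [e] at h6
      nlinarith
    · rw [iB_eq]; field_simp
    · have := prod_nonneg_eq z hz h1
      have e1 : iA z = ρ ^ 2 := hρ2.symm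
      have e2 : ρ ^ 3 * ((s3 z / 6) / ρ ^ 3) = iB z := by rw [iB_eq]; field_simp
      have e3 : 2 * ρ ^ 3 * ((s3 z / 6) / ρ ^ 3) = 2 * iB z := by rw [mul_assoc, e2]
      rw [e3, ← e1]
      linarith

lemma iA_smul (lam : ℝ) (y : Fin 3 → ℝ) : iA (fun i => lam * y i) = lam ^ 2 * iA y := by
  unfold iA
  simp only [mul_pow, ← Finset.mul_sum]
  ring

lemma iB_smul (lam : ℝ) (y : Fin 3 → ℝ) : iB (fun i => lam * y i) = lam ^ 3 * iB y := by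
  unfold iB
  simp only [mul_pow, ← Finset.mul_sum]
  ring

lemma uu_bounds (z y : Fin 3 → ℝ) (hz : ∑ i, z i = 0) (hy : ∑ i, y i = 0)
    (h1 : ∀ i, -1 ≤ z i) (h2 : ∀ i, -1 ≤ y i) : -1 ≤ uu z y ∧ uu z y ≤ 2 := by
  constructor
  · have := sum_one_add_mul z y hz hy
    have h0 : 0 ≤ ∑ i, (1 + z i) * (1 + y i) :=
      Finset.sum_nonneg fun i _ => mul_nonneg (by linarith [h1 i]) (by linarith [h2 i])
    linarith
  · have h := uu_sq_le z y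
    have a := s2_le_six z hz h1
    have b := s2_le_six y hy h2
    have a0 := s2_nonneg z
    have b0 := s2_nonneg y
    have : s2 z * s2 y ≤ 36 := by nlinarith
    nlinarith

lemma uu_smul (z y : Fin 3 → ℝ) (lam : ℝ) : uu z (fun i => lam * y i) = lam * uu z y := by
  unfold uu
  have : ∀ i, z i * (lam * y i) = lam * (z i * y i) := fun i => by ring
  simp only [this, ← Finset.mul_sum]
  ring

/-- The data of a stationary certificate. -/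
structure StatData where
  num : ℕ
  den : ℕ
  Nm : ℕ
  Nd : ℕ
  w : ℕ
  CD : ℝ
  c1 : ℝ
  c2 : ℝ
  c4 : ℝ
  A : Apx
  K : Ks
  R : Rows
  K01 : ℤ
  K11 : ℤ
  K21 : ℤ
  K31 : ℤ
  K12 : ℤ
  K22 : ℤ
  K32 : ℤ
  K13 : ℤ
  K23 : ℤ
  K33 : ℤ
  K24 : ℤ
  K34 : ℤ
  K35 : ℤ
  EC : Poly
  G : List IGp

namespace StatData

variable (S : StatData)

/-- The scaling factor `λ`. -/
noncomputable def lam : ℝ := (S.num : ℝ) / S.den

/-- The main polynomial. -/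
noncomputable def FP : Poly :=
  mkFP S.A S.R S.K01 S.K11 S.K21 S.K31 S.K12 S.K22 S.K32 S.K13 S.K23 S.K33 S.K24 S.K34 S.K35

/-- The polynomial with error terms in the coordinates `(ρ, τ, r, σ)`. -/
noncomputable def MP : Poly := add (toM S.num S.den S.Nm S.FP) S.EC

/-- What has to be checked of a stationary certificate. -/
structure OK : Prop where
  hden : S.den ≠ 0
  hlam0 : 0 < S.lam
  hlam1 : 2 * S.lam ≤ 1
  hCD : 0 < S.CD
  hR : S.R.OK S.A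
  hKs : KsOK S.A S.c1 S.c2 S.c4 S.CD S.K01 S.K11 S.K21 S.K31 S.K12 S.K22 S.K32 S.K13 S.K23 S.K33 S.K24 S.K34 S.K35
  hA : S.A.OK (-S.lam) (2 * S.lam)
  hK : S.K.OK
  hk2 : 27 ≤ S.K.k2
  hsmall : smallW S.Nm S.FP = true
  hEC : ∀ ρ τ r σ : ℝ, 0 ≤ ρ → 0 ≤ r → ev S.EC ρ τ r σ
    = (S.den : ℝ) ^ S.Nm * S.CD * (ErrT S.A S.K S.c1 S.c2 S.c4 ρ (S.lam * r)
        - S.lam ^ 2 * Pq S.c1 S.c2 S.c4 (6 * r ^ 2) (6 * (r ^ 3 * σ)))
  hMP : beqP (normP S.MP) (normP (flatI S.G)) = true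
  hneg : ∀ ρ τ r σ : ℝ, 0 ≤ ρ → ρ ≤ 1 → |τ| ≤ 1 → 0 ≤ r → r ≤ 1 → |σ| ≤ 1 →
    0 ≤ 1 - 3 * ρ ^ 2 + 2 * ρ ^ 3 * τ → 0 ≤ 1 - 3 * r ^ 2 + 2 * r ^ 3 * σ → evalI S.G ρ τ r σ ≤ 0

variable {S}

/-- The one-step inequality at `λ`. -/
theorem one_step (h : S.OK) (z y : Fin 3 → ℝ) (hz : ∑ i, z i = 0) (hy : ∑ i, y i = 0)
    (hz1 : ∀ i, -1 ≤ z i) (hy1 : ∀ i, -1 ≤ y i) :
    (1 / 6) * ∑ g : Equiv.Perm (Fin 3), Kp (Pq S.c1 S.c2 S.c4) z (fun i => S.lam * y (g i))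
      ≤ Pq S.c1 S.c2 S.c4 (s2 z) (s3 z) + S.lam ^ 2 * Pq S.c1 S.c2 S.c4 (s2 y) (s3 y) := by
  obtain ⟨ρ, τ, hρ0, hρ1, hτ, hA, hB, hc1⟩ := exists_polar z hz hz1
  obtain ⟨r, σ, hr0, hr1, hσ, hA', hB', hc2⟩ := exists_polar y hy hy1
  set lam := S.lam with hlam
  have hl0 : 0 < lam := h.hlam0
  have hl1 : 2 * lam ≤ 1 := h.hlam1
  set t : Fin 3 → ℝ := fun i => lam * y i with ht
  have hts : ∑ i, t i = 0 := by
    simp only [ht, ← Finset.mul_sum, hy, mul_zero]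
  have hts2 : s2 t = 6 * (lam * r) ^ 2 := by
    have : s2 t = 6 * iA t := by unfold iA; rw [show (∑ i, t i ^ 2) = s2 t from rfl]; ring
    rw [this, ht, iA_smul, hA']
    ring
  have hq : (lam * r) ^ 2 = s2 t / 6 := by rw [hts2]; ring
  have hρ : ρ ^ 2 = s2 z / 6 := hA.symm
  have hK := h.hK
  have hal2 : ∀ g : Equiv.Perm (Fin 3), al2 z (t ∘ g) ≤ S.K.k2 * (lam * r) ^ 2 := by
    intro g
    have h1 := al2_le z (t ∘ g) hz (sum_zero_comp t hts g) 3 (fun i => by linarith [hz1 i])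
      (fun i => by linarith [y_le_two hz hz1 i])
    rw [s2_perm, hts2] at h1
    have h2 : (27 : ℝ) * (lam * r) ^ 2 ≤ S.K.k2 * (lam * r) ^ 2 :=
      mul_le_mul_of_nonneg_right h.hk2 (by positivity)
    linarith
  have hu : ∀ g : Equiv.Perm (Fin 3), -lam ≤ uu z (t ∘ g) ∧ uu z (t ∘ g) ≤ 2 * lam := by
    intro g
    have e : t ∘ g = fun i => lam * (y ∘ g) i := rfl
    rw [e, uu_smul]
    obtain ⟨a, b⟩ := uu_bounds z (y ∘ g) hz (sum_zero_comp y hy g) hz1 (fun i => hy1 (g i))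
    constructor <;> nlinarith
  have hmaster := master_bound S.A S.K (-lam) (2 * lam) S.c1 S.c2 S.c4 (by linarith) h.hA z t hz hts ρ
    (lam * r) hρ0 (by positivity) hρ hq hK hal2 hu
  have hcomp : ∀ g : Equiv.Perm (Fin 3), t ∘ g = fun i => lam * y (g i) := fun g => rfl
  simp only [hcomp] at hmaster
  refine hmaster.trans ?_
  -- polynomial part
  have hFP := ev_mkFP S.A S.R h.hR S.c1 S.c2 S.c4 S.CD S.K01 S.K11 S.K21 S.K31 S.K12 S.K22 S.K32 S.K13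
    S.K23 S.K33 S.K24 S.K34 S.K35 h.hKs z t hz hts
  have hdenR : (0 : ℝ) < S.den := by
    have := h.hden
    have : 0 < S.den := Nat.pos_of_ne_zero this
    exact_mod_cast this
  have hMev : ev S.MP ρ τ r σ = (S.den : ℝ) ^ S.Nm * S.CD *
      (Fav S.A S.c1 S.c2 S.c4 z t + (ErrT S.A S.K S.c1 S.c2 S.c4 ρ (lam * r)
        - lam ^ 2 * Pq S.c1 S.c2 S.c4 (6 * r ^ 2) (6 * (r ^ 3 * σ)))) := by
    unfold MP
    rw [ev_add, ev_toM _ _ _ h.hden _ h.hsmall, h.hEC ρ τ r σ hρ0 hr0]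
    have e1 : iA z = ρ ^ 2 := hA
    have e2 : iB z = ρ ^ 3 * τ := hB
    have e3 : iA t = lam ^ 2 * r ^ 2 := by rw [ht, iA_smul, hA']
    have e4 : iB t = lam ^ 3 * (r ^ 3 * σ) := by rw [ht, iB_smul, hB']
    rw [e1, e2, e3, e4] at hFP
    have : ((S.num : ℝ) / S.den) = lam := rfl
    rw [this]
    show (S.den : ℝ) ^ S.Nm * ev S.FP _ _ _ _ + _ = _
    unfold FP
    rw [hFP]
    ring
  have hM2 : ev S.MP ρ τ r σ = r ^ 2 * evalI S.G ρ τ r σ := by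
    have h1 := ev_of_beqP _ _ h.hMP ρ τ r σ
    rw [ev_normP, ev_normP, ev_flatI] at h1
    exact h1
  have hneg := h.hneg ρ τ r σ hρ0 hρ1 hτ hr0 hr1 hσ hc1 hc2
  have hle : ev S.MP ρ τ r σ ≤ 0 := by
    rw [hM2]
    exact mul_nonpos_of_nonneg_of_nonpos (by positivity) hneg
  rw [hMev] at hle
  have hpos : 0 < (S.den : ℝ) ^ S.Nm * S.CD := mul_pos (by positivity) h.hCD
  have hle2 : Fav S.A S.c1 S.c2 S.c4 z t + (ErrT S.A S.K S.c1 S.c2 S.c4 ρ (lam * r)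
        - lam ^ 2 * Pq S.c1 S.c2 S.c4 (6 * r ^ 2) (6 * (r ^ 3 * σ))) ≤ 0 := by
    by_contra hn
    rw [not_le] at hn
    have := mul_pos hpos hn
    linarith
  have e5 : s2 y = 6 * r ^ 2 := by
    have : s2 y = 6 * iA y := by unfold iA; rw [show (∑ i, y i ^ 2) = s2 y from rfl]; ring
    rw [this, hA']
  have e6 : s3 y = 6 * (r ^ 3 * σ) := by
    have : s3 y = 6 * iB y := by unfold iB; rw [show (∑ i, y i ^ 3) = s3 y from rfl]; ring
    rw [this, hB']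
  rw [e5, e6]
  linarith

end StatData

end Vale.Agent.P154
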