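import Vale.Agent.P154.Expand

/-!
Size bounds for the atoms of the expansion.
-/

open Finset

namespace Vale.Agent.P154

open PolyR

lemma six_s3_sq_le (x : Fin 3 → ℝ) (hx : ∑ i, x i = 0) : 6 * s3 x ^ 2 ≤ s2 x ^ 3 := by
  have h2 : x 2 = - x 0 - x 1 := by
    rw [Fin.sum_univ_three] at hx; linarith
  unfold s2 s3
  simp only [Fin.sum_univ_three, h2]
  nlinarith [sq_nonneg ((x 0 - x 1) * (2 * x 0 + x 1) * (x 0 + 2 * x 1))]

lemma sum_four_eq (x : Fin 3 → ℝ) (hx : ∑ i, x i = 0) : ∑ i, (x i ^ 2) ^ 2 = s2 x ^ 2 / 2 := by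
  have h2 : x 2 = - x 0 - x 1 := by
    rw [Fin.sum_univ_three] at hx; linarith
  unfold s2
  simp only [Fin.sum_univ_three, h2]
  ring

lemma sq_le_of_sum_zero (x : Fin 3 → ℝ) (hx : ∑ i, x i = 0) (i : Fin 3) :
    3 * x i ^ 2 ≤ 2 * s2 x := by
  have h2 : x 2 = - x 0 - x 1 := by
    rw [Fin.sum_univ_three] at hx; linarith
  unfold s2
  simp only [Fin.sum_univ_three, h2]
  fin_cases i
  · simp; nlinarith [sq_nonneg (x 0 + 2 * x 1)]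
  · simp; nlinarith [sq_nonneg (2 * x 0 + x 1)]
  · simp [h2]; nlinarith [sq_nonneg (x 0 - x 1)]

lemma s2_nonneg (x : Fin 3 → ℝ) : 0 ≤ s2 x := Finset.sum_nonneg fun _ _ => sq_nonneg _

lemma al2_nonneg (z t : Fin 3 → ℝ) : 0 ≤ al2 z t := Finset.sum_nonneg fun _ _ => sq_nonneg _

lemma uu_sq_le (z t : Fin 3 → ℝ) : 9 * uu z t ^ 2 ≤ s2 z * s2 t := by
  have := Finset.sum_mul_sq_le_sq_mul_sq Finset.univ z t
  unfold uu s2
  have e : 9 * ((∑ i, z i * t i) / 3) ^ 2 = (∑ i, z i * t i) ^ 2 := by ring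
  rw [e]
  exact this

/-- Existence of a good centre. -/
lemma exists_centre (t : Fin 3 → ℝ) : ∃ s : ℝ, ∀ i, (t i - s) ^ 2 ≤ s2 t / 2 := by
  obtain ⟨a, -, ha⟩ := Finset.exists_min_image Finset.univ t ⟨0, Finset.mem_univ _⟩
  obtain ⟨b, -, hb⟩ := Finset.exists_max_image Finset.univ t ⟨0, Finset.mem_univ _⟩
  refine ⟨(t a + t b) / 2, fun i => ?_⟩
  have h1 : t a ≤ t i := ha i (Finset.mem_univ _)
  have h2 : t i ≤ t b := hb i (Finset.mem_univ _)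
  have hab : (t b - t a) ^ 2 / 4 ≤ s2 t / 2 := by
    by_cases h : a = b
    · subst h
      have := s2_nonneg t
      simp; linarith
    · have h3 : t a ^ 2 + t b ^ 2 ≤ s2 t := by
        unfold s2
        have : ({a, b} : Finset (Fin 3)) ⊆ Finset.univ := Finset.subset_univ _
        have h4 := Finset.sum_le_sum_of_subset_of_nonneg (f := fun i => t i ^ 2) this
          (fun _ _ _ => sq_nonneg _)
        rw [Finset.sum_pair h] at h4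
        exact h4
      nlinarith [sq_nonneg (t a + t b)]
  have : (t i - (t a + t b) / 2) ^ 2 = (t b - t a) ^ 2 / 4 + (t i - t a) * (t i - t b) := by ring
  rw [this]
  have : (t i - t a) * (t i - t b) ≤ 0 :=
    mul_nonpos_of_nonneg_of_nonpos (by linarith) (by linarith)
  linarith

/-- The bound on `α₂`. -/
lemma al2_le (z t : Fin 3 → ℝ) (hz : ∑ i, z i = 0) (ht : ∑ i, t i = 0) (M : ℝ)
    (h0 : ∀ i, 0 ≤ 1 + z i) (h1 : ∀ i, 1 + z i ≤ M) :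
    al2 z t ≤ 3 / 2 * M * s2 t := by
  obtain ⟨s, hs⟩ := exists_centre t
  have hsum1 : ∑ i, (1 + z i) = 3 := by
    rw [Finset.sum_add_distrib, hz]; simp
  set u := uu z t with hu
  have hsum2 : ∑ i, (1 + z i) * t i = 3 * u := by
    have : ∀ i, (1 + z i) * t i = t i + z i * t i := fun i => by ring
    simp only [this, Finset.sum_add_distrib, ht]
    rw [hu]; unfold uu; ring
  have hM : 0 ≤ M := (h0 0).trans (h1 0)
  have step1 : al2 z t ≤ M * ∑ i, (1 + z i) * (t i - u) ^ 2 := by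
    unfold al2 ww
    rw [Finset.mul_sum]
    refine Finset.sum_le_sum fun i _ => ?_
    rw [← hu, mul_pow]
    have : (1 + z i) ^ 2 ≤ M * (1 + z i) := by
      nlinarith [h0 i, h1 i]
    calc (1 + z i) ^ 2 * (t i - u) ^ 2 ≤ M * (1 + z i) * (t i - u) ^ 2 :=
          mul_le_mul_of_nonneg_right this (sq_nonneg _)
      _ = _ := by ring
  have step2 : ∑ i, (1 + z i) * (t i - u) ^ 2 ≤ ∑ i, (1 + z i) * (t i - s) ^ 2 := by
    have e : ∑ i, (1 + z i) * (t i - s) ^ 2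
        = ∑ i, (1 + z i) * (t i - u) ^ 2 + (2 * (u - s) * ∑ i, (1 + z i) * (t i - u))
          + (u - s) ^ 2 * ∑ i, (1 + z i) := by
      rw [Finset.mul_sum, Finset.mul_sum, ← Finset.sum_add_distrib, ← Finset.sum_add_distrib]
      refine Finset.sum_congr rfl fun i _ => ?_
      ring
    have e2 : ∑ i, (1 + z i) * (t i - u) = 0 := by
      have : ∀ i, (1 + z i) * (t i - u) = (1 + z i) * t i - u * (1 + z i) := fun i => by ring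
      simp only [this, Finset.sum_sub_distrib, ← Finset.mul_sum, hsum1, hsum2]
      ring
    rw [e, e2, hsum1]
    nlinarith [sq_nonneg (u - s)]
  have step3 : ∑ i, (1 + z i) * (t i - s) ^ 2 ≤ 3 * (s2 t / 2) := by
    calc ∑ i, (1 + z i) * (t i - s) ^ 2 ≤ ∑ i, (1 + z i) * (s2 t / 2) :=
          Finset.sum_le_sum fun i _ => mul_le_mul_of_nonneg_left (hs i) (h0 i)
      _ = _ := by rw [← Finset.sum_mul, hsum1]
  have : M * ∑ i, (1 + z i) * (t i - u) ^ 2 ≤ M * (3 * (s2 t / 2)) :=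
    mul_le_mul_of_nonneg_left (step2.trans step3) hM
  calc al2 z t ≤ _ := step1
    _ ≤ _ := this
    _ = _ := by ring


/-! ### Bounds in terms of `ρ` and `q` -/

lemma uu_abs_le (z t : Fin 3 → ℝ) (ρ q : ℝ) (hρ0 : 0 ≤ ρ) (hq0 : 0 ≤ q)
    (hρ : ρ ^ 2 = s2 z / 6) (hq : q ^ 2 = s2 t / 6) : |uu z t| ≤ 2 * ρ * q := by
  apply abs_le_of_sq_le_sq _ (by positivity)
  have h := uu_sq_le z t
  have e1 : s2 z = 6 * ρ ^ 2 := by linarith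
  have e2 : s2 t = 6 * q ^ 2 := by linarith
  rw [e1, e2] at h
  nlinarith

lemma s3_abs_le (z : Fin 3 → ℝ) (hz : ∑ i, z i = 0) (ρ : ℝ) (hρ0 : 0 ≤ ρ)
    (hρ : ρ ^ 2 = s2 z / 6) : |s3 z| ≤ 6 * ρ ^ 3 := by
  apply abs_le_of_sq_le_sq _ (by positivity)
  have h := six_s3_sq_le z hz
  have e1 : s2 z = 6 * ρ ^ 2 := by linarith
  rw [e1] at h
  nlinarith

lemma z_abs_le (z : Fin 3 → ℝ) (hz : ∑ i, z i = 0) (ρ : ℝ) (hρ0 : 0 ≤ ρ)
    (hρ : ρ ^ 2 = s2 z / 6) (i : Fin 3) : |z i| ≤ 2 * ρ := by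
  apply abs_le_of_sq_le_sq _ (by positivity)
  have h := sq_le_of_sum_zero z hz i
  have e1 : s2 z = 6 * ρ ^ 2 := by linarith
  rw [e1] at h
  nlinarith

lemma al1_sq_le (z t : Fin 3 → ℝ) (ρ : ℝ) (hρ : ρ ^ 2 = s2 z / 6) :
    al1 z t ^ 2 ≤ 6 * ρ ^ 2 * al2 z t := by
  have := Finset.sum_mul_sq_le_sq_mul_sq Finset.univ z (ww z t)
  have e1 : s2 z = 6 * ρ ^ 2 := by linarith
  rw [← e1]
  exact this

lemma be1_sq_le (z t : Fin 3 → ℝ) (hz : ∑ i, z i = 0) (ρ : ℝ) (hρ : ρ ^ 2 = s2 z / 6) :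
    be1 z t ^ 2 ≤ 18 * ρ ^ 4 * al2 z t := by
  have := Finset.sum_mul_sq_le_sq_mul_sq Finset.univ (fun i => z i ^ 2) (ww z t)
  rw [sum_four_eq z hz] at this
  have e1 : s2 z = 6 * ρ ^ 2 := by linarith
  rw [e1] at this
  calc be1 z t ^ 2 ≤ (6 * ρ ^ 2) ^ 2 / 2 * ∑ i, ww z t i ^ 2 := this
    _ = _ := by unfold al2; ring

lemma be2_abs_le (z t : Fin 3 → ℝ) (hz : ∑ i, z i = 0) (ρ : ℝ) (hρ0 : 0 ≤ ρ)
    (hρ : ρ ^ 2 = s2 z / 6) : |be2 z t| ≤ 2 * ρ * al2 z t := by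
  unfold be2 al2
  rw [Finset.mul_sum]
  refine (Finset.abs_sum_le_sum_abs _ _).trans (Finset.sum_le_sum fun i _ => ?_)
  rw [abs_mul, abs_of_nonneg (sq_nonneg (ww z t i))]
  exact mul_le_mul_of_nonneg_right (z_abs_le z hz ρ hρ0 hρ i) (sq_nonneg _)

lemma be3_sq_le (z t : Fin 3 → ℝ) (hz : ∑ i, z i = 0) (ht : ∑ i, t i = 0) :
    6 * be3 z t ^ 2 ≤ al2 z t ^ 3 :=
  six_s3_sq_le (ww z t) (sum_ww z t hz ht)

/-- The size constants of the atoms. -/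
structure Ks where
  k1 : ℝ
  k2 : ℝ
  k3 : ℝ
  k4 : ℝ
  k5 : ℝ

/-- Validity of the size constants. -/
structure Ks.OK (K : Ks) : Prop where
  h10 : 0 ≤ K.k1
  h20 : 0 ≤ K.k2
  h30 : 0 ≤ K.k3
  h40 : 0 ≤ K.k4
  h50 : 0 ≤ K.k5
  h1 : 6 * K.k2 ≤ K.k1 ^ 2
  h3 : 18 * K.k2 ≤ K.k3 ^ 2
  h4 : 2 * K.k2 ≤ K.k4
  h5 : K.k2 ^ 3 ≤ 6 * K.k5 ^ 2

/-- The atom bounds at `(z, t)` with parameters `(ρ, q)`. -/
structure AtomB (K : Ks) (z t : Fin 3 → ℝ) (ρ q : ℝ) : Prop where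
  a : |s2 z| ≤ 6 * ρ ^ 2
  b : |s3 z| ≤ 6 * ρ ^ 3
  a1 : |al1 z t| ≤ K.k1 * ρ * q
  a2 : |al2 z t| ≤ K.k2 * q ^ 2
  b1 : |be1 z t| ≤ K.k3 * ρ ^ 2 * q
  b2 : |be2 z t| ≤ K.k4 * ρ * q ^ 2
  b3 : |be3 z t| ≤ K.k5 * q ^ 3

lemma atomB_of (K : Ks) (hK : K.OK) (z t : Fin 3 → ℝ) (hz : ∑ i, z i = 0) (ht : ∑ i, t i = 0)
    (ρ q : ℝ) (hρ0 : 0 ≤ ρ) (hq0 : 0 ≤ q) (hρ : ρ ^ 2 = s2 z / 6)
    (hal2 : al2 z t ≤ K.k2 * q ^ 2) : AtomB K z t ρ q := by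
  have hal0 := al2_nonneg z t
  have h20 := hK.h20
  refine ⟨?_, s3_abs_le z hz ρ hρ0 hρ, ?_, ?_, ?_, ?_, ?_⟩
  · rw [abs_of_nonneg (s2_nonneg z)]; linarith
  · apply abs_le_of_sq_le_sq _ (mul_nonneg (mul_nonneg hK.h10 hρ0) hq0)
    have h := al1_sq_le z t ρ hρ
    have h2 : 6 * ρ ^ 2 * al2 z t ≤ 6 * ρ ^ 2 * (K.k2 * q ^ 2) :=
      mul_le_mul_of_nonneg_left hal2 (by positivity)
    have h3 : (6 * K.k2) * (ρ ^ 2 * q ^ 2) ≤ K.k1 ^ 2 * (ρ ^ 2 * q ^ 2) :=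
      mul_le_mul_of_nonneg_right hK.h1 (by positivity)
    nlinarith
  · rw [abs_of_nonneg hal0]; exact hal2
  · apply abs_le_of_sq_le_sq _ (mul_nonneg (mul_nonneg hK.h30 (by positivity)) hq0)
    have h := be1_sq_le z t hz ρ hρ
    have h2 : 18 * ρ ^ 4 * al2 z t ≤ 18 * ρ ^ 4 * (K.k2 * q ^ 2) :=
      mul_le_mul_of_nonneg_left hal2 (by positivity)
    have h3 : (18 * K.k2) * (ρ ^ 4 * q ^ 2) ≤ K.k3 ^ 2 * (ρ ^ 4 * q ^ 2) :=
      mul_le_mul_of_nonneg_right hK.h3 (by positivity)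
    nlinarith
  · have h := be2_abs_le z t hz ρ hρ0 hρ
    have h2 : 2 * ρ * al2 z t ≤ 2 * ρ * (K.k2 * q ^ 2) :=
      mul_le_mul_of_nonneg_left hal2 (by positivity)
    have h3 : (2 * K.k2) * (ρ * q ^ 2) ≤ K.k4 * (ρ * q ^ 2) :=
      mul_le_mul_of_nonneg_right hK.h4 (by positivity)
    linarith
  · apply abs_le_of_sq_le_sq _ (mul_nonneg hK.h50 (by positivity))
    have h := be3_sq_le z t hz ht
    have h2 : al2 z t ^ 3 ≤ (K.k2 * q ^ 2) ^ 3 := pow_le_pow_left₀ hal0 hal2 3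
    have h3 : K.k2 ^ 3 * q ^ 6 ≤ (6 * K.k5 ^ 2) * q ^ 6 :=
      mul_le_mul_of_nonneg_right hK.h5 (by positivity)
    nlinarith

lemma abs_mul_le' {x y X Y : ℝ} (hx : |x| ≤ X) (hy : |y| ≤ Y) : |x * y| ≤ X * Y := by
  rw [abs_mul]
  exact mul_le_mul hx hy (abs_nonneg _) ((abs_nonneg _).trans hx)

lemma abs_const (c : ℝ) (hc : 0 ≤ c) : |c| ≤ c := by rw [abs_of_nonneg hc]

lemma abs_add3 (a b c : ℝ) : |a + b + c| ≤ |a| + |b| + |c| := by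
  calc |a + b + c| ≤ |a + b| + |c| := abs_add_le _ _
    _ ≤ _ := by linarith [abs_add_le a b]

section Abounds

variable {K : Ks} {z t : Fin 3 → ℝ} {ρ q : ℝ} (h : AtomB K z t ρ q)
include h

lemma bd01 : |A01 z t| ≤ K.k2 * q ^ 2 := h.a2

lemma bd11 : |A11 z t| ≤ (4 * K.k1 ^ 2 + 12 * K.k2) * ρ ^ 2 * q ^ 2 := by
  unfold A11
  rw [pow_two (al1 z t), ← mul_assoc]
  have t1 := abs_mul_le' (abs_mul_le' (abs_const 4 (by norm_num)) h.a1) h.a1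
  have t2 := abs_mul_le' (abs_mul_le' (abs_const 2 (by norm_num)) h.a) h.a2
  exact (abs_add_le _ _).trans (le_trans (add_le_add t1 t2) (le_of_eq (by ring)))

lemma bd21 : |A21 z t| ≤ (18 * K.k4 + 6 * K.k1 * K.k3 + 6 * K.k2) * ρ ^ 3 * q ^ 2 := by
  unfold A21
  have t1 := abs_mul_le' (abs_mul_le' (abs_const 3 (by norm_num)) h.a) h.b2
  have t2 := abs_mul_le' (abs_mul_le' (abs_const 6 (by norm_num)) h.a1) h.b1
  have t3 := abs_mul_le' h.b h.a2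
  exact (abs_add3 _ _ _).trans (le_trans (add_le_add (add_le_add t1 t2) t3) (le_of_eq (by ring)))

lemma bd31 : |A31 z t| ≤ (9 * K.k3 ^ 2 + 36 * K.k4) * ρ ^ 4 * q ^ 2 := by
  unfold A31
  rw [pow_two (be1 z t), ← mul_assoc]
  have t1 := abs_mul_le' (abs_mul_le' (abs_const 9 (by norm_num)) h.b1) h.b1
  have t2 := abs_mul_le' (abs_mul_le' (abs_const 6 (by norm_num)) h.b) h.b2
  exact (abs_add_le _ _).trans (le_trans (add_le_add t1 t2) (le_of_eq (by ring)))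

lemma bd12 : |A12 z t| ≤ (4 * K.k1 * K.k2) * ρ * q ^ 3 := by
  unfold A12
  have t1 := abs_mul_le' (abs_mul_le' (abs_const 4 (by norm_num)) h.a1) h.a2
  exact le_trans t1 (le_of_eq (by ring))

lemma bd22 : |A22 z t| ≤ (6 * K.k5 + 6 * K.k1 * K.k4 + 3 * K.k2 * K.k3) * ρ ^ 2 * q ^ 3 := by
  unfold A22
  have t1 := abs_mul_le' h.a h.b3
  have t2 := abs_mul_le' (abs_mul_le' (abs_const 6 (by norm_num)) h.a1) h.b2
  have t3 := abs_mul_le' (abs_mul_le' (abs_const 3 (by norm_num)) h.a2) h.b1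
  exact (abs_add3 _ _ _).trans (le_trans (add_le_add (add_le_add t1 t2) t3) (le_of_eq (by ring)))

lemma bd32 : |A32 z t| ≤ (12 * K.k5 + 18 * K.k3 * K.k4) * ρ ^ 3 * q ^ 3 := by
  unfold A32
  have t1 := abs_mul_le' (abs_mul_le' (abs_const 2 (by norm_num)) h.b) h.b3
  have t2 := abs_mul_le' (abs_mul_le' (abs_const 18 (by norm_num)) h.b1) h.b2
  exact (abs_add_le _ _).trans (le_trans (add_le_add t1 t2) (le_of_eq (by ring)))

lemma bd13 : |A13 z t| ≤ K.k2 ^ 2 * q ^ 4 := by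
  unfold A13
  rw [pow_two (al2 z t)]
  exact le_trans (abs_mul_le' h.a2 h.a2) (le_of_eq (by ring))

lemma bd23 : |A23 z t| ≤ (2 * K.k1 * K.k5 + 3 * K.k2 * K.k4) * ρ * q ^ 4 := by
  unfold A23
  have t1 := abs_mul_le' (abs_mul_le' (abs_const 2 (by norm_num)) h.a1) h.b3
  have t2 := abs_mul_le' (abs_mul_le' (abs_const 3 (by norm_num)) h.a2) h.b2
  exact (abs_add_le _ _).trans (le_trans (add_le_add t1 t2) (le_of_eq (by ring)))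

lemma bd33 : |A33 z t| ≤ (9 * K.k4 ^ 2 + 6 * K.k3 * K.k5) * ρ ^ 2 * q ^ 4 := by
  unfold A33
  rw [pow_two (be2 z t), ← mul_assoc]
  have t1 := abs_mul_le' (abs_mul_le' (abs_const 9 (by norm_num)) h.b2) h.b2
  have t2 := abs_mul_le' (abs_mul_le' (abs_const 6 (by norm_num)) h.b1) h.b3
  exact (abs_add_le _ _).trans (le_trans (add_le_add t1 t2) (le_of_eq (by ring)))

lemma bd24 : |A24 z t| ≤ (K.k2 * K.k5) * q ^ 5 := by
  unfold A24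
  exact le_trans (abs_mul_le' h.a2 h.b3) (le_of_eq (by ring))

lemma bd34 : |A34 z t| ≤ (6 * K.k4 * K.k5) * ρ * q ^ 5 := by
  unfold A34
  have t1 := abs_mul_le' (abs_mul_le' (abs_const 6 (by norm_num)) h.b2) h.b3
  exact le_trans t1 (le_of_eq (by ring))

lemma bd35 : |A35 z t| ≤ K.k5 ^ 2 * q ^ 6 := by
  unfold A35
  rw [pow_two (be3 z t)]
  exact le_trans (abs_mul_le' h.b3 h.b3) (le_of_eq (by ring))

end Abounds

/-- Upper bounds for the coefficient functions. -/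
noncomputable def Ab1 (K : Ks) (c1 c2 c4 ρ q : ℝ) : ℝ :=
  K.k2 * q ^ 2 + |c1| / 36 * ((4 * K.k1 ^ 2 + 12 * K.k2) * ρ ^ 2 * q ^ 2)
    + |c2| / 36 * ((18 * K.k4 + 6 * K.k1 * K.k3 + 6 * K.k2) * ρ ^ 3 * q ^ 2)
    + |c4| / 36 * ((9 * K.k3 ^ 2 + 36 * K.k4) * ρ ^ 4 * q ^ 2)
noncomputable def Ab2 (K : Ks) (c1 c2 c4 ρ q : ℝ) : ℝ :=
  |c1| / 36 * ((4 * K.k1 * K.k2) * ρ * q ^ 3)
    + |c2| / 36 * ((6 * K.k5 + 6 * K.k1 * K.k4 + 3 * K.k2 * K.k3) * ρ ^ 2 * q ^ 3)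
    + |c4| / 36 * ((12 * K.k5 + 18 * K.k3 * K.k4) * ρ ^ 3 * q ^ 3)
noncomputable def Ab3 (K : Ks) (c1 c2 c4 ρ q : ℝ) : ℝ :=
  |c1| / 36 * (K.k2 ^ 2 * q ^ 4)
    + |c2| / 36 * ((2 * K.k1 * K.k5 + 3 * K.k2 * K.k4) * ρ * q ^ 4)
    + |c4| / 36 * ((9 * K.k4 ^ 2 + 6 * K.k3 * K.k5) * ρ ^ 2 * q ^ 4)
noncomputable def Ab4 (K : Ks) (c2 c4 ρ q : ℝ) : ℝ :=
  |c2| / 36 * ((K.k2 * K.k5) * q ^ 5) + |c4| / 36 * ((6 * K.k4 * K.k5) * ρ * q ^ 5)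
noncomputable def Ab5 (K : Ks) (c4 q : ℝ) : ℝ := |c4| / 36 * (K.k5 ^ 2 * q ^ 6)

lemma abs_cmul (c x X : ℝ) (hx : |x| ≤ X) : |c / 36 * x| ≤ |c| / 36 * X := by
  rw [abs_mul, abs_div, abs_of_pos (by norm_num : (0 : ℝ) < 36)]
  exact mul_le_mul_of_nonneg_left hx (by positivity)

section Ajbounds

variable {K : Ks} {z t : Fin 3 → ℝ} {ρ q : ℝ} (h : AtomB K z t ρ q) (c1 c2 c4 : ℝ)
include h

lemma bdj1 : |Aj1 c1 c2 c4 z t| ≤ Ab1 K c1 c2 c4 ρ q := by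
  unfold Aj1 Ab1
  have t0 := bd01 h
  have t1 := abs_cmul c1 _ _ (bd11 h)
  have t2 := abs_cmul c2 _ _ (bd21 h)
  have t3 := abs_cmul c4 _ _ (bd31 h)
  calc _ ≤ |A01 z t + c1 / 36 * A11 z t + c2 / 36 * A21 z t| + |c4 / 36 * A31 z t| := abs_add_le _ _
    _ ≤ |A01 z t| + |c1 / 36 * A11 z t| + |c2 / 36 * A21 z t| + |c4 / 36 * A31 z t| := by
      linarith [abs_add3 (A01 z t) (c1 / 36 * A11 z t) (c2 / 36 * A21 z t)]
    _ ≤ _ := by linarith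

lemma bdj2 : |Aj2 c1 c2 c4 z t| ≤ Ab2 K c1 c2 c4 ρ q := by
  unfold Aj2 Ab2
  have t1 := abs_cmul c1 _ _ (bd12 h)
  have t2 := abs_cmul c2 _ _ (bd22 h)
  have t3 := abs_cmul c4 _ _ (bd32 h)
  exact (abs_add3 _ _ _).trans (by linarith)

lemma bdj3 : |Aj3 c1 c2 c4 z t| ≤ Ab3 K c1 c2 c4 ρ q := by
  unfold Aj3 Ab3
  have t1 := abs_cmul c1 _ _ (bd13 h)
  have t2 := abs_cmul c2 _ _ (bd23 h)
  have t3 := abs_cmul c4 _ _ (bd33 h)
  exact (abs_add3 _ _ _).trans (by linarith)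

lemma bdj4 : |Aj4 c2 c4 z t| ≤ Ab4 K c2 c4 ρ q := by
  unfold Aj4 Ab4
  have t1 := abs_cmul c2 _ _ (bd24 h)
  have t2 := abs_cmul c4 _ _ (bd34 h)
  exact (abs_add_le _ _).trans (by linarith)

lemma bdj5 : |Aj5 c4 z t| ≤ Ab5 K c4 q := by
  unfold Aj5 Ab5
  exact abs_cmul c4 _ _ (bd35 h)

end Ajbounds

end Vale.Agent.P154
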