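import Vale.Agent.P154.Poly

/-!
Averages over the symmetric group `S₃` of monomials in two coordinates of a sum-zero vector.
-/

open Finset

namespace Vale.Agent.P154.PolyR

lemma perm3_sum (f : Equiv.Perm (Fin 3) → ℝ) :
    ∑ g, f g = f 1 + f (Equiv.swap 1 2) + f (Equiv.swap 0 1) + f (Equiv.swap 0 1 * Equiv.swap 1 2)
      + f (Equiv.swap 1 2 * Equiv.swap 0 1) + f (Equiv.swap 0 2) := by
  have h : (Finset.univ : Finset (Equiv.Perm (Fin 3))) =
      {1, Equiv.swap 1 2, Equiv.swap 0 1, Equiv.swap 0 1 * Equiv.swap 1 2,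
        Equiv.swap 1 2 * Equiv.swap 0 1, Equiv.swap 0 2} := by decide
  rw [h]
  rw [Finset.sum_insert (by decide), Finset.sum_insert (by decide), Finset.sum_insert (by decide),
    Finset.sum_insert (by decide), Finset.sum_insert (by decide), Finset.sum_singleton]
  ring

lemma perm3_sum2 (F : Fin 3 → Fin 3 → Fin 3 → ℝ) :
    ∑ g : Equiv.Perm (Fin 3), F (g 0) (g 1) (g 2)
      = F 0 1 2 + F 0 2 1 + F 1 0 2 + F 1 2 0 + F 2 0 1 + F 2 1 0 := by
  rw [perm3_sum]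
  have e1 : (Equiv.swap (1 : Fin 3) 2) 0 = 0 := by decide
  have e2 : (Equiv.swap (1 : Fin 3) 2) 1 = 2 := by decide
  have e3 : (Equiv.swap (1 : Fin 3) 2) 2 = 1 := by decide
  simp only [show ((1 : Equiv.Perm (Fin 3)) 0 = 0) by decide, show ((1 : Equiv.Perm (Fin 3)) 1 = 1) by decide,
    show ((1 : Equiv.Perm (Fin 3)) 2 = 2) by decide, e1, e2, e3,
    show (Equiv.swap (0 : Fin 3) 1) 0 = 1 by decide, show (Equiv.swap (0 : Fin 3) 1) 1 = 0 by decide,
    show (Equiv.swap (0 : Fin 3) 1) 2 = 2 by decide,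
    show (Equiv.swap (0 : Fin 3) 1 * Equiv.swap 1 2 : Equiv.Perm (Fin 3)) 0 = 1 by decide,
    show (Equiv.swap (0 : Fin 3) 1 * Equiv.swap 1 2 : Equiv.Perm (Fin 3)) 1 = 2 by decide,
    show (Equiv.swap (0 : Fin 3) 1 * Equiv.swap 1 2 : Equiv.Perm (Fin 3)) 2 = 0 by decide,
    show (Equiv.swap (1 : Fin 3) 2 * Equiv.swap 0 1 : Equiv.Perm (Fin 3)) 0 = 2 by decide,
    show (Equiv.swap (1 : Fin 3) 2 * Equiv.swap 0 1 : Equiv.Perm (Fin 3)) 1 = 0 by decide,
    show (Equiv.swap (1 : Fin 3) 2 * Equiv.swap 0 1 : Equiv.Perm (Fin 3)) 2 = 1 by decide,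
    show (Equiv.swap (0 : Fin 3) 2) 0 = 2 by decide, show (Equiv.swap (0 : Fin 3) 2) 1 = 1 by decide,
    show (Equiv.swap (0 : Fin 3) 2) 2 = 0 by decide]

/-- `A = (∑ t_i²) / 6`. -/
noncomputable def iA (t : Fin 3 → ℝ) : ℝ := (∑ i, t i ^ 2) / 6
/-- `B = (∑ t_i³) / 6`. -/
noncomputable def iB (t : Fin 3 → ℝ) : ℝ := (∑ i, t i ^ 3) / 6

/-- The average of `t_{g 0}^p t_{g 1}^q` over permutations. -/
noncomputable def mom (t : Fin 3 → ℝ) (p q : ℕ) : ℝ :=
  (1 / 6) * ∑ g : Equiv.Perm (Fin 3), t (g 0) ^ p * t (g 1) ^ q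

lemma cubic (t : Fin 3 → ℝ) (ht : ∑ i, t i = 0) (i : Fin 3) :
    t i ^ 3 = 3 * iA t * t i + 2 * iB t := by
  have h2 : t 2 = - t 0 - t 1 := by
    rw [Fin.sum_univ_three] at ht; linarith
  unfold iA iB
  simp only [Fin.sum_univ_three, h2]
  fin_cases i
  · simp; ring
  · simp; ring
  · simp [h2]; ring

lemma mom_succ_left (t : Fin 3 → ℝ) (ht : ∑ i, t i = 0) (p q : ℕ) :
    mom t (p + 3) q = 3 * iA t * mom t (p + 1) q + 2 * iB t * mom t p q := by
  have key : ∀ g : Equiv.Perm (Fin 3), t (g 0) ^ (p + 3) * t (g 1) ^ q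
      = 3 * iA t * (t (g 0) ^ (p + 1) * t (g 1) ^ q) + 2 * iB t * (t (g 0) ^ p * t (g 1) ^ q) := by
    intro g
    have := cubic t ht (g 0)
    rw [pow_add, this]
    ring
  unfold mom
  simp only [key, Finset.sum_add_distrib, ← Finset.mul_sum]
  ring

lemma mom_succ_right (t : Fin 3 → ℝ) (ht : ∑ i, t i = 0) (p q : ℕ) :
    mom t p (q + 3) = 3 * iA t * mom t p (q + 1) + 2 * iB t * mom t p q := by
  have key : ∀ g : Equiv.Perm (Fin 3), t (g 0) ^ p * t (g 1) ^ (q + 3)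
      = 3 * iA t * (t (g 0) ^ p * t (g 1) ^ (q + 1)) + 2 * iB t * (t (g 0) ^ p * t (g 1) ^ q) := by
    intro g
    have := cubic t ht (g 1)
    rw [pow_add, this]
    ring
  unfold mom
  simp only [key, Finset.sum_add_distrib, ← Finset.mul_sum]
  ring

lemma mom_expand (t : Fin 3 → ℝ) (p q : ℕ) :
    mom t p q = (1 / 6) * (t 0 ^ p * t 1 ^ q + t 0 ^ p * t 2 ^ q + t 1 ^ p * t 0 ^ q
      + t 1 ^ p * t 2 ^ q + t 2 ^ p * t 0 ^ q + t 2 ^ p * t 1 ^ q) := by
  unfold mom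
  rw [perm3_sum2 (fun a b _ => t a ^ p * t b ^ q)]

/-- Moment polynomial: fixed first exponent (values at `q = 0, 1, 2` given). -/
noncomputable def Sq (va vb s0 s1 s2 : Poly) : ℕ → Poly
  | 0 => s0
  | 1 => s1
  | 2 => s2
  | q + 3 => add (mul (smul 3 va) (Sq va vb s0 s1 s2 (q + 1))) (mul (smul 2 vb) (Sq va vb s0 s1 s2 q))

/-- Moment polynomial in the generic variables `va`, `vb` standing for `iA t`, `iB t`. -/
noncomputable def Sp (va vb : Poly) : ℕ → ℕ → Poly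
  | 0, q => Sq va vb one [] (smul 2 va) q
  | 1, q => Sq va vb [] (smul (-1) va) (smul (-1) vb) q
  | 2, q => Sq va vb (smul 2 va) (smul (-1) vb) (smul 3 (mul va va)) q
  | p + 3, q => add (mul (smul 3 va) (Sp va vb (p + 1) q)) (mul (smul 2 vb) (Sp va vb p q))

lemma ev_Sq (t : Fin 3 → ℝ) (ht : ∑ i, t i = 0) (va vb s0 s1 s2 : Poly) (x1 x2 x3 x4 : ℝ)
    (ha : ev va x1 x2 x3 x4 = iA t) (hb : ev vb x1 x2 x3 x4 = iB t) (p : ℕ)
    (h0 : ev s0 x1 x2 x3 x4 = mom t p 0) (h1 : ev s1 x1 x2 x3 x4 = mom t p 1)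
    (h2 : ev s2 x1 x2 x3 x4 = mom t p 2) (q : ℕ) :
    ev (Sq va vb s0 s1 s2 q) x1 x2 x3 x4 = mom t p q := by
  induction q using Nat.strong_induction_on with
  | _ q ih =>
    match q, ih with
    | 0, _ => simpa [Sq] using h0
    | 1, _ => simpa [Sq] using h1
    | 2, _ => simpa [Sq] using h2
    | q + 3, ih =>
      have e : Sq va vb s0 s1 s2 (q + 3) = add (mul (smul 3 va) (Sq va vb s0 s1 s2 (q + 1)))
          (mul (smul 2 vb) (Sq va vb s0 s1 s2 q)) := by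
        rw [Sq]
      rw [e, ev_add, ev_mul, ev_mul, ev_smul, ev_smul, ih (q + 1) (by omega), ih q (by omega), ha, hb,
        mom_succ_right t ht]
      push_cast
      ring

lemma ev_Sp (t : Fin 3 → ℝ) (ht : ∑ i, t i = 0) (va vb : Poly) (x1 x2 x3 x4 : ℝ)
    (ha : ev va x1 x2 x3 x4 = iA t) (hb : ev vb x1 x2 x3 x4 = iB t) (p q : ℕ) :
    ev (Sp va vb p q) x1 x2 x3 x4 = mom t p q := by
  have h2 : t 2 = - t 0 - t 1 := by
    rw [Fin.sum_univ_three] at ht; linarith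
  have hA : iA t = (t 0 ^ 2 + t 1 ^ 2 + t 2 ^ 2) / 6 := by
    simp [iA, Fin.sum_univ_three]
  have hB : iB t = (t 0 ^ 3 + t 1 ^ 3 + t 2 ^ 3) / 6 := by
    simp [iB, Fin.sum_univ_three]
  induction p using Nat.strong_induction_on with
  | _ p ih =>
    match p, ih with
    | 0, _ =>
      have e : Sp va vb 0 q = Sq va vb one [] (smul 2 va) q := by rw [Sp]
      rw [e]
      refine ev_Sq t ht va vb _ _ _ x1 x2 x3 x4 ha hb 0 ?_ ?_ ?_ q
      · rw [mom_expand]; simp; norm_num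
      · rw [mom_expand, ev_nil]; simp; rw [h2]; ring
      · rw [mom_expand, ev_smul, ha, hA, h2]; push_cast; ring
    | 1, _ =>
      have e : Sp va vb 1 q = Sq va vb [] (smul (-1) va) (smul (-1) vb) q := by rw [Sp]
      rw [e]
      refine ev_Sq t ht va vb _ _ _ x1 x2 x3 x4 ha hb 1 ?_ ?_ ?_ q
      · rw [mom_expand, ev_nil]; simp; rw [h2]; ring
      · rw [mom_expand, ev_smul, ha, hA, h2]; push_cast; ring
      · rw [mom_expand, ev_smul, hb, hB, h2]; push_cast; ring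
    | 2, _ =>
      have e : Sp va vb 2 q = Sq va vb (smul 2 va) (smul (-1) vb) (smul 3 (mul va va)) q := by rw [Sp]
      rw [e]
      refine ev_Sq t ht va vb _ _ _ x1 x2 x3 x4 ha hb 2 ?_ ?_ ?_ q
      · rw [mom_expand, ev_smul, ha, hA, h2]; push_cast; ring
      · rw [mom_expand, ev_smul, hb, hB, h2]; push_cast; ring
      · rw [mom_expand, ev_smul, ev_mul, ha, hA, h2]; push_cast; ring
    | p + 3, ih =>
      have e : Sp va vb (p + 3) q = add (mul (smul 3 va) (Sp va vb (p + 1) q))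
          (mul (smul 2 vb) (Sp va vb p q)) := by rw [Sp]
      rw [e, ev_add, ev_mul, ev_mul, ev_smul, ev_smul, ih (p + 1) (by omega), ih p (by omega), ha, hb,
        mom_succ_left t ht]
      push_cast
      ring

end Vale.Agent.P154.PolyR
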