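import Vale.Agent.P154.Law
import Vale.Agent.P154.Moment

/-!
The averages over `S₃` of the polynomial parts of the potential.
-/

open Finset

namespace Vale.Agent.P154

open PolyR

/-- The weight `u = ⟨z, t⟩ / 3`. -/
noncomputable def uu (z t : Fin 3 → ℝ) : ℝ := (∑ i, z i * t i) / 3
/-- The increment `w_i = (1 + z_i) (t_i - u)`. -/
noncomputable def ww (z t : Fin 3 → ℝ) (i : Fin 3) : ℝ := (1 + z i) * (t i - uu z t)
noncomputable def al1 (z t : Fin 3 → ℝ) : ℝ := ∑ i, z i * ww z t i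
noncomputable def al2 (z t : Fin 3 → ℝ) : ℝ := ∑ i, ww z t i ^ 2
noncomputable def be1 (z t : Fin 3 → ℝ) : ℝ := ∑ i, z i ^ 2 * ww z t i
noncomputable def be2 (z t : Fin 3 → ℝ) : ℝ := ∑ i, z i * ww z t i ^ 2
noncomputable def be3 (z t : Fin 3 → ℝ) : ℝ := ∑ i, ww z t i ^ 3

lemma uu_perm (z t : Fin 3 → ℝ) (h : Equiv.Perm (Fin 3)) :
    uu (z ∘ h) (t ∘ h) = uu z t := by
  unfold uu
  congr 1
  exact Equiv.sum_comp h fun i => z i * t i

lemma ww_perm (z t : Fin 3 → ℝ) (h : Equiv.Perm (Fin 3)) (i : Fin 3) :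
    ww (z ∘ h) (t ∘ h) i = ww z t (h i) := by
  unfold ww
  rw [uu_perm]
  rfl

lemma al1_perm (z t : Fin 3 → ℝ) (h : Equiv.Perm (Fin 3)) : al1 (z ∘ h) (t ∘ h) = al1 z t := by
  unfold al1
  simp only [ww_perm, Function.comp]
  exact Equiv.sum_comp h fun i => z i * ww z t i

lemma al2_perm (z t : Fin 3 → ℝ) (h : Equiv.Perm (Fin 3)) : al2 (z ∘ h) (t ∘ h) = al2 z t := by
  unfold al2
  simp only [ww_perm]
  exact Equiv.sum_comp h fun i => ww z t i ^ 2

lemma be1_perm (z t : Fin 3 → ℝ) (h : Equiv.Perm (Fin 3)) : be1 (z ∘ h) (t ∘ h) = be1 z t := by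
  unfold be1
  simp only [ww_perm, Function.comp]
  exact Equiv.sum_comp h fun i => z i ^ 2 * ww z t i

lemma be2_perm (z t : Fin 3 → ℝ) (h : Equiv.Perm (Fin 3)) : be2 (z ∘ h) (t ∘ h) = be2 z t := by
  unfold be2
  simp only [ww_perm, Function.comp]
  exact Equiv.sum_comp h fun i => z i * ww z t i ^ 2

lemma be3_perm (z t : Fin 3 → ℝ) (h : Equiv.Perm (Fin 3)) : be3 (z ∘ h) (t ∘ h) = be3 z t := by
  unfold be3
  simp only [ww_perm]
  exact Equiv.sum_comp h fun i => ww z t i ^ 3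

lemma s2_perm (z : Fin 3 → ℝ) (h : Equiv.Perm (Fin 3)) : s2 (z ∘ h) = s2 z := by
  unfold s2
  exact Equiv.sum_comp h fun i => z i ^ 2

lemma s3_perm (z : Fin 3 → ℝ) (h : Equiv.Perm (Fin 3)) : s3 (z ∘ h) = s3 z := by
  unfold s3
  exact Equiv.sum_comp h fun i => z i ^ 3

/-! ### Polynomial images -/

noncomputable def pz0 : Poly := v1
noncomputable def pz1 : Poly := v2
noncomputable def pz2 : Poly := smul (-1) (add v1 v2)
noncomputable def pt0 : Poly := v3
noncomputable def pt1 : Poly := v4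
noncomputable def pt2 : Poly := smul (-1) (add v3 v4)
/-- Three times `u`. -/
noncomputable def pU : Poly := add (add (mul pz0 pt0) (mul pz1 pt1)) (mul pz2 pt2)
noncomputable def pW (pz pt : Poly) : Poly := mul (add one pz) (add (smul 3 pt) (smul (-1) pU))
noncomputable def pW0 : Poly := pW pz0 pt0
noncomputable def pW1 : Poly := pW pz1 pt1
noncomputable def pW2 : Poly := pW pz2 pt2
noncomputable def pa : Poly := add (add (mul pz0 pz0) (mul pz1 pz1)) (mul pz2 pz2)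
noncomputable def pb : Poly :=
  add (add (mul pz0 (mul pz0 pz0)) (mul pz1 (mul pz1 pz1))) (mul pz2 (mul pz2 pz2))
noncomputable def pal1 : Poly := add (add (mul pz0 pW0) (mul pz1 pW1)) (mul pz2 pW2)
noncomputable def pal2 : Poly := add (add (mul pW0 pW0) (mul pW1 pW1)) (mul pW2 pW2)
noncomputable def pbe1 : Poly :=
  add (add (mul (mul pz0 pz0) pW0) (mul (mul pz1 pz1) pW1)) (mul (mul pz2 pz2) pW2)
noncomputable def pbe2 : Poly :=
  add (add (mul pz0 (mul pW0 pW0)) (mul pz1 (mul pW1 pW1))) (mul pz2 (mul pW2 pW2))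
noncomputable def pbe3 : Poly :=
  add (add (mul pW0 (mul pW0 pW0)) (mul pW1 (mul pW1 pW1))) (mul pW2 (mul pW2 pW2))

set_option linter.unusedSectionVars false

section evals

variable (z t : Fin 3 → ℝ) (hz : ∑ i, z i = 0) (ht : ∑ i, t i = 0)

include hz in
lemma z2_eq : z 2 = - z 0 - z 1 := by
  rw [Fin.sum_univ_three] at hz; linarith

include ht in
lemma t2_eq : t 2 = - t 0 - t 1 := by
  rw [Fin.sum_univ_three] at ht; linarith

include hz ht

lemma ev_pU : ev pU (z 0) (z 1) (t 0) (t 1) = 3 * uu z t := by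
  unfold pU pz0 pz1 pz2 pt0 pt1 pt2 uu
  simp only [ev_add, ev_mul, ev_smul, ev_v1, ev_v2, ev_v3, ev_v4, Fin.sum_univ_three,
    z2_eq z hz, t2_eq t ht]
  push_cast
  ring

lemma ev_pW0 : ev pW0 (z 0) (z 1) (t 0) (t 1) = 3 * ww z t 0 := by
  unfold pW0 pW pz0 pt0 ww
  simp only [ev_add, ev_mul, ev_smul, ev_one, ev_v1, ev_v3, ev_pU z t hz ht]
  push_cast
  ring

lemma ev_pW1 : ev pW1 (z 0) (z 1) (t 0) (t 1) = 3 * ww z t 1 := by
  unfold pW1 pW pz1 pt1 ww
  simp only [ev_add, ev_mul, ev_smul, ev_one, ev_v2, ev_v4, ev_pU z t hz ht]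
  push_cast
  ring

lemma ev_pW2 : ev pW2 (z 0) (z 1) (t 0) (t 1) = 3 * ww z t 2 := by
  unfold pW2 pW pz2 pt2 ww
  simp only [ev_add, ev_mul, ev_smul, ev_one, ev_v1, ev_v2, ev_v3, ev_v4, ev_pU z t hz ht,
    z2_eq z hz, t2_eq t ht]
  push_cast
  ring

lemma ev_pz0 : ev pz0 (z 0) (z 1) (t 0) (t 1) = z 0 := by simp [pz0]
lemma ev_pz1 : ev pz1 (z 0) (z 1) (t 0) (t 1) = z 1 := by simp [pz1]
lemma ev_pz2 : ev pz2 (z 0) (z 1) (t 0) (t 1) = z 2 := by
  simp only [pz2, ev_smul, ev_add, ev_v1, ev_v2, z2_eq z hz]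
  push_cast; ring

lemma ev_pa : ev pa (z 0) (z 1) (t 0) (t 1) = s2 z := by
  unfold pa s2
  simp only [ev_add, ev_mul, ev_pz0 z t hz ht, ev_pz1 z t hz ht, ev_pz2 z t hz ht, Fin.sum_univ_three]
  ring

lemma ev_pb : ev pb (z 0) (z 1) (t 0) (t 1) = s3 z := by
  unfold pb s3
  simp only [ev_add, ev_mul, ev_pz0 z t hz ht, ev_pz1 z t hz ht, ev_pz2 z t hz ht, Fin.sum_univ_three]
  ring

lemma ev_pal1 : ev pal1 (z 0) (z 1) (t 0) (t 1) = 3 * al1 z t := by
  unfold pal1 al1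
  simp only [ev_add, ev_mul, ev_pz0 z t hz ht, ev_pz1 z t hz ht, ev_pz2 z t hz ht,
    ev_pW0 z t hz ht, ev_pW1 z t hz ht, ev_pW2 z t hz ht, Fin.sum_univ_three]
  ring

lemma ev_pal2 : ev pal2 (z 0) (z 1) (t 0) (t 1) = 9 * al2 z t := by
  unfold pal2 al2
  simp only [ev_add, ev_mul, ev_pW0 z t hz ht, ev_pW1 z t hz ht, ev_pW2 z t hz ht, Fin.sum_univ_three]
  ring

lemma ev_pbe1 : ev pbe1 (z 0) (z 1) (t 0) (t 1) = 3 * be1 z t := by
  unfold pbe1 be1
  simp only [ev_add, ev_mul, ev_pz0 z t hz ht, ev_pz1 z t hz ht, ev_pz2 z t hz ht,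
    ev_pW0 z t hz ht, ev_pW1 z t hz ht, ev_pW2 z t hz ht, Fin.sum_univ_three]
  ring

lemma ev_pbe2 : ev pbe2 (z 0) (z 1) (t 0) (t 1) = 9 * be2 z t := by
  unfold pbe2 be2
  simp only [ev_add, ev_mul, ev_pz0 z t hz ht, ev_pz1 z t hz ht, ev_pz2 z t hz ht,
    ev_pW0 z t hz ht, ev_pW1 z t hz ht, ev_pW2 z t hz ht, Fin.sum_univ_three]
  ring

lemma ev_pbe3 : ev pbe3 (z 0) (z 1) (t 0) (t 1) = 27 * be3 z t := by
  unfold pbe3 be3
  simp only [ev_add, ev_mul, ev_pW0 z t hz ht, ev_pW1 z t hz ht, ev_pW2 z t hz ht, Fin.sum_univ_three]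
  ring

end evals

/-! ### Moment maps -/

/-- A list nth with default. -/
noncomputable def nthD {α : Type} (l : List α) : α → ℕ → α :=
  fun d => List.rec (motive := fun _ => ℕ → α) (fun _ => d)
    (fun a _ ih n => cond (Nat.beq n 0) a (ih (Nat.sub n 1))) l

/-- Table of the values `f s, f (s + 1), …`. -/
noncomputable def tabF {α : Type} (f : ℕ → α) : ℕ → ℕ → List α
  | _, 0 => []
  | s, m + 1 => f s :: tabF f (s + 1) m

lemma nthD_tabF {α : Type} (f : ℕ → α) (m s n : ℕ) :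
    nthD (tabF f s m) (f (s + n)) n = f (s + n) := by
  induction m generalizing s n with
  | zero => rfl
  | succ m ih =>
    cases n with
    | zero => rfl
    | succ n =>
      have e : nthD (tabF f s (m + 1)) (f (s + (n + 1))) (n + 1)
          = nthD (tabF f (s + 1) m) (f (s + (n + 1))) n := rfl
      rw [e]
      have e2 : s + (n + 1) = s + 1 + n := by omega
      rw [e2]
      exact ih (s + 1) n

/-- Table of moment polynomials. -/
noncomputable def momTab (va vb : Poly) : List (List Poly) :=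
  tabF (fun p => tabF (fun q => Sp va vb p q) 0 40) 0 40

/-- Lookup in the table of moment polynomials. -/
noncomputable def momLook (tb : List (List Poly)) (va vb : Poly) (p q : ℕ) : Poly :=
  nthD (nthD tb (tabF (fun q => Sp va vb p q) 0 40) p) (Sp va vb p q) q

lemma momLook_eq (va vb : Poly) (p q : ℕ) : momLook (momTab va vb) va vb p q = Sp va vb p q := by
  unfold momLook momTab
  have h1 := nthD_tabF (fun p => tabF (fun q => Sp va vb p q) 0 40) 40 0 p
  simp only [zero_add] at h1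
  rw [h1]
  have h2 := nthD_tabF (fun q => Sp va vb p q) 40 0 q
  simp only [zero_add] at h2
  exact h2

/-- The table for the second pair of variables. -/
noncomputable def tabT : List (List Poly) := momTab v3 v4
/-- The table for the first pair of variables. -/
noncomputable def tabZ : List (List Poly) := momTab v1 v2

/-- Pushes `f` through a list. -/
noncomputable def mapR {α β : Type} (f : α → β) (l : List α) : List β :=
  List.rec (motive := fun _ => List β) [] (fun a _ ih => f a :: ih) l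

/-- Average over the permutations of the second pair of variables. -/
noncomputable def mapT (p : Poly) : Poly :=
  mergeAll 20 (mapR (fun m =>
    mulTerm ⟨Nat.add (Nat.mul m.e1 16777216) (Nat.mul m.e2 65536), m.e1, m.e2, 0, 0, m.c⟩
      (momLook tabT v3 v4 m.e3 m.e4)) p)

/-- Average over the permutations of the first pair of variables. -/
noncomputable def mapZ (p : Poly) : Poly :=
  mergeAll 20 (mapR (fun m =>
    mulTerm ⟨Nat.add (Nat.mul m.e3 256) m.e4, 0, 0, m.e3, m.e4, m.c⟩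
      (momLook tabZ v1 v2 m.e1 m.e2)) p)

lemma ev_mapT (p : Poly) (x1 x2 : ℝ) (t : Fin 3 → ℝ) (ht : ∑ i, t i = 0) :
    ev (mapT p) x1 x2 (iA t) (iB t)
      = (1 / 6) * ∑ g : Equiv.Perm (Fin 3), ev p x1 x2 (t (g 0)) (t (g 1)) := by
  unfold mapT
  rw [ev_mergeAll]
  induction p with
  | nil => simp [mapR, evs]
  | cons m p ih =>
    have e : mapR (fun m : Tm =>
        mulTerm ⟨Nat.add (Nat.mul m.e1 16777216) (Nat.mul m.e2 65536), m.e1, m.e2, 0, 0, m.c⟩
          (momLook tabT v3 v4 m.e3 m.e4)) (m :: p)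
        = mulTerm ⟨Nat.add (Nat.mul m.e1 16777216) (Nat.mul m.e2 65536), m.e1, m.e2, 0, 0, m.c⟩
          (momLook tabT v3 v4 m.e3 m.e4) :: mapR (fun m : Tm =>
        mulTerm ⟨Nat.add (Nat.mul m.e1 16777216) (Nat.mul m.e2 65536), m.e1, m.e2, 0, 0, m.c⟩
          (momLook tabT v3 v4 m.e3 m.e4)) p := rfl
    rw [e]
    have h0 : ∀ (a : Poly) (l : List Poly) (y1 y2 y3 y4 : ℝ),
        evs (a :: l) y1 y2 y3 y4 = ev a y1 y2 y3 y4 + evs l y1 y2 y3 y4 := by
      intro a l y1 y2 y3 y4; simp [evs]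
    rw [h0, ih]
    simp only [ev_cons, Finset.sum_add_distrib, mul_add]
    congr 1
    rw [ev_mulTerm]
    unfold tabT
    rw [momLook_eq, ev_Sp t ht v3 v4 x1 x2 (iA t) (iB t) (by simp) (by simp)]
    simp only [Tm.val, mom, pow_zero, mul_one]
    rw [Finset.mul_sum, Finset.mul_sum, Finset.mul_sum]
    refine Finset.sum_congr rfl fun g _ => ?_
    ring

lemma ev_mapZ (p : Poly) (x3 x4 : ℝ) (z : Fin 3 → ℝ) (hz : ∑ i, z i = 0) :
    ev (mapZ p) (iA z) (iB z) x3 x4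
      = (1 / 6) * ∑ g : Equiv.Perm (Fin 3), ev p (z (g 0)) (z (g 1)) x3 x4 := by
  unfold mapZ
  rw [ev_mergeAll]
  induction p with
  | nil => simp [mapR, evs]
  | cons m p ih =>
    have e : mapR (fun m : Tm =>
        mulTerm ⟨Nat.add (Nat.mul m.e3 256) m.e4, 0, 0, m.e3, m.e4, m.c⟩
          (momLook tabZ v1 v2 m.e1 m.e2)) (m :: p)
        = mulTerm ⟨Nat.add (Nat.mul m.e3 256) m.e4, 0, 0, m.e3, m.e4, m.c⟩
          (momLook tabZ v1 v2 m.e1 m.e2) :: mapR (fun m : Tm =>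
        mulTerm ⟨Nat.add (Nat.mul m.e3 256) m.e4, 0, 0, m.e3, m.e4, m.c⟩
          (momLook tabZ v1 v2 m.e1 m.e2)) p := rfl
    rw [e]
    have h0 : ∀ (a : Poly) (l : List Poly) (y1 y2 y3 y4 : ℝ),
        evs (a :: l) y1 y2 y3 y4 = ev a y1 y2 y3 y4 + evs l y1 y2 y3 y4 := by
      intro a l y1 y2 y3 y4; simp [evs]
    rw [h0, ih]
    simp only [ev_cons, Finset.sum_add_distrib, mul_add]
    congr 1
    rw [ev_mulTerm]
    unfold tabZ
    rw [momLook_eq, ev_Sp z hz v1 v2 (iA z) (iB z) x3 x4 (by simp) (by simp)]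
    simp only [Tm.val, mom, pow_zero, mul_one]
    rw [Finset.mul_sum, Finset.mul_sum, Finset.mul_sum]
    refine Finset.sum_congr rfl fun g _ => ?_
    ring

/-! ### Averaging -/

/-- Repeated multiplication by `pU`. -/
noncomputable def iterU (N : Poly) : ℕ → Poly
  | 0 => N
  | l + 1 => mul pU (iterU N l)

lemma sum_zero_comp (t : Fin 3 → ℝ) (ht : ∑ i, t i = 0) (g : Equiv.Perm (Fin 3)) :
    ∑ i, (t ∘ g) i = 0 := by
  rw [← ht]
  exact Equiv.sum_comp g t

lemma ev_iterU (N : Poly) (sc : ℝ) (AF : (Fin 3 → ℝ) → (Fin 3 → ℝ) → ℝ)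
    (hN : ∀ z t : Fin 3 → ℝ, ∑ i, z i = 0 → ∑ i, t i = 0 →
      ev N (z 0) (z 1) (t 0) (t 1) = sc * AF z t)
    (z t : Fin 3 → ℝ) (hz : ∑ i, z i = 0) (ht : ∑ i, t i = 0) (l : ℕ) :
    ev (iterU N l) (z 0) (z 1) (t 0) (t 1) = sc * AF z t * (3 * uu z t) ^ l := by
  induction l with
  | zero => simp [iterU, hN z t hz ht]
  | succ l ih =>
    show ev (mul pU (iterU N l)) (z 0) (z 1) (t 0) (t 1) = _
    rw [ev_mul, ih, ev_pU z t hz ht]
    ring

/-- The main averaging identity. -/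
lemma avg_row (N : Poly) (sc : ℝ) (AF : (Fin 3 → ℝ) → (Fin 3 → ℝ) → ℝ)
    (hN : ∀ z t : Fin 3 → ℝ, ∑ i, z i = 0 → ∑ i, t i = 0 →
      ev N (z 0) (z 1) (t 0) (t 1) = sc * AF z t)
    (hinv : ∀ (z t : Fin 3 → ℝ) (h : Equiv.Perm (Fin 3)), AF (z ∘ h) (t ∘ h) = AF z t)
    (z t : Fin 3 → ℝ) (hz : ∑ i, z i = 0) (ht : ∑ i, t i = 0) (l : ℕ) :
    ev (mapZ (mapT (iterU N l))) (iA z) (iB z) (iA t) (iB t)
      = (1 / 6) * ∑ g : Equiv.Perm (Fin 3),
          sc * AF z (t ∘ g) * (3 * uu z (t ∘ g)) ^ l := by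
  rw [ev_mapZ _ _ _ z hz]
  have h1 : ∀ h : Equiv.Perm (Fin 3), ev (mapT (iterU N l)) (z (h 0)) (z (h 1)) (iA t) (iB t)
      = (1 / 6) * ∑ g : Equiv.Perm (Fin 3), sc * AF z (t ∘ g) * (3 * uu z (t ∘ g)) ^ l := by
    intro h
    rw [ev_mapT _ _ _ t ht]
    congr 1
    have h2 : ∀ g : Equiv.Perm (Fin 3), ev (iterU N l) (z (h 0)) (z (h 1)) (t (g 0)) (t (g 1))
        = sc * AF z (t ∘ (g * h⁻¹ : Equiv.Perm (Fin 3))) * (3 * uu z (t ∘ (g * h⁻¹ : Equiv.Perm (Fin 3)))) ^ l := by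
      intro g
      have hz' := sum_zero_comp z hz h
      have ht' := sum_zero_comp t ht g
      have := ev_iterU N sc AF hN (z ∘ h) (t ∘ g) hz' ht' l
      simp only [Function.comp] at this
      rw [this]
      have e : t ∘ g = (t ∘ (g * h⁻¹ : Equiv.Perm (Fin 3))) ∘ h := by
        funext i
        simp [Function.comp, Equiv.Perm.mul_apply]
      rw [e, hinv, uu_perm]
    simp only [h2]
    exact Equiv.sum_comp (Equiv.mulRight h⁻¹)
      (fun g : Equiv.Perm (Fin 3) => sc * AF z (t ∘ g) * (3 * uu z (t ∘ g)) ^ l)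
  simp only [h1, Finset.sum_const, Finset.card_univ, Fintype.card_perm, Fintype.card_fin]
  simp [Nat.factorial]

/-- Check of the table rows of a polynomial `cur`, `pU * cur`, … . -/
noncomputable def chkRows (rows : List Poly) : Poly → Bool :=
  List.rec (motive := fun _ => Poly → Bool) (fun _ => true)
    (fun r _ ih cur => and (beqP (mapZ (mapT cur)) r) (ih (mul pU cur))) rows

/-- Integer combination of rows. -/
noncomputable def combo (pi : List ℤ) : List Poly → Poly :=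
  List.rec (motive := fun _ => List Poly → Poly) (fun _ => [])
    (fun a _ ih rows => List.rec (motive := fun _ => Poly) []
      (fun r rs _ => add (smul a r) (ih rs)) rows) pi

/-- Value of an integer polynomial with coefficient list `pi`. -/
noncomputable def evalZ (pi : List ℤ) (x : ℝ) : ℝ :=
  List.rec (motive := fun _ => ℝ) 0 (fun a _ ih => (a : ℝ) + x * ih) pi

@[simp] lemma evalZ_nil (x : ℝ) : evalZ [] x = 0 := rfl
@[simp] lemma evalZ_cons (a : ℤ) (pi : List ℤ) (x : ℝ) :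
    evalZ (a :: pi) x = (a : ℝ) + x * evalZ pi x := rfl

lemma iterU_succ' (N : Poly) (i : ℕ) : mul pU (iterU N i) = iterU N (i + 1) := rfl

lemma ev_combo (N : Poly) (sc : ℝ) (AF : (Fin 3 → ℝ) → (Fin 3 → ℝ) → ℝ)
    (hN : ∀ z t : Fin 3 → ℝ, ∑ i, z i = 0 → ∑ i, t i = 0 →
      ev N (z 0) (z 1) (t 0) (t 1) = sc * AF z t)
    (hinv : ∀ (z t : Fin 3 → ℝ) (h : Equiv.Perm (Fin 3)), AF (z ∘ h) (t ∘ h) = AF z t)
    (z t : Fin 3 → ℝ) (hz : ∑ i, z i = 0) (ht : ∑ i, t i = 0)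
    (pi : List ℤ) (rows : List Poly) (i : ℕ) (hc : chkRows rows (iterU N i) = true)
    (hlen : pi.length ≤ rows.length) :
    ev (combo pi rows) (iA z) (iB z) (iA t) (iB t)
      = (1 / 6) * ∑ g : Equiv.Perm (Fin 3),
          sc * AF z (t ∘ g) * (3 * uu z (t ∘ g)) ^ i * evalZ pi (3 * uu z (t ∘ g)) := by
  induction pi generalizing rows i with
  | nil => simp [combo]
  | cons a pi ih =>
    cases rows with
    | nil => simp at hlen
    | cons r rs =>
      have e : combo (a :: pi) (r :: rs) = add (smul a r) (combo pi rs) := rfl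
      have hc' : and (beqP (mapZ (mapT (iterU N i))) r) (chkRows rs (iterU N (i + 1))) = true := hc
      simp only [Bool.and_eq_true] at hc'
      obtain ⟨h1, h2⟩ := hc'
      rw [e, ev_add, ev_smul, ih rs (i + 1) h2 (by simpa using hlen),
        ← ev_of_beqP _ _ h1, avg_row N sc AF hN hinv z t hz ht i, mul_left_comm, ← mul_add,
        Finset.mul_sum, ← Finset.sum_add_distrib]
      congr 1
      refine Finset.sum_congr rfl fun g _ => ?_
      simp only [evalZ_cons]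
      ring

end Vale.Agent.P154
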