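import Mathlib

/-!
A certificate checker for polynomial inequalities in four nonnegative real variables.
All computation is on natural numbers, in a form that the kernel evaluates quickly.
-/

namespace Vale.Agent.P154.Cert

/-- Value, two derivatives and remainder bound of a monomial at the centre of a cell. -/
structure Jet where
  p : ℕ
  d1 : ℕ
  d2 : ℕ
  e : ℕ

/-- `|a - b|` on natural numbers. -/
def absDiff (a b : ℕ) : ℕ := Nat.add (Nat.sub a b) (Nat.sub b a)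

/-- Jet of `(x + δ₁)^a (t + δ₂)^b` on `|δ₁| ≤ h1`, `|δ₂| ≤ h2`. -/
def jet (x h1 t h2 a b : ℕ) : Jet :=
  let xa := Nat.pow x a
  let tb := Nat.pow t b
  let dx := Nat.mul a (Nat.pow x (Nat.sub a 1))
  let dt := Nat.mul b (Nat.pow t (Nat.sub b 1))
  let p := Nat.mul xa tb
  let d1 := Nat.mul dx tb
  let d2 := Nat.mul xa dt
  ⟨p, d1, d2, Nat.sub (Nat.mul (Nat.pow (Nat.add x h1) a) (Nat.pow (Nat.add t h2) b))
      (Nat.add p (Nat.add (Nat.mul d1 h1) (Nat.mul d2 h2)))⟩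

/-- Terms `c * X^a * T^b`, stored as `(c, a, b)`. -/
abbrev TL := List (ℕ × ℕ × ℕ)

/-- Sum of jets. -/
noncomputable def sumJet (x h1 t h2 : ℕ) (l : TL) : Jet :=
  List.rec (motive := fun _ => Jet) ⟨0, 0, 0, 0⟩
    (fun c _ ih =>
      let J := jet x h1 t h2 c.2.1 c.2.2
      ⟨Nat.add (Nat.mul c.1 J.p) ih.p, Nat.add (Nat.mul c.1 J.d1) ih.d1,
       Nat.add (Nat.mul c.1 J.d2) ih.d2, Nat.add (Nat.mul c.1 J.e) ih.e⟩) l

/-- A group of terms: `Q^n S^s * (pos - neg)(X, T)`. -/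
structure Gp where
  n : ℕ
  s : ℕ
  pos : TL
  neg : TL

/-- Outer jets of a group. -/
structure CJ where
  n : ℕ
  s : ℕ
  P : Jet
  N : Jet

noncomputable def mkOuter (x h1 t h2 : ℕ) (gs : List Gp) : List CJ :=
  List.rec (motive := fun _ => List CJ) []
    (fun g _ ih => ⟨g.n, g.s, sumJet x h1 t h2 g.pos, sumJet x h1 t h2 g.neg⟩ :: ih) gs

/-- Accumulators of the inner evaluation. -/
structure Acc where
  Vp : ℕ
  Vn : ℕ
  V1p : ℕ
  V1n : ℕ
  V2p : ℕ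
  V2n : ℕ
  V3p : ℕ
  V3n : ℕ
  V4p : ℕ
  V4n : ℕ
  R : ℕ

noncomputable def innerAcc (h1 h2 q h3 s h4 : ℕ) (l : List CJ) : Acc :=
  List.rec (motive := fun _ => Acc) ⟨0, 0, 0, 0, 0, 0, 0, 0, 0, 0, 0⟩
    (fun C _ A =>
      let M := jet q h3 s h4 C.n C.s
      let Cb := Nat.add (Nat.mul (absDiff C.P.d1 C.N.d1) h1) (Nat.mul (absDiff C.P.d2 C.N.d2) h2)
      let Mb := Nat.add (Nat.mul M.d1 h3) (Nat.mul M.d2 h4)
      let e := Nat.add C.P.e C.N.e
      ⟨Nat.add (Nat.mul C.P.p M.p) A.Vp, Nat.add (Nat.mul C.N.p M.p) A.Vn,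
       Nat.add (Nat.mul C.P.d1 M.p) A.V1p, Nat.add (Nat.mul C.N.d1 M.p) A.V1n,
       Nat.add (Nat.mul C.P.d2 M.p) A.V2p, Nat.add (Nat.mul C.N.d2 M.p) A.V2n,
       Nat.add (Nat.mul C.P.p M.d1) A.V3p, Nat.add (Nat.mul C.N.p M.d1) A.V3n,
       Nat.add (Nat.mul C.P.p M.d2) A.V4p, Nat.add (Nat.mul C.N.p M.d2) A.V4n,
       Nat.add (Nat.add (Nat.mul Cb Mb) (Nat.mul e (Nat.add M.p (Nat.add Mb M.e))))
         (Nat.add (Nat.mul (Nat.add (absDiff C.P.p C.N.p) Cb) M.e) A.R)⟩) l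

/-- The bound at an inner leaf is negative. -/
def leafOK (h1 h2 h3 h4 : ℕ) (A : Acc) : Bool :=
  Nat.blt (Nat.add A.Vp (Nat.add (Nat.mul (absDiff A.V1p A.V1n) h1)
    (Nat.add (Nat.mul (absDiff A.V2p A.V2n) h2)
      (Nat.add (Nat.mul (absDiff A.V3p A.V3n) h3)
        (Nat.add (Nat.mul (absDiff A.V4p A.V4n) h4) A.R))))) A.Vn

/-! ### Real semantics -/

/-- Value of a term list. -/
noncomputable def evalTL (l : TL) (X T : ℝ) : ℝ :=
  List.rec (motive := fun _ => ℝ) 0 (fun c _ ih => (c.1 : ℝ) * X ^ c.2.1 * T ^ c.2.2 + ih) l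

@[simp] lemma evalTL_nil (X T : ℝ) : evalTL [] X T = 0 := rfl
@[simp] lemma evalTL_cons (c : ℕ × ℕ × ℕ) (l : TL) (X T : ℝ) :
    evalTL (c :: l) X T = (c.1 : ℝ) * X ^ c.2.1 * T ^ c.2.2 + evalTL l X T := rfl

/-- Value of a list of groups. -/
noncomputable def evalG (gs : List Gp) (X T Q S : ℝ) : ℝ :=
  List.rec (motive := fun _ => ℝ) 0
    (fun g _ ih => (evalTL g.pos X T - evalTL g.neg X T) * (Q ^ g.n * S ^ g.s) + ih) gs

@[simp] lemma evalG_nil (X T Q S : ℝ) : evalG [] X T Q S = 0 := rfl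
@[simp] lemma evalG_cons (g : Gp) (gs : List Gp) (X T Q S : ℝ) :
    evalG (g :: gs) X T Q S
      = (evalTL g.pos X T - evalTL g.neg X T) * (Q ^ g.n * S ^ g.s) + evalG gs X T Q S := rfl

/-- Jets are valid approximations. -/
def JetOK (f : ℝ → ℝ → ℝ) (J : Jet) (h1 h2 : ℝ) : Prop :=
  ∀ δ1 δ2 : ℝ, |δ1| ≤ h1 → |δ2| ≤ h2 →
    |f δ1 δ2 - (J.p + J.d1 * δ1 + J.d2 * δ2)| ≤ J.e

lemma cast_sub_ge (a b : ℕ) : (a : ℝ) - b ≤ ((a - b : ℕ) : ℝ) := by
  rcases le_total b a with h | h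
  · rw [Nat.cast_sub h]
  · rw [Nat.sub_eq_zero_of_le h]
    have : (a : ℝ) ≤ b := by exact_mod_cast h
    simpa using this

lemma cast_absDiff (a b : ℕ) : ((absDiff a b : ℕ) : ℝ) = |(a : ℝ) - b| := by
  show (((a - b) + (b - a) : ℕ) : ℝ) = _
  rcases le_total b a with h | h
  · rw [Nat.sub_eq_zero_of_le h, Nat.add_zero, Nat.cast_sub h, abs_of_nonneg]
    have : (b : ℝ) ≤ a := by exact_mod_cast h
    linarith
  · rw [Nat.sub_eq_zero_of_le h, Nat.zero_add, Nat.cast_sub h, abs_of_nonpos, neg_sub]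
    have : (a : ℝ) ≤ b := by exact_mod_cast h
    linarith

/-- One dimensional remainder bound for powers. -/
lemma pow_rem (x h : ℝ) (hx : 0 ≤ x) (hh : 0 ≤ h) (n : ℕ) (δ : ℝ) (hδ : |δ| ≤ h) :
    |(x + δ) ^ n - (x ^ n + n * x ^ (n - 1) * δ)| ≤ (x + h) ^ n - (x ^ n + n * x ^ (n - 1) * h) := by
  induction n with
  | zero => simp
  | succ k ih =>
    have hd2 : δ ^ 2 ≤ h ^ 2 := by
      rw [← sq_abs δ]; exact pow_le_pow_left₀ (abs_nonneg _) hδ 2
    have hR : |x + δ| ≤ x + h := by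
      calc |x + δ| ≤ |x| + |δ| := abs_add_le _ _
        _ ≤ x + h := by rw [abs_of_nonneg hx]; linarith
    have key : ∀ y : ℝ, (x + y) ^ (k + 1) - (x ^ (k + 1) + ((k + 1 : ℕ) : ℝ) * x ^ (k + 1 - 1) * y)
        = (x + y) * ((x + y) ^ k - (x ^ k + k * x ^ (k - 1) * y)) + k * x ^ (k - 1) * y ^ 2 := by
      intro y
      rcases k with _ | j
      · simp
      · simp only [Nat.add_sub_cancel, pow_succ]
        push_cast
        ring
    rw [key δ, key h]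
    have hk : (0 : ℝ) ≤ k * x ^ (k - 1) := by positivity
    have h1 : |(x + δ) * ((x + δ) ^ k - (x ^ k + k * x ^ (k - 1) * δ))|
        ≤ (x + h) * ((x + h) ^ k - (x ^ k + k * x ^ (k - 1) * h)) := by
      rw [abs_mul]
      exact mul_le_mul hR ih (abs_nonneg _) (by linarith [abs_nonneg (x + δ)])
    have h2 : |(k : ℝ) * x ^ (k - 1) * δ ^ 2| ≤ k * x ^ (k - 1) * h ^ 2 := by
      rw [abs_mul, abs_of_nonneg hk, abs_of_nonneg (sq_nonneg δ)]
      exact mul_le_mul_of_nonneg_left hd2 hk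
    exact (abs_add_le _ _).trans (add_le_add h1 h2)

lemma jet_ok (x h1 t h2 a b : ℕ) :
    JetOK (fun δ1 δ2 => ((x : ℝ) + δ1) ^ a * ((t : ℝ) + δ2) ^ b) (jet x h1 t h2 a b) h1 h2 := by
  intro δ1 δ2 hδ1 hδ2
  have hx : (0 : ℝ) ≤ x := Nat.cast_nonneg _
  have ht : (0 : ℝ) ≤ t := Nat.cast_nonneg _
  have hh1 : (0 : ℝ) ≤ h1 := Nat.cast_nonneg _
  have hh2 : (0 : ℝ) ≤ h2 := Nat.cast_nonneg _
  have r1 := pow_rem x h1 hx hh1 a δ1 hδ1
  have r2 := pow_rem t h2 ht hh2 b δ2 hδ2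
  -- abbreviations
  set xa : ℝ := (x : ℝ) ^ a with hxa
  set tb : ℝ := (t : ℝ) ^ b with htb
  set dx : ℝ := (a : ℝ) * (x : ℝ) ^ (a - 1) with hdx
  set dt : ℝ := (b : ℝ) * (t : ℝ) ^ (b - 1) with hdt
  have hxa0 : 0 ≤ xa := by positivity
  have htb0 : 0 ≤ tb := by positivity
  have hdx0 : 0 ≤ dx := by positivity
  have hdt0 : 0 ≤ dt := by positivity
  have hp : (((jet x h1 t h2 a b).p : ℕ) : ℝ) = xa * tb := by
    show ((Nat.mul (Nat.pow x a) (Nat.pow t b) : ℕ) : ℝ) = _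
    simp [hxa, htb]
  have hd1 : (((jet x h1 t h2 a b).d1 : ℕ) : ℝ) = dx * tb := by
    show ((Nat.mul (Nat.mul a (Nat.pow x (Nat.sub a 1))) (Nat.pow t b) : ℕ) : ℝ) = _
    simp [hdx, htb]
  have hd2 : (((jet x h1 t h2 a b).d2 : ℕ) : ℝ) = xa * dt := by
    show ((Nat.mul (Nat.pow x a) (Nat.mul b (Nat.pow t (Nat.sub b 1))) : ℕ) : ℝ) = _
    simp [hxa, hdt]
  have he : ((x : ℝ) + h1) ^ a * ((t : ℝ) + h2) ^ b - (xa * tb + (dx * tb * h1 + xa * dt * h2))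
      ≤ (((jet x h1 t h2 a b).e : ℕ) : ℝ) := by
    have hE : (jet x h1 t h2 a b).e = (x + h1) ^ a * (t + h2) ^ b
        - (x ^ a * t ^ b + (a * x ^ (a - 1) * t ^ b * h1 + x ^ a * (b * t ^ (b - 1)) * h2)) := rfl
    rw [hE]
    refine le_trans (le_of_eq ?_) (cast_sub_ge _ _)
    push_cast
    rw [hxa, htb, hdx, hdt]
  rw [hp, hd1, hd2]
  refine le_trans ?_ he
  -- the remainders
  set P : ℝ := ((x : ℝ) + δ1) ^ a with hP
  set Q : ℝ := ((t : ℝ) + δ2) ^ b with hQ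
  set PH : ℝ := ((x : ℝ) + h1) ^ a with hPH
  set QH : ℝ := ((t : ℝ) + h2) ^ b with hQH
  set R1 : ℝ := PH - (xa + dx * h1) with hR1
  set R2 : ℝ := QH - (tb + dt * h2) with hR2
  have hR10 : 0 ≤ R1 := le_trans (abs_nonneg _) r1
  have hR20 : 0 ≤ R2 := le_trans (abs_nonneg _) r2
  have hQabs : |Q| ≤ QH := by
    rw [hQ, abs_pow]
    apply pow_le_pow_left₀ (abs_nonneg _)
    calc |(t : ℝ) + δ2| ≤ |(t : ℝ)| + |δ2| := abs_add_le _ _
      _ ≤ t + h2 := by rw [abs_of_nonneg ht]; linarith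
  set r1v : ℝ := P - (xa + dx * δ1) with hr1v
  set r2v : ℝ := Q - (tb + dt * δ2) with hr2v
  have e1 : P * Q - (xa * tb + dx * tb * δ1 + xa * dt * δ2)
      = xa * r2v + dx * δ1 * (dt * δ2) + dx * δ1 * r2v + r1v * Q := by
    rw [hr1v, hr2v]; ring
  have e2 : PH * QH - (xa * tb + (dx * tb * h1 + xa * dt * h2))
      = xa * R2 + dx * h1 * (dt * h2) + dx * h1 * R2 + R1 * QH := by
    rw [hR1, hR2]; ring
  rw [e1, e2]
  have a1 : |xa * r2v| ≤ xa * R2 := by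
    rw [abs_mul, abs_of_nonneg hxa0]; exact mul_le_mul_of_nonneg_left r2 hxa0
  have a2 : |dx * δ1 * (dt * δ2)| ≤ dx * h1 * (dt * h2) := by
    rw [abs_mul (dx * δ1), abs_mul dx δ1, abs_mul dt δ2, abs_of_nonneg hdx0, abs_of_nonneg hdt0]
    exact mul_le_mul (mul_le_mul_of_nonneg_left hδ1 hdx0) (mul_le_mul_of_nonneg_left hδ2 hdt0)
      (by positivity) (by positivity)
  have a3 : |dx * δ1 * r2v| ≤ dx * h1 * R2 := by
    rw [abs_mul (dx * δ1), abs_mul dx δ1, abs_of_nonneg hdx0]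
    exact mul_le_mul (mul_le_mul_of_nonneg_left hδ1 hdx0) r2 (abs_nonneg _) (by positivity)
  have a4 : |r1v * Q| ≤ R1 * QH := by
    rw [abs_mul]
    exact mul_le_mul r1 hQabs (abs_nonneg _) hR10
  calc _ ≤ |xa * r2v + dx * δ1 * (dt * δ2) + dx * δ1 * r2v| + |r1v * Q| := abs_add_le _ _
    _ ≤ |xa * r2v + dx * δ1 * (dt * δ2)| + |dx * δ1 * r2v| + |r1v * Q| := by
        gcongr; exact abs_add_le _ _
    _ ≤ |xa * r2v| + |dx * δ1 * (dt * δ2)| + |dx * δ1 * r2v| + |r1v * Q| := by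
        gcongr; exact abs_add_le _ _
    _ ≤ _ := by linarith

lemma sumJet_ok (x h1 t h2 : ℕ) (l : TL) :
    JetOK (fun δ1 δ2 => evalTL l ((x : ℝ) + δ1) ((t : ℝ) + δ2)) (sumJet x h1 t h2 l) h1 h2 := by
  induction l with
  | nil =>
    intro δ1 δ2 _ _
    show |(0 : ℝ) - (((0 : ℕ) : ℝ) + ((0 : ℕ) : ℝ) * δ1 + ((0 : ℕ) : ℝ) * δ2)| ≤ ((0 : ℕ) : ℝ)
    simp
  | cons c l ih =>
    intro δ1 δ2 h1' h2'
    have hJ := jet_ok x h1 t h2 c.2.1 c.2.2 δ1 δ2 h1' h2'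
    have hI := ih δ1 δ2 h1' h2'
    set J := jet x h1 t h2 c.2.1 c.2.2 with hJdef
    set S := sumJet x h1 t h2 l with hS
    have e : sumJet x h1 t h2 (c :: l) = ⟨Nat.add (Nat.mul c.1 J.p) S.p, Nat.add (Nat.mul c.1 J.d1) S.d1,
       Nat.add (Nat.mul c.1 J.d2) S.d2, Nat.add (Nat.mul c.1 J.e) S.e⟩ := rfl
    rw [e]
    simp only [evalTL_cons, Nat.add_eq, Nat.mul_eq, Nat.cast_add, Nat.cast_mul]
    have hc : (0 : ℝ) ≤ c.1 := Nat.cast_nonneg _
    have e2 : (c.1 : ℝ) * (x + δ1) ^ c.2.1 * (t + δ2) ^ c.2.2 + evalTL l (x + δ1) (t + δ2)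
          - ((c.1 : ℝ) * J.p + S.p + ((c.1 : ℝ) * J.d1 + S.d1) * δ1 + ((c.1 : ℝ) * J.d2 + S.d2) * δ2)
        = (c.1 : ℝ) * (((x : ℝ) + δ1) ^ c.2.1 * ((t : ℝ) + δ2) ^ c.2.2 - (J.p + J.d1 * δ1 + J.d2 * δ2))
          + (evalTL l (x + δ1) (t + δ2) - (S.p + S.d1 * δ1 + S.d2 * δ2)) := by ring
    rw [e2]
    calc _ ≤ |(c.1 : ℝ) * (((x : ℝ) + δ1) ^ c.2.1 * ((t : ℝ) + δ2) ^ c.2.2 - (J.p + J.d1 * δ1 + J.d2 * δ2))|
            + |evalTL l (x + δ1) (t + δ2) - (S.p + S.d1 * δ1 + S.d2 * δ2)| := abs_add_le _ _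
      _ ≤ _ := by
        rw [abs_mul, abs_of_nonneg hc]
        exact add_le_add (mul_le_mul_of_nonneg_left hJ hc) hI


/-! ### Inner evaluation -/

lemma step_bound (fP fN mv Pp Pd1 Pd2 Pe Np Nd1 Nd2 Ne mp md1 md2 me δ1 δ2 δ3 δ4 h1 h2 h3 h4 : ℝ)
    (hP : |fP - (Pp + Pd1 * δ1 + Pd2 * δ2)| ≤ Pe) (hN : |fN - (Np + Nd1 * δ1 + Nd2 * δ2)| ≤ Ne)
    (hM : |mv - (mp + md1 * δ3 + md2 * δ4)| ≤ me)
    (hmp : 0 ≤ mp) (hm1 : 0 ≤ md1) (hm2 : 0 ≤ md2)
    (h1' : |δ1| ≤ h1) (h2' : |δ2| ≤ h2) (h3' : |δ3| ≤ h3) (h4' : |δ4| ≤ h4) :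
    |(fP - fN) * mv - ((Pp - Np) * mp + ((Pd1 - Nd1) * mp) * δ1 + ((Pd2 - Nd2) * mp) * δ2
        + ((Pp - Np) * md1) * δ3 + ((Pp - Np) * md2) * δ4)|
      ≤ (|Pd1 - Nd1| * h1 + |Pd2 - Nd2| * h2) * (md1 * h3 + md2 * h4)
        + (Pe + Ne) * (mp + (md1 * h3 + md2 * h4) + me)
        + (|Pp - Np| + (|Pd1 - Nd1| * h1 + |Pd2 - Nd2| * h2)) * me := by
  set v := Pp - Np with hv
  set L := (Pd1 - Nd1) * δ1 + (Pd2 - Nd2) * δ2 with hL
  set Pm := md1 * δ3 + md2 * δ4 with hPm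
  set ε := (fP - fN) - (v + L) with hε
  set ε' := mv - (mp + Pm) with hε'
  set Cb := |Pd1 - Nd1| * h1 + |Pd2 - Nd2| * h2 with hCb
  set Mb := md1 * h3 + md2 * h4 with hMb
  set e := Pe + Ne with he
  have hε1 : |ε| ≤ e := by
    have : ε = (fP - (Pp + Pd1 * δ1 + Pd2 * δ2)) - (fN - (Np + Nd1 * δ1 + Nd2 * δ2)) := by
      rw [hε, hv, hL]; ring
    rw [this]
    exact (abs_sub _ _).trans (add_le_add hP hN)
  have hε2 : |ε'| ≤ me := by
    have : ε' = mv - (mp + md1 * δ3 + md2 * δ4) := by rw [hε', hPm]; ring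
    rw [this]; exact hM
  have hL1 : |L| ≤ Cb := by
    refine (abs_add_le _ _).trans (add_le_add ?_ ?_)
    · rw [abs_mul]; exact mul_le_mul_of_nonneg_left h1' (abs_nonneg _)
    · rw [abs_mul]; exact mul_le_mul_of_nonneg_left h2' (abs_nonneg _)
  have hPm1 : |Pm| ≤ Mb := by
    refine (abs_add_le _ _).trans (add_le_add ?_ ?_)
    · rw [abs_mul, abs_of_nonneg hm1]; exact mul_le_mul_of_nonneg_left h3' hm1
    · rw [abs_mul, abs_of_nonneg hm2]; exact mul_le_mul_of_nonneg_left h4' hm2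
  have hCb0 : 0 ≤ Cb := le_trans (abs_nonneg _) hL1
  have hMb0 : 0 ≤ Mb := le_trans (abs_nonneg _) hPm1
  have he0 : 0 ≤ e := le_trans (abs_nonneg _) hε1
  have hme0 : 0 ≤ me := le_trans (abs_nonneg _) hε2
  have key : (fP - fN) * mv - (v * mp + ((Pd1 - Nd1) * mp) * δ1 + ((Pd2 - Nd2) * mp) * δ2
        + (v * md1) * δ3 + (v * md2) * δ4)
      = L * Pm + ε * (mp + Pm + ε') + (v + L) * ε' := by
    have e1 : fP - fN = v + L + ε := by rw [hε]; ring
    have e2 : mv = mp + Pm + ε' := by rw [hε']; ring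
    rw [e1, e2, hL, hPm]; ring
  rw [key]
  have a1 : |L * Pm| ≤ Cb * Mb := by
    rw [abs_mul]; exact mul_le_mul hL1 hPm1 (abs_nonneg _) hCb0
  have a2 : |ε * (mp + Pm + ε')| ≤ e * (mp + Mb + me) := by
    rw [abs_mul]
    refine mul_le_mul hε1 ?_ (abs_nonneg _) he0
    calc |mp + Pm + ε'| ≤ |mp + Pm| + |ε'| := abs_add_le _ _
      _ ≤ |mp| + |Pm| + |ε'| := by gcongr; exact abs_add_le _ _
      _ ≤ mp + Mb + me := by rw [abs_of_nonneg hmp]; linarith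
  have a3 : |(v + L) * ε'| ≤ (|v| + Cb) * me := by
    rw [abs_mul]
    refine mul_le_mul ?_ hε2 (abs_nonneg _) (by positivity)
    exact (abs_add_le _ _).trans (by linarith)
  calc _ ≤ |L * Pm + ε * (mp + Pm + ε')| + |(v + L) * ε'| := abs_add_le _ _
    _ ≤ |L * Pm| + |ε * (mp + Pm + ε')| + |(v + L) * ε'| := by gcongr; exact abs_add_le _ _
    _ ≤ _ := by linarith

/-- Linear part of the accumulators. -/
noncomputable def Acc.lin (A : Acc) (δ1 δ2 δ3 δ4 : ℝ) : ℝ :=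
  ((A.Vp : ℝ) - A.Vn) + ((A.V1p : ℝ) - A.V1n) * δ1 + ((A.V2p : ℝ) - A.V2n) * δ2
    + ((A.V3p : ℝ) - A.V3n) * δ3 + ((A.V4p : ℝ) - A.V4n) * δ4

lemma innerAcc_spec (x h1 t h2 q h3 s h4 : ℕ) (gs : List Gp) (δ1 δ2 δ3 δ4 : ℝ)
    (h1' : |δ1| ≤ h1) (h2' : |δ2| ≤ h2) (h3' : |δ3| ≤ h3) (h4' : |δ4| ≤ h4) :
    |evalG gs ((x : ℝ) + δ1) ((t : ℝ) + δ2) ((q : ℝ) + δ3) ((s : ℝ) + δ4)
        - (innerAcc h1 h2 q h3 s h4 (mkOuter x h1 t h2 gs)).lin δ1 δ2 δ3 δ4|
      ≤ (innerAcc h1 h2 q h3 s h4 (mkOuter x h1 t h2 gs)).R := by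
  induction gs with
  | nil =>
    have : innerAcc h1 h2 q h3 s h4 (mkOuter x h1 t h2 []) = ⟨0, 0, 0, 0, 0, 0, 0, 0, 0, 0, 0⟩ := rfl
    rw [this]
    simp [Acc.lin]
  | cons g gs ih =>
    set A := innerAcc h1 h2 q h3 s h4 (mkOuter x h1 t h2 gs) with hA
    set P := sumJet x h1 t h2 g.pos with hP
    set N := sumJet x h1 t h2 g.neg with hN
    set M := jet q h3 s h4 g.n g.s with hM
    have e : innerAcc h1 h2 q h3 s h4 (mkOuter x h1 t h2 (g :: gs)) =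
      ⟨P.p * M.p + A.Vp, N.p * M.p + A.Vn,
       P.d1 * M.p + A.V1p, N.d1 * M.p + A.V1n,
       P.d2 * M.p + A.V2p, N.d2 * M.p + A.V2n,
       P.p * M.d1 + A.V3p, N.p * M.d1 + A.V3n,
       P.p * M.d2 + A.V4p, N.p * M.d2 + A.V4n,
       ((absDiff P.d1 N.d1 * h1 + absDiff P.d2 N.d2 * h2) * (M.d1 * h3 + M.d2 * h4)
         + (P.e + N.e) * (M.p + ((M.d1 * h3 + M.d2 * h4) + M.e)))
         + ((absDiff P.p N.p + (absDiff P.d1 N.d1 * h1 + absDiff P.d2 N.d2 * h2)) * M.e + A.R)⟩ := rfl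
    have hPok := sumJet_ok x h1 t h2 g.pos δ1 δ2 h1' h2'
    have hNok := sumJet_ok x h1 t h2 g.neg δ1 δ2 h1' h2'
    have hMok := jet_ok q h3 s h4 g.n g.s δ3 δ4 h3' h4'
    have hstep := step_bound _ _ _ _ _ _ _ _ _ _ _ _ _ _ _ δ1 δ2 δ3 δ4 h1 h2 h3 h4 hPok hNok hMok
      (Nat.cast_nonneg _) (Nat.cast_nonneg _) (Nat.cast_nonneg _) h1' h2' h3' h4'
    rw [e, evalG_cons]
    simp only [Acc.lin] at ih ⊢
    simp only [Nat.cast_add, Nat.cast_mul, cast_absDiff]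
    refine le_trans (le_of_eq ?_) ((abs_add_le _ _).trans (add_le_add hstep ih)) |>.trans (le_of_eq ?_)
    · congr 1; ring
    · ring

lemma leaf_bound (x h1 t h2 q h3 s h4 : ℕ) (gs : List Gp)
    (hl : leafOK h1 h2 h3 h4 (innerAcc h1 h2 q h3 s h4 (mkOuter x h1 t h2 gs)) = true)
    (δ1 δ2 δ3 δ4 : ℝ)
    (h1' : |δ1| ≤ h1) (h2' : |δ2| ≤ h2) (h3' : |δ3| ≤ h3) (h4' : |δ4| ≤ h4) :
    evalG gs ((x : ℝ) + δ1) ((t : ℝ) + δ2) ((q : ℝ) + δ3) ((s : ℝ) + δ4) < 0 := by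
  have hs := innerAcc_spec x h1 t h2 q h3 s h4 gs δ1 δ2 δ3 δ4 h1' h2' h3' h4'
  set A := innerAcc h1 h2 q h3 s h4 (mkOuter x h1 t h2 gs) with hA
  have hlt : A.Vp + (absDiff A.V1p A.V1n * h1 + (absDiff A.V2p A.V2n * h2
      + (absDiff A.V3p A.V3n * h3 + (absDiff A.V4p A.V4n * h4 + A.R)))) < A.Vn := by
    have := Nat.le_of_ble_eq_true hl
    simpa [Nat.succ_le_iff] using this
  have hlt' : (A.Vp : ℝ) + (|(A.V1p : ℝ) - A.V1n| * h1 + (|(A.V2p : ℝ) - A.V2n| * h2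
      + (|(A.V3p : ℝ) - A.V3n| * h3 + (|(A.V4p : ℝ) - A.V4n| * h4 + A.R)))) < A.Vn := by
    have : ((A.Vp + (absDiff A.V1p A.V1n * h1 + (absDiff A.V2p A.V2n * h2
      + (absDiff A.V3p A.V3n * h3 + (absDiff A.V4p A.V4n * h4 + A.R)))) : ℕ) : ℝ) < A.Vn := by
      exact_mod_cast hlt
    simpa [cast_absDiff] using this
  have b1 : ((A.V1p : ℝ) - A.V1n) * δ1 ≤ |(A.V1p : ℝ) - A.V1n| * h1 :=
    (le_abs_self _).trans (by rw [abs_mul]; exact mul_le_mul_of_nonneg_left h1' (abs_nonneg _))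
  have b2 : ((A.V2p : ℝ) - A.V2n) * δ2 ≤ |(A.V2p : ℝ) - A.V2n| * h2 :=
    (le_abs_self _).trans (by rw [abs_mul]; exact mul_le_mul_of_nonneg_left h2' (abs_nonneg _))
  have b3 : ((A.V3p : ℝ) - A.V3n) * δ3 ≤ |(A.V3p : ℝ) - A.V3n| * h3 :=
    (le_abs_self _).trans (by rw [abs_mul]; exact mul_le_mul_of_nonneg_left h3' (abs_nonneg _))
  have b4 : ((A.V4p : ℝ) - A.V4n) * δ4 ≤ |(A.V4p : ℝ) - A.V4n| * h4 :=
    (le_abs_self _).trans (by rw [abs_mul]; exact mul_le_mul_of_nonneg_left h4' (abs_nonneg _))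
  have hu := (abs_le.mp hs).2
  simp only [Acc.lin] at hu
  linarith

/-! ### Skipping cells outside the domain -/

/-- Value of a term list at natural arguments. -/
noncomputable def sumAt (x t : ℕ) (l : TL) : ℕ :=
  List.rec (motive := fun _ => ℕ) 0
    (fun c _ ih => Nat.add (Nat.mul (Nat.mul c.1 (Nat.pow x c.2.1)) (Nat.pow t c.2.2)) ih) l

lemma evalTL_le_sumAt (l : TL) (X T : ℝ) (x t : ℕ) (hX0 : 0 ≤ X) (hT0 : 0 ≤ T)
    (hX : X ≤ x) (hT : T ≤ t) : evalTL l X T ≤ sumAt x t l := by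
  induction l with
  | nil => simp [sumAt]
  | cons c l ih =>
    have e : sumAt x t (c :: l) = c.1 * x ^ c.2.1 * t ^ c.2.2 + sumAt x t l := rfl
    rw [e, evalTL_cons]
    push_cast
    gcongr

lemma sumAt_le_evalTL (l : TL) (X T : ℝ) (x t : ℕ)
    (hX : (x : ℝ) ≤ X) (hT : (t : ℝ) ≤ T) : (sumAt x t l : ℝ) ≤ evalTL l X T := by
  have hx0 : (0 : ℝ) ≤ x := Nat.cast_nonneg _
  have ht0 : (0 : ℝ) ≤ t := Nat.cast_nonneg _
  have hX0 : 0 ≤ X := hx0.trans hX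
  have hT0 : 0 ≤ T := ht0.trans hT
  induction l with
  | nil => simp [sumAt]
  | cons c l ih =>
    have e : sumAt x t (c :: l) = c.1 * x ^ c.2.1 * t ^ c.2.2 + sumAt x t l := rfl
    rw [e, evalTL_cons]
    push_cast
    gcongr

/-- The constraint polynomial is negative on the whole cell. -/
noncomputable def conNeg (x0 h1 t0 h2 : ℕ) (con : TL × TL) : Bool :=
  Nat.blt (sumAt (Nat.add x0 (Nat.add h1 h1)) (Nat.add t0 (Nat.add h2 h2)) con.1) (sumAt x0 t0 con.2)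

lemma conNeg_spec (x0 h1 t0 h2 : ℕ) (con : TL × TL) (hc : conNeg x0 h1 t0 h2 con = true)
    (X T : ℝ) (hX0 : (x0 : ℝ) ≤ X) (hX1 : X ≤ x0 + 2 * h1) (hT0 : (t0 : ℝ) ≤ T)
    (hT1 : T ≤ t0 + 2 * h2) : evalTL con.1 X T - evalTL con.2 X T < 0 := by
  have hlt := Nat.le_of_ble_eq_true hc
  have hlt' : (sumAt (x0 + (h1 + h1)) (t0 + (h2 + h2)) con.1 : ℝ) < sumAt x0 t0 con.2 := by
    exact_mod_cast hlt
  have hx0 : (0 : ℝ) ≤ x0 := Nat.cast_nonneg _
  have ht0 : (0 : ℝ) ≤ t0 := Nat.cast_nonneg _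
  have a1 := evalTL_le_sumAt con.1 X T (x0 + (h1 + h1)) (t0 + (h2 + h2)) (by linarith) (by linarith)
    (by push_cast; linarith) (by push_cast; linarith)
  have a2 := sumAt_le_evalTL con.2 X T x0 t0 hX0 hT0
  linarith

/-! ### The corner -/

/-- A flat signed term `± c X^a T^b Q^n S^s`. -/
structure FT where
  sg : Bool
  c : ℕ
  a : ℕ
  b : ℕ
  n : ℕ
  s : ℕ

/-- Flatten a group. -/
def flatTL (sg : Bool) (n s : ℕ) (l : TL) : List FT := l.map fun c => ⟨sg, c.1, c.2.1, c.2.2, n, s⟩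

/-- Flatten groups. -/
def toFlat (gs : List Gp) : List FT :=
  gs.flatMap fun g => flatTL true g.n g.s g.pos ++ flatTL false g.n g.s g.neg

/-- Value of a flat term. -/
noncomputable def FT.val (f : FT) (X T Q S : ℝ) : ℝ :=
  (if f.sg then (f.c : ℝ) else -(f.c : ℝ)) * X ^ f.a * T ^ f.b * Q ^ f.n * S ^ f.s

/-- Value of a flat list. -/
noncomputable def evalFlat (l : List FT) (X T Q S : ℝ) : ℝ := (l.map fun f => f.val X T Q S).sum

lemma evalFlat_append (l m : List FT) (X T Q S : ℝ) :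
    evalFlat (l ++ m) X T Q S = evalFlat l X T Q S + evalFlat m X T Q S := by
  simp [evalFlat]

lemma evalFlat_flatTL (sg : Bool) (n s : ℕ) (l : TL) (X T Q S : ℝ) :
    evalFlat (flatTL sg n s l) X T Q S
      = (if sg then evalTL l X T else - evalTL l X T) * (Q ^ n * S ^ s) := by
  induction l with
  | nil => simp [evalFlat, flatTL]
  | cons c l ih =>
    have : evalFlat (flatTL sg n s (c :: l)) X T Q S
        = FT.val ⟨sg, c.1, c.2.1, c.2.2, n, s⟩ X T Q S + evalFlat (flatTL sg n s l) X T Q S := by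
      simp [evalFlat, flatTL]
    rw [this, ih, evalTL_cons]
    cases sg <;> simp [FT.val] <;> ring

lemma evalFlat_toFlat (gs : List Gp) (X T Q S : ℝ) :
    evalFlat (toFlat gs) X T Q S = evalG gs X T Q S := by
  induction gs with
  | nil => simp [evalFlat, toFlat]
  | cons g gs ih =>
    have : toFlat (g :: gs) = (flatTL true g.n g.s g.pos ++ flatTL false g.n g.s g.neg) ++ toFlat gs := by
      simp [toFlat]
    rw [this, evalFlat_append, evalFlat_append, ih, evalFlat_flatTL, evalFlat_flatTL, evalG_cons]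
    simp only [if_true, Bool.false_eq_true, if_false]
    ring

/-- Upper bound of the coefficient of `X^A Q^N`: positive part. -/
def cornerPos (A N xb tb qb sb : ℕ) (l : List FT) : ℕ :=
  (l.map fun f => if f.sg then f.c * xb ^ (f.a - A) * tb ^ f.b * qb ^ (f.n - N) * sb ^ f.s else 0).sum

/-- Upper bound of the coefficient of `X^A Q^N`: negative part. -/
def cornerNeg (A N : ℕ) (l : List FT) : ℕ :=
  (l.map fun f => if !f.sg && f.a == A && f.b == 0 && f.n == N && f.s == 0 then f.c else 0).sum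

/-- The corner check. -/
def cornerChk (xb tb qb sb : ℕ) : List (ℕ × ℕ) → List FT → Bool
  | [], l => l.all fun f => !f.sg
  | (A, N) :: sp, l =>
    let sel := l.filter fun f => Nat.ble A f.a && Nat.ble N f.n
    let rest := l.filter fun f => !(Nat.ble A f.a && Nat.ble N f.n)
    Nat.ble (cornerPos A N xb tb qb sb sel) (cornerNeg A N sel) && cornerChk xb tb qb sb sp rest

lemma evalFlat_filter (p : FT → Bool) (l : List FT) (X T Q S : ℝ) :
    evalFlat l X T Q S = evalFlat (l.filter p) X T Q S + evalFlat (l.filter fun f => !p f) X T Q S := by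
  induction l with
  | nil => simp [evalFlat]
  | cons a l ih =>
    have h0 : evalFlat (a :: l) X T Q S = a.val X T Q S + evalFlat l X T Q S := by simp [evalFlat]
    by_cases h : p a
    · have h1 : (a :: l).filter p = a :: l.filter p := by simp [h]
      have h2 : (a :: l).filter (fun f => !p f) = l.filter (fun f => !p f) := by simp [h]
      rw [h0, h1, h2, ih]
      simp [evalFlat]
      ring
    · have h1 : (a :: l).filter p = l.filter p := by simp [h]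
      have h2 : (a :: l).filter (fun f => !p f) = a :: l.filter (fun f => !p f) := by simp [h]
      rw [h0, h1, h2, ih]
      simp [evalFlat]
      ring

lemma corner_sel (A N xb tb qb sb : ℕ) (l : List FT) (hl : ∀ f ∈ l, A ≤ f.a ∧ N ≤ f.n)
    (X T Q S : ℝ) (hX0 : 0 ≤ X) (hT0 : 0 ≤ T) (hQ0 : 0 ≤ Q) (hS0 : 0 ≤ S)
    (hX : X ≤ xb) (hT : T ≤ tb) (hQ : Q ≤ qb) (hS : S ≤ sb) :
    evalFlat l X T Q S ≤
      X ^ A * Q ^ N * ((cornerPos A N xb tb qb sb l : ℝ) - cornerNeg A N l) := by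
  induction l with
  | nil => simp [evalFlat, cornerPos, cornerNeg]
  | cons f l ih =>
    have ih' := ih (fun g hg => hl g (List.mem_cons_of_mem _ hg))
    have hf := hl f List.mem_cons_self
    have h0 : evalFlat (f :: l) X T Q S = f.val X T Q S + evalFlat l X T Q S := by simp [evalFlat]
    have h1 : cornerPos A N xb tb qb sb (f :: l)
        = (if f.sg then f.c * xb ^ (f.a - A) * tb ^ f.b * qb ^ (f.n - N) * sb ^ f.s else 0)
          + cornerPos A N xb tb qb sb l := by simp [cornerPos]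
    have h2 : cornerNeg A N (f :: l)
        = (if !f.sg && f.a == A && f.b == 0 && f.n == N && f.s == 0 then f.c else 0)
          + cornerNeg A N l := by simp [cornerNeg]
    rw [h0, h1, h2]
    push_cast
    have hXQ : 0 ≤ X ^ A * Q ^ N := by positivity
    have hsplit : X ^ f.a * T ^ f.b * Q ^ f.n * S ^ f.s
        = X ^ A * Q ^ N * (X ^ (f.a - A) * T ^ f.b * Q ^ (f.n - N) * S ^ f.s) := by
      have ha : X ^ f.a = X ^ A * X ^ (f.a - A) := by rw [← pow_add, Nat.add_sub_cancel' hf.1]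
      have hn : Q ^ f.n = Q ^ N * Q ^ (f.n - N) := by rw [← pow_add, Nat.add_sub_cancel' hf.2]
      rw [ha, hn]
      ring
    have hterm : f.val X T Q S ≤ X ^ A * Q ^ N *
        ((if f.sg then ((f.c * xb ^ (f.a - A) * tb ^ f.b * qb ^ (f.n - N) * sb ^ f.s : ℕ) : ℝ) else 0)
          - (if !f.sg && f.a == A && f.b == 0 && f.n == N && f.s == 0 then (f.c : ℝ) else 0)) := by
      unfold FT.val
      by_cases hs : f.sg = true
      · simp only [hs, if_true, Bool.not_true, Bool.false_and, if_false, Bool.false_eq_true, sub_zero]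
        have hv : (f.c : ℝ) * X ^ f.a * T ^ f.b * Q ^ f.n * S ^ f.s
            = X ^ A * Q ^ N * ((f.c : ℝ) * (X ^ (f.a - A) * T ^ f.b * Q ^ (f.n - N) * S ^ f.s)) := by
          rw [mul_assoc, mul_assoc, mul_assoc, ← mul_assoc (X ^ f.a), ← mul_assoc (X ^ f.a * T ^ f.b),
            hsplit]
          ring
        rw [hv]
        apply mul_le_mul_of_nonneg_left _ hXQ
        push_cast
        have hx' : (0 : ℝ) ≤ f.c := Nat.cast_nonneg _
        have : X ^ (f.a - A) * T ^ f.b * Q ^ (f.n - N) * S ^ f.s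
            ≤ (xb : ℝ) ^ (f.a - A) * (tb : ℝ) ^ f.b * (qb : ℝ) ^ (f.n - N) * (sb : ℝ) ^ f.s := by
          gcongr
        calc (f.c : ℝ) * (X ^ (f.a - A) * T ^ f.b * Q ^ (f.n - N) * S ^ f.s)
            ≤ (f.c : ℝ) * ((xb : ℝ) ^ (f.a - A) * (tb : ℝ) ^ f.b * (qb : ℝ) ^ (f.n - N) * (sb : ℝ) ^ f.s) :=
              mul_le_mul_of_nonneg_left this hx'
          _ = _ := by ring
      · simp only [Bool.not_eq_true] at hs
        simp only [hs, Bool.false_eq_true, if_false, Bool.not_false, Bool.true_and]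
        by_cases hx : (f.a == A && f.b == 0 && f.n == N && f.s == 0) = true
        · simp only [hx, if_true]
          simp only [Bool.and_eq_true, beq_iff_eq] at hx
          obtain ⟨⟨⟨h1a, h1b⟩, h1n⟩, h1s⟩ := hx
          rw [h1a, h1b, h1n, h1s]
          simp
          apply le_of_eq; ring
        · simp only [hx, if_false, Bool.false_eq_true, sub_zero, mul_zero]
          have hpos : 0 ≤ (f.c : ℝ) * X ^ f.a * T ^ f.b * Q ^ f.n * S ^ f.s := by positivity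
          nlinarith [hpos]
    push_cast at hterm
    calc _ ≤ _ := add_le_add hterm ih'
      _ = _ := by ring

lemma cornerChk_spec (xb tb qb sb : ℕ) (sp : List (ℕ × ℕ)) (l : List FT)
    (hc : cornerChk xb tb qb sb sp l = true)
    (X T Q S : ℝ) (hX0 : 0 ≤ X) (hT0 : 0 ≤ T) (hQ0 : 0 ≤ Q) (hS0 : 0 ≤ S)
    (hX : X ≤ xb) (hT : T ≤ tb) (hQ : Q ≤ qb) (hS : S ≤ sb) :
    evalFlat l X T Q S ≤ 0 := by
  induction sp generalizing l with
  | nil =>
    have hall : ∀ f ∈ l, f.sg = false := by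
      have := List.all_eq_true.mp hc
      intro f hf
      simpa using this f hf
    induction l with
    | nil => simp [evalFlat]
    | cons f l ih =>
      have hc' : cornerChk xb tb qb sb [] l = true := by
        simp only [cornerChk, List.all_eq_true]
        intro g hg
        simp [hall g (List.mem_cons_of_mem _ hg)]
      have h0 : evalFlat (f :: l) X T Q S = f.val X T Q S + evalFlat l X T Q S := by simp [evalFlat]
      have hs := hall f List.mem_cons_self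
      have hv : f.val X T Q S ≤ 0 := by
        unfold FT.val
        simp only [hs, Bool.false_eq_true, if_false]
        have : 0 ≤ (f.c : ℝ) * X ^ f.a * T ^ f.b * Q ^ f.n * S ^ f.s := by positivity
        have e : -(f.c : ℝ) * X ^ f.a * T ^ f.b * Q ^ f.n * S ^ f.s
            = -((f.c : ℝ) * X ^ f.a * T ^ f.b * Q ^ f.n * S ^ f.s) := by ring
        rw [e]; linarith
      rw [h0]
      have := ih hc' (fun g hg => hall g (List.mem_cons_of_mem _ hg))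
      linarith
  | cons q sp ih =>
    obtain ⟨A, N⟩ := q
    simp only [cornerChk, Bool.and_eq_true] at hc
    obtain ⟨hc1, hc2⟩ := hc
    have hr := ih _ hc2
    rw [evalFlat_filter (fun f => Nat.ble A f.a && Nat.ble N f.n) l]
    have hsel := corner_sel A N xb tb qb sb (l.filter fun f => Nat.ble A f.a && Nat.ble N f.n)
      (by
        intro f hf
        have := (List.mem_filter.mp hf).2
        simp only [Bool.and_eq_true] at this
        exact ⟨Nat.le_of_ble_eq_true this.1, Nat.le_of_ble_eq_true this.2⟩)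
      X T Q S hX0 hT0 hQ0 hS0 hX hT hQ hS
    have hle := Nat.le_of_ble_eq_true hc1
    have hle' : ((cornerPos A N xb tb qb sb (l.filter fun f => Nat.ble A f.a && Nat.ble N f.n) : ℕ) : ℝ)
        ≤ cornerNeg A N (l.filter fun f => Nat.ble A f.a && Nat.ble N f.n) := by exact_mod_cast hle
    have hXQ : 0 ≤ X ^ A * Q ^ N := by positivity
    have := mul_nonpos_of_nonneg_of_nonpos hXQ (sub_nonpos.mpr hle')
    linarith

/-! ### The tree check -/

/-- Certificate tree for the inner variables `Q, S`. -/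
inductive InT
  | l
  | k
  | z
  | c (L R : InT)
  | d (L R : InT)

/-- Certificate tree for the outer variables `X, T`. -/
inductive OutT
  | s
  | O (t : InT)
  | A (L R : OutT)
  | B (L R : OutT)

/-- The inputs of the check. -/
structure Pb where
  gs : List Gp
  conO : TL × TL
  conI : TL × TL
  sp : List (ℕ × ℕ)
  W : ℕ

/-- Inner check. -/
noncomputable def chkIn (P : Pb) (x0 h1 t0 h2 : ℕ) (C : List CJ) (t : InT) :
    ℕ → ℕ → ℕ → ℕ → Bool :=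
  InT.rec (motive := fun _ => ℕ → ℕ → ℕ → ℕ → Bool)
    (fun q0 h3 s0 h4 => leafOK h1 h2 h3 h4 (innerAcc h1 h2 (Nat.add q0 h3) h3 (Nat.add s0 h4) h4 C))
    (fun q0 h3 s0 h4 => conNeg q0 h3 s0 h4 P.conI)
    (fun q0 h3 s0 h4 => cornerChk (Nat.add x0 (Nat.add h1 h1)) (Nat.add t0 (Nat.add h2 h2))
      (Nat.add q0 (Nat.add h3 h3)) (Nat.add s0 (Nat.add h4 h4)) P.sp (toFlat P.gs))
    (fun _ _ ihL ihR q0 h3 s0 h4 =>
      let h := Nat.div h3 2
      and (Nat.beq (Nat.add h h) h3) (and (ihL q0 h s0 h4) (ihR (Nat.add q0 h3) h s0 h4)))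
    (fun _ _ ihL ihR q0 h3 s0 h4 =>
      let h := Nat.div h4 2
      and (Nat.beq (Nat.add h h) h4) (and (ihL q0 h3 s0 h) (ihR q0 h3 (Nat.add s0 h4) h)))
    t

/-- Outer check. -/
noncomputable def chkOut (P : Pb) (t : OutT) : ℕ → ℕ → ℕ → ℕ → Bool :=
  OutT.rec (motive := fun _ => ℕ → ℕ → ℕ → ℕ → Bool)
    (fun x0 h1 t0 h2 => conNeg x0 h1 t0 h2 P.conO)
    (fun t x0 h1 t0 h2 =>
      chkIn P x0 h1 t0 h2 (mkOuter (Nat.add x0 h1) h1 (Nat.add t0 h2) h2 P.gs) t 0 P.W 0 P.W)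
    (fun _ _ ihL ihR x0 h1 t0 h2 =>
      let h := Nat.div h1 2
      and (Nat.beq (Nat.add h h) h1) (and (ihL x0 h t0 h2) (ihR (Nat.add x0 h1) h t0 h2)))
    (fun _ _ ihL ihR x0 h1 t0 h2 =>
      let h := Nat.div h2 2
      and (Nat.beq (Nat.add h h) h2) (and (ihL x0 h1 t0 h) (ihR x0 h1 (Nat.add t0 h2) h)))
    t

/-- The statement proved for a cell. -/
def Sound (P : Pb) (x0 h1 t0 h2 : ℕ) : Prop :=
  ∀ X T Q S : ℝ, (x0 : ℝ) ≤ X → X ≤ x0 + 2 * h1 → (t0 : ℝ) ≤ T → T ≤ t0 + 2 * h2 →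
    0 ≤ Q → Q ≤ 2 * P.W → 0 ≤ S → S ≤ 2 * P.W →
    0 ≤ evalTL P.conO.1 X T - evalTL P.conO.2 X T →
    0 ≤ evalTL P.conI.1 Q S - evalTL P.conI.2 Q S →
    evalG P.gs X T Q S ≤ 0

lemma chkIn_sound (P : Pb) (x0 h1 t0 h2 : ℕ) (t : InT) (q0 h3 s0 h4 : ℕ)
    (hc : chkIn P x0 h1 t0 h2 (mkOuter (x0 + h1) h1 (t0 + h2) h2 P.gs) t q0 h3 s0 h4 = true)
    (X T Q S : ℝ) (hX0 : (x0 : ℝ) ≤ X) (hX1 : X ≤ x0 + 2 * h1)
    (hT0 : (t0 : ℝ) ≤ T) (hT1 : T ≤ t0 + 2 * h2)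
    (hQ0 : (q0 : ℝ) ≤ Q) (hQ1 : Q ≤ q0 + 2 * h3) (hS0 : (s0 : ℝ) ≤ S) (hS1 : S ≤ s0 + 2 * h4)
    (hcon : 0 ≤ evalTL P.conI.1 Q S - evalTL P.conI.2 Q S) :
    evalG P.gs X T Q S ≤ 0 := by
  induction t generalizing q0 h3 s0 h4 with
  | l =>
    have hl : leafOK h1 h2 h3 h4 (innerAcc h1 h2 (q0 + h3) h3 (s0 + h4) h4
        (mkOuter (x0 + h1) h1 (t0 + h2) h2 P.gs)) = true := hc
    have := leaf_bound (x0 + h1) h1 (t0 + h2) h2 (q0 + h3) h3 (s0 + h4) h4 P.gs hl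
      (X - ((x0 + h1 : ℕ) : ℝ)) (T - ((t0 + h2 : ℕ) : ℝ)) (Q - ((q0 + h3 : ℕ) : ℝ)) (S - ((s0 + h4 : ℕ) : ℝ))
      (by rw [abs_le]; push_cast; constructor <;> linarith)
      (by rw [abs_le]; push_cast; constructor <;> linarith)
      (by rw [abs_le]; push_cast; constructor <;> linarith)
      (by rw [abs_le]; push_cast; constructor <;> linarith)
    simp only [add_sub_cancel] at this
    exact this.le
  | k =>
    have hn : conNeg q0 h3 s0 h4 P.conI = true := hc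
    have := conNeg_spec q0 h3 s0 h4 P.conI hn Q S hQ0 hQ1 hS0 hS1
    linarith
  | z =>
    have hz : cornerChk (x0 + (h1 + h1)) (t0 + (h2 + h2)) (q0 + (h3 + h3)) (s0 + (h4 + h4))
        P.sp (toFlat P.gs) = true := hc
    have hx0 : (0 : ℝ) ≤ x0 := Nat.cast_nonneg _
    have ht0 : (0 : ℝ) ≤ t0 := Nat.cast_nonneg _
    have hq0 : (0 : ℝ) ≤ q0 := Nat.cast_nonneg _
    have hs0 : (0 : ℝ) ≤ s0 := Nat.cast_nonneg _
    have := cornerChk_spec _ _ _ _ _ _ hz X T Q S (by linarith) (by linarith) (by linarith) (by linarith)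
      (by push_cast; linarith) (by push_cast; linarith) (by push_cast; linarith) (by push_cast; linarith)
    rwa [evalFlat_toFlat] at this
  | c L R ihL ihR =>
    have hc' : and (Nat.beq (Nat.add (Nat.div h3 2) (Nat.div h3 2)) h3)
        (and (chkIn P x0 h1 t0 h2 (mkOuter (x0 + h1) h1 (t0 + h2) h2 P.gs) L q0 (Nat.div h3 2) s0 h4)
          (chkIn P x0 h1 t0 h2 (mkOuter (x0 + h1) h1 (t0 + h2) h2 P.gs) R (Nat.add q0 h3) (Nat.div h3 2) s0 h4)) = true := hc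
    simp only [Bool.and_eq_true] at hc'
    obtain ⟨h0, hL, hR⟩ := hc'
    have he : (Nat.div h3 2) + (Nat.div h3 2) = h3 := Nat.eq_of_beq_eq_true h0
    have he' : ((Nat.div h3 2 : ℕ) : ℝ) + ((Nat.div h3 2 : ℕ) : ℝ) = h3 := by exact_mod_cast he
    rcases le_total Q ((q0 : ℝ) + h3) with hq | hq
    · exact ihL _ _ _ _ hL hQ0 (by linarith) hS0 hS1
    · exact ihR _ _ _ _ hR (by simpa using hq) (by
        have : ((Nat.add q0 h3 : ℕ) : ℝ) = (q0 : ℝ) + h3 := by simp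
        rw [this]; linarith) hS0 hS1
  | d L R ihL ihR =>
    have hc' : and (Nat.beq (Nat.add (Nat.div h4 2) (Nat.div h4 2)) h4)
        (and (chkIn P x0 h1 t0 h2 (mkOuter (x0 + h1) h1 (t0 + h2) h2 P.gs) L q0 h3 s0 (Nat.div h4 2))
          (chkIn P x0 h1 t0 h2 (mkOuter (x0 + h1) h1 (t0 + h2) h2 P.gs) R q0 h3 (Nat.add s0 h4) (Nat.div h4 2))) = true := hc
    simp only [Bool.and_eq_true] at hc'
    obtain ⟨h0, hL, hR⟩ := hc'
    have he : (Nat.div h4 2) + (Nat.div h4 2) = h4 := Nat.eq_of_beq_eq_true h0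
    have he' : ((Nat.div h4 2 : ℕ) : ℝ) + ((Nat.div h4 2 : ℕ) : ℝ) = h4 := by exact_mod_cast he
    rcases le_total S ((s0 : ℝ) + h4) with hs | hs
    · exact ihL _ _ _ _ hL hQ0 hQ1 hS0 (by linarith)
    · exact ihR _ _ _ _ hR hQ0 hQ1 (by simpa using hs) (by
        have : ((Nat.add s0 h4 : ℕ) : ℝ) = (s0 : ℝ) + h4 := by simp
        rw [this]; linarith)

lemma chkOut_sound (P : Pb) (t : OutT) (x0 h1 t0 h2 : ℕ)
    (hc : chkOut P t x0 h1 t0 h2 = true) : Sound P x0 h1 t0 h2 := by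
  induction t generalizing x0 h1 t0 h2 with
  | s =>
    intro X T Q S hX0 hX1 hT0 hT1 _ _ _ _ hcO _
    have hn : conNeg x0 h1 t0 h2 P.conO = true := hc
    have := conNeg_spec x0 h1 t0 h2 P.conO hn X T hX0 hX1 hT0 hT1
    linarith
  | O t =>
    intro X T Q S hX0 hX1 hT0 hT1 hQ0 hQ1 hS0 hS1 _ hcI
    have hi : chkIn P x0 h1 t0 h2 (mkOuter (x0 + h1) h1 (t0 + h2) h2 P.gs) t 0 P.W 0 P.W = true := hc
    exact chkIn_sound P x0 h1 t0 h2 t 0 P.W 0 P.W hi X T Q S hX0 hX1 hT0 hT1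
      (by simpa using hQ0) (by simpa using hQ1) (by simpa using hS0) (by simpa using hS1) hcI
  | A L R ihL ihR =>
    have hc' : and (Nat.beq (Nat.add (Nat.div h1 2) (Nat.div h1 2)) h1)
        (and (chkOut P L x0 (Nat.div h1 2) t0 h2) (chkOut P R (Nat.add x0 h1) (Nat.div h1 2) t0 h2)) = true := hc
    simp only [Bool.and_eq_true] at hc'
    obtain ⟨h0, hL, hR⟩ := hc'
    have he : (Nat.div h1 2) + (Nat.div h1 2) = h1 := Nat.eq_of_beq_eq_true h0
    have he' : ((Nat.div h1 2 : ℕ) : ℝ) + ((Nat.div h1 2 : ℕ) : ℝ) = h1 := by exact_mod_cast he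
    intro X T Q S hX0 hX1 hT0 hT1 hQ0 hQ1 hS0 hS1 hcO hcI
    rcases le_total X ((x0 : ℝ) + h1) with hx | hx
    · exact ihL _ _ _ _ hL X T Q S hX0 (by linarith) hT0 hT1 hQ0 hQ1 hS0 hS1 hcO hcI
    · exact ihR _ _ _ _ hR X T Q S (by simpa using hx) (by
        have : ((Nat.add x0 h1 : ℕ) : ℝ) = (x0 : ℝ) + h1 := by simp
        rw [this]; linarith) hT0 hT1 hQ0 hQ1 hS0 hS1 hcO hcI
  | B L R ihL ihR =>
    have hc' : and (Nat.beq (Nat.add (Nat.div h2 2) (Nat.div h2 2)) h2)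
        (and (chkOut P L x0 h1 t0 (Nat.div h2 2)) (chkOut P R x0 h1 (Nat.add t0 h2) (Nat.div h2 2))) = true := hc
    simp only [Bool.and_eq_true] at hc'
    obtain ⟨h0, hL, hR⟩ := hc'
    have he : (Nat.div h2 2) + (Nat.div h2 2) = h2 := Nat.eq_of_beq_eq_true h0
    have he' : ((Nat.div h2 2 : ℕ) : ℝ) + ((Nat.div h2 2 : ℕ) : ℝ) = h2 := by exact_mod_cast he
    intro X T Q S hX0 hX1 hT0 hT1 hQ0 hQ1 hS0 hS1 hcO hcI
    rcases le_total T ((t0 : ℝ) + h2) with ht | ht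
    · exact ihL _ _ _ _ hL X T Q S hX0 hX1 hT0 (by linarith) hQ0 hQ1 hS0 hS1 hcO hcI
    · exact ihR _ _ _ _ hR X T Q S hX0 hX1 (by simpa using ht) (by
        have : ((Nat.add t0 h2 : ℕ) : ℝ) = (t0 : ℝ) + h2 := by simp
        rw [this]; linarith) hQ0 hQ1 hS0 hS1 hcO hcI

/-- Splitting a cell along the first outer variable. -/
lemma sound_splitA (P : Pb) (x0 h h1 t0 h2 : ℕ) (he : h + h = h1)
    (hL : Sound P x0 h t0 h2) (hR : Sound P (x0 + h1) h t0 h2) : Sound P x0 h1 t0 h2 := by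
  have he' : (h : ℝ) + h = h1 := by exact_mod_cast he
  intro X T Q S hX0 hX1 hT0 hT1 hQ0 hQ1 hS0 hS1 hcO hcI
  rcases le_total X ((x0 : ℝ) + h1) with hx | hx
  · exact hL X T Q S hX0 (by linarith) hT0 hT1 hQ0 hQ1 hS0 hS1 hcO hcI
  · exact hR X T Q S (by simpa using hx) (by push_cast; linarith) hT0 hT1 hQ0 hQ1 hS0 hS1 hcO hcI

/-- Splitting a cell along the second outer variable. -/
lemma sound_splitB (P : Pb) (x0 h1 t0 h h2 : ℕ) (he : h + h = h2)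
    (hL : Sound P x0 h1 t0 h) (hR : Sound P x0 h1 (t0 + h2) h) : Sound P x0 h1 t0 h2 := by
  have he' : (h : ℝ) + h = h2 := by exact_mod_cast he
  intro X T Q S hX0 hX1 hT0 hT1 hQ0 hQ1 hS0 hS1 hcO hcI
  rcases le_total T ((t0 : ℝ) + h2) with ht | ht
  · exact hL X T Q S hX0 hX1 hT0 (by linarith) hQ0 hQ1 hS0 hS1 hcO hcI
  · exact hR X T Q S hX0 hX1 (by simpa using ht) (by push_cast; linarith) hQ0 hQ1 hS0 hS1 hcO hcI

end Vale.Agent.P154.Cert
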