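import Vale.Agent.P154.Master
import Vale.Agent.P154.Check

/-!
From the averaged polynomial to the certificate checker.
-/

open Finset

namespace Vale.Agent.P154

open PolyR Cert

/-! ### Rows -/

/-- The tables of the averaged polynomials. -/
structure Rows where
  R01 : List Poly
  R11 : List Poly
  R21 : List Poly
  R31 : List Poly
  R12 : List Poly
  R22 : List Poly
  R32 : List Poly
  R13 : List Poly
  R23 : List Poly
  R33 : List Poly
  R24 : List Poly
  R34 : List Poly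
  R35 : List Poly

/-- Validity of the tables. -/
structure Rows.OK (R : Rows) (A : Apx) : Prop where
  c01 : chkRows R.R01 N01 = true
  c11 : chkRows R.R11 N11 = true
  c21 : chkRows R.R21 N21 = true
  c31 : chkRows R.R31 N31 = true
  c12 : chkRows R.R12 N12 = true
  c22 : chkRows R.R22 N22 = true
  c32 : chkRows R.R32 N32 = true
  c13 : chkRows R.R13 N13 = true
  c23 : chkRows R.R23 N23 = true
  c33 : chkRows R.R33 N33 = true
  c24 : chkRows R.R24 N24 = true
  c34 : chkRows R.R34 N34 = true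
  c35 : chkRows R.R35 N35 = true
  l01 : A.p1.length ≤ R.R01.length
  l11 : A.p1.length ≤ R.R11.length
  l21 : A.p1.length ≤ R.R21.length
  l31 : A.p1.length ≤ R.R31.length
  l12 : A.p2.length ≤ R.R12.length
  l22 : A.p2.length ≤ R.R22.length
  l32 : A.p2.length ≤ R.R32.length
  l13 : A.p3.length ≤ R.R13.length
  l23 : A.p3.length ≤ R.R23.length
  l33 : A.p3.length ≤ R.R33.length
  l24 : A.p4.length ≤ R.R24.length
  l34 : A.p4.length ≤ R.R34.length
  l35 : A.p5.length ≤ R.R35.length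

lemma entry_avg (N : Poly) (sc : ℝ) (hsc : sc ≠ 0) (AF : (Fin 3 → ℝ) → (Fin 3 → ℝ) → ℝ)
    (hN : ∀ z t : Fin 3 → ℝ, ∑ i, z i = 0 → ∑ i, t i = 0 →
      ev N (z 0) (z 1) (t 0) (t 1) = sc * AF z t)
    (hinv : ∀ (z t : Fin 3 → ℝ) (h : Equiv.Perm (Fin 3)), AF (z ∘ h) (t ∘ h) = AF z t)
    (z t : Fin 3 → ℝ) (hz : ∑ i, z i = 0) (ht : ∑ i, t i = 0)
    (pi : List ℤ) (rows : List Poly) (D : ℝ) (hc : chkRows rows N = true)
    (hlen : pi.length ≤ rows.length) :
    (1 / 6) * ∑ g : Equiv.Perm (Fin 3), AF z (t ∘ g) * (evalZ pi (3 * uu z (t ∘ g)) / D)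
      = ev (combo pi rows) (iA z) (iB z) (iA t) (iB t) / (sc * D) := by
  have h := ev_combo N sc AF hN hinv z t hz ht pi rows 0 hc hlen
  rw [h]
  by_cases hD : D = 0
  · simp [hD]
  · rw [Finset.mul_sum, Finset.mul_sum, Finset.sum_div]
    refine Finset.sum_congr rfl fun g _ => ?_
    field_simp

/-- The polynomial part, through the tables. -/
lemma Fav_rows (A : Apx) (R : Rows) (hR : R.OK A) (c1 c2 c4 : ℝ) (z t : Fin 3 → ℝ)
    (hz : ∑ i, z i = 0) (ht : ∑ i, t i = 0) :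
    Fav A c1 c2 c4 z t =
      (ev (combo A.p1 R.R01) (iA z) (iB z) (iA t) (iB t) / (9 * A.D1)
        + c1 / 36 * (ev (combo A.p1 R.R11) (iA z) (iB z) (iA t) (iB t) / (9 * A.D1))
        + c2 / 36 * (ev (combo A.p1 R.R21) (iA z) (iB z) (iA t) (iB t) / (9 * A.D1))
        + c4 / 36 * (ev (combo A.p1 R.R31) (iA z) (iB z) (iA t) (iB t) / (9 * A.D1)))
      + (c1 / 36 * (ev (combo A.p2 R.R12) (iA z) (iB z) (iA t) (iB t) / (27 * A.D2))
        + c2 / 36 * (ev (combo A.p2 R.R22) (iA z) (iB z) (iA t) (iB t) / (27 * A.D2))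
        + c4 / 36 * (ev (combo A.p2 R.R32) (iA z) (iB z) (iA t) (iB t) / (27 * A.D2)))
      + (c1 / 36 * (ev (combo A.p3 R.R13) (iA z) (iB z) (iA t) (iB t) / (81 * A.D3))
        + c2 / 36 * (ev (combo A.p3 R.R23) (iA z) (iB z) (iA t) (iB t) / (81 * A.D3))
        + c4 / 36 * (ev (combo A.p3 R.R33) (iA z) (iB z) (iA t) (iB t) / (81 * A.D3)))
      + (c2 / 36 * (ev (combo A.p4 R.R24) (iA z) (iB z) (iA t) (iB t) / (243 * A.D4))
        + c4 / 36 * (ev (combo A.p4 R.R34) (iA z) (iB z) (iA t) (iB t) / (243 * A.D4)))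
      + c4 / 36 * (ev (combo A.p5 R.R35) (iA z) (iB z) (iA t) (iB t) / (729 * A.D5)) := by
  rw [← entry_avg N01 9 (by norm_num) A01 (fun z t hz ht => ev_N01 z t hz ht) (fun z t h => inv_A01 z t h) z t hz ht _ _ _ hR.c01 hR.l01,
    ← entry_avg N11 9 (by norm_num) A11 (fun z t hz ht => ev_N11 z t hz ht) (fun z t h => inv_A11 z t h) z t hz ht _ _ _ hR.c11 hR.l11,
    ← entry_avg N21 9 (by norm_num) A21 (fun z t hz ht => ev_N21 z t hz ht) (fun z t h => inv_A21 z t h) z t hz ht _ _ _ hR.c21 hR.l21,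
    ← entry_avg N31 9 (by norm_num) A31 (fun z t hz ht => ev_N31 z t hz ht) (fun z t h => inv_A31 z t h) z t hz ht _ _ _ hR.c31 hR.l31,
    ← entry_avg N12 27 (by norm_num) A12 (fun z t hz ht => ev_N12 z t hz ht) (fun z t h => inv_A12 z t h) z t hz ht _ _ _ hR.c12 hR.l12,
    ← entry_avg N22 27 (by norm_num) A22 (fun z t hz ht => ev_N22 z t hz ht) (fun z t h => inv_A22 z t h) z t hz ht _ _ _ hR.c22 hR.l22,
    ← entry_avg N32 27 (by norm_num) A32 (fun z t hz ht => ev_N32 z t hz ht) (fun z t h => inv_A32 z t h) z t hz ht _ _ _ hR.c32 hR.l32,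
    ← entry_avg N13 81 (by norm_num) A13 (fun z t hz ht => ev_N13 z t hz ht) (fun z t h => inv_A13 z t h) z t hz ht _ _ _ hR.c13 hR.l13,
    ← entry_avg N23 81 (by norm_num) A23 (fun z t hz ht => ev_N23 z t hz ht) (fun z t h => inv_A23 z t h) z t hz ht _ _ _ hR.c23 hR.l23,
    ← entry_avg N33 81 (by norm_num) A33 (fun z t hz ht => ev_N33 z t hz ht) (fun z t h => inv_A33 z t h) z t hz ht _ _ _ hR.c33 hR.l33,
    ← entry_avg N24 243 (by norm_num) A24 (fun z t hz ht => ev_N24 z t hz ht) (fun z t h => inv_A24 z t h) z t hz ht _ _ _ hR.c24 hR.l24,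
    ← entry_avg N34 243 (by norm_num) A34 (fun z t hz ht => ev_N34 z t hz ht) (fun z t h => inv_A34 z t h) z t hz ht _ _ _ hR.c34 hR.l34,
    ← entry_avg N35 729 (by norm_num) A35 (fun z t hz ht => ev_N35 z t hz ht) (fun z t h => inv_A35 z t h) z t hz ht _ _ _ hR.c35 hR.l35]
  unfold Fav
  simp only [Finset.mul_sum, ← Finset.sum_add_distrib]
  refine Finset.sum_congr rfl fun g _ => ?_
  unfold Aj1 Aj2 Aj3 Aj4 Aj5
  ring

/-! ### Change of variables to `(ρ, τ, r, σ)` -/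

/-- The key of a term. -/
def keyOf (e1 e2 e3 e4 : ℕ) : ℕ :=
  Nat.add (Nat.mul e1 16777216) (Nat.add (Nat.mul e2 65536) (Nat.add (Nat.mul e3 256) e4))

/-- Sorting through singletons. -/
noncomputable def normP (p : Poly) : Poly := mergeAll 24 (mapR (fun m => [m]) p)

lemma ev_normP (p : Poly) (x1 x2 x3 x4 : ℝ) : ev (normP p) x1 x2 x3 x4 = ev p x1 x2 x3 x4 := by
  unfold normP
  rw [ev_mergeAll]
  induction p with
  | nil => simp [mapR, evs]
  | cons m p ih =>
    have e : mapR (fun m : Tm => [m]) (m :: p) = [m] :: mapR (fun m : Tm => [m]) p := rfl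
    rw [e]
    have h0 : ∀ (a : Poly) (l : List Poly),
        evs (a :: l) x1 x2 x3 x4 = ev a x1 x2 x3 x4 + evs l x1 x2 x3 x4 := by
      intro a l; simp [evs]
    rw [h0, ih]
    simp

/-- The term in the new variables; the last two invariants are scaled by `num / den`. -/
def toMt (num den Nm : ℕ) (m : Tm) : Tm :=
  let n := Nat.add (Nat.mul 2 m.e3) (Nat.mul 3 m.e4)
  let a := Nat.add (Nat.mul 2 m.e1) (Nat.mul 3 m.e2)
  ⟨keyOf a m.e2 n m.e4, a, m.e2, n, m.e4,
    Int.mul m.c (Int.ofNat (Nat.mul (Nat.pow num n) (Nat.pow den (Nat.sub Nm n))))⟩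

/-- All terms have small weight in the last two variables. -/
noncomputable def smallW (Nm : ℕ) (p : Poly) : Bool :=
  List.rec (motive := fun _ => Bool) true
    (fun m _ ih => and (Nat.ble (Nat.add (Nat.mul 2 m.e3) (Nat.mul 3 m.e4)) Nm) ih) p

/-- The polynomial in the new variables. -/
noncomputable def toM (num den Nm : ℕ) (p : Poly) : Poly := normP (mapR (toMt num den Nm) p)

lemma ev_toM (num den Nm : ℕ) (hden : den ≠ 0) (p : Poly) (hs : smallW Nm p = true) (ρ τ r σ : ℝ) :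
    ev (toM num den Nm p) ρ τ r σ
      = (den : ℝ) ^ Nm * ev p (ρ ^ 2) (ρ ^ 3 * τ) (((num : ℝ) / den) ^ 2 * r ^ 2)
          (((num : ℝ) / den) ^ 3 * (r ^ 3 * σ)) := by
  unfold toM
  rw [ev_normP]
  induction p with
  | nil => simp [mapR]
  | cons m p ih =>
    have hs' : and (Nat.ble (Nat.add (Nat.mul 2 m.e3) (Nat.mul 3 m.e4)) Nm) (smallW Nm p) = true := hs
    simp only [Bool.and_eq_true] at hs'
    obtain ⟨h1, h2⟩ := hs'
    have hle : 2 * m.e3 + 3 * m.e4 ≤ Nm := Nat.le_of_ble_eq_true h1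
    have e : mapR (toMt num den Nm) (m :: p) = toMt num den Nm m :: mapR (toMt num den Nm) p := rfl
    rw [e, ev_cons, ev_cons, ih h2, mul_add]
    congr 1
    have hd : (den : ℝ) ≠ 0 := by exact_mod_cast hden
    have hc : (((toMt num den Nm m).c : ℤ) : ℝ)
        = (m.c : ℝ) * ((num : ℝ) ^ (2 * m.e3 + 3 * m.e4) * (den : ℝ) ^ (Nm - (2 * m.e3 + 3 * m.e4))) := by
      show ((m.c * ((num ^ (2 * m.e3 + 3 * m.e4) * den ^ (Nm - (2 * m.e3 + 3 * m.e4)) : ℕ) : ℤ) : ℤ) : ℝ) = _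
      push_cast
      ring
    have hpow : (den : ℝ) ^ Nm = (den : ℝ) ^ (Nm - (2 * m.e3 + 3 * m.e4)) * (den : ℝ) ^ (2 * m.e3 + 3 * m.e4) := by
      rw [← pow_add, Nat.sub_add_cancel hle]
    unfold Tm.val
    rw [hc, hpow]
    have hE : (toMt num den Nm m).e1 = 2 * m.e1 + 3 * m.e2 := rfl
    have hE2 : (toMt num den Nm m).e2 = m.e2 := rfl
    have hE3 : (toMt num den Nm m).e3 = 2 * m.e3 + 3 * m.e4 := rfl
    have hE4 : (toMt num den Nm m).e4 = m.e4 := rfl
    rw [hE, hE2, hE3, hE4]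
    set L : ℝ := (num : ℝ) / den with hL
    have hnum : (num : ℝ) = L * den := by rw [hL]; field_simp
    rw [hnum]
    ring

/-! ### Charts -/

/-- A term `c ρ^a τ^b`. -/
structure ITm where
  c : ℤ
  a : ℕ
  b : ℕ

/-- A group `r^n σ^s * ∑ c ρ^a τ^b`. -/
structure IGp where
  n : ℕ
  s : ℕ
  l : List ITm

/-- Value of a list of terms. -/
noncomputable def evalIL (l : List ITm) (ρ τ : ℝ) : ℝ := (l.map fun m => (m.c : ℝ) * ρ ^ m.a * τ ^ m.b).sum

/-- Value of a list of groups. -/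
noncomputable def evalI (G : List IGp) (ρ τ r σ : ℝ) : ℝ :=
  (G.map fun g => evalIL g.l ρ τ * (r ^ g.n * σ ^ g.s)).sum

/-- Flat form, multiplied by `r^2`. -/
def flatI (G : List IGp) : Poly :=
  G.flatMap fun g => g.l.map fun m => ⟨keyOf m.a m.b (g.n + 2) g.s, m.a, m.b, g.n + 2, g.s, m.c⟩

lemma ev_append (p q : Poly) (x1 x2 x3 x4 : ℝ) :
    ev (p ++ q) x1 x2 x3 x4 = ev p x1 x2 x3 x4 + ev q x1 x2 x3 x4 := by
  induction p with
  | nil => simp
  | cons a p ih => simp [ih, add_assoc]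

lemma ev_flatI (G : List IGp) (ρ τ r σ : ℝ) :
    ev (flatI G) ρ τ r σ = r ^ 2 * evalI G ρ τ r σ := by
  induction G with
  | nil => simp [flatI, evalI]
  | cons g G ih =>
    have e : flatI (g :: G) = (g.l.map fun m => (⟨keyOf m.a m.b (g.n + 2) g.s, m.a, m.b, g.n + 2, g.s, m.c⟩ : Tm)) ++ flatI G := by
      simp [flatI]
    rw [e, ev_append, ih]
    have h : ev (g.l.map fun m => (⟨keyOf m.a m.b (g.n + 2) g.s, m.a, m.b, g.n + 2, g.s, m.c⟩ : Tm)) ρ τ r σ
        = r ^ 2 * (evalIL g.l ρ τ * (r ^ g.n * σ ^ g.s)) := by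
      induction g.l with
      | nil => simp [evalIL]
      | cons m l ih2 =>
        simp only [List.map_cons, ev_cons, ih2, evalIL, List.sum_cons, Tm.val]
        rw [pow_add]
        ring
    rw [h]
    simp [evalI]
    ring

/-- Is the coefficient negative after the sign changes of the chart? -/
def chartNeg (st ss : Bool) (g : IGp) (m : ITm) : Bool :=
  xor (decide (m.c < 0)) (xor (and st (Nat.beq (Nat.mod m.b 2) 1)) (and ss (Nat.beq (Nat.mod g.s 2) 1)))

/-- Scaled coefficient. -/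
def chartT (Nd w : ℕ) (g : IGp) (m : ITm) : ℕ × ℕ × ℕ :=
  (Nat.mul m.c.natAbs (Nat.pow w (Nat.sub Nd (Nat.add m.a (Nat.add m.b (Nat.add g.n g.s))))), m.a, m.b)

/-- The groups of a chart. -/
def chartG (st ss : Bool) (Nd w : ℕ) (g : IGp) : Gp :=
  ⟨g.n, g.s, (g.l.filter fun m => !chartNeg st ss g m).map (chartT Nd w g),
    (g.l.filter fun m => chartNeg st ss g m).map (chartT Nd w g)⟩

/-- All the groups of a chart. -/
def chartGs (st ss : Bool) (Nd w : ℕ) (G : List IGp) : List Gp := G.map (chartG st ss Nd w)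

/-- The degree check. -/
def degOK (Nd : ℕ) (G : List IGp) : Bool :=
  G.all fun g => g.l.all fun m => Nat.ble (m.a + m.b + g.n + g.s) Nd

/-- The sign of a chart. -/
def sg (s : Bool) : ℝ := if s then -1 else 1

lemma sg_pow (s : Bool) (n : ℕ) : sg s ^ n = if (s && Nat.beq (n % 2) 1) then -1 else 1 := by
  cases s
  · simp [sg]
  · simp only [sg, if_true, Bool.true_and]
    rcases Nat.mod_two_eq_zero_or_one n with h | h
    · have : Even n := Nat.even_iff.mpr h
      rw [this.neg_one_pow]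
      simp [h]
    · have : Odd n := Nat.odd_iff.mpr h
      rw [this.neg_one_pow]
      simp [h]

lemma chart_term (st ss : Bool) (Nd w : ℕ) (g : IGp) (m : ITm) (hd : m.a + m.b + g.n + g.s ≤ Nd)
    (ρ T : ℝ) (r S : ℝ) :
    (if chartNeg st ss g m then (-1 : ℝ) else 1) * ((chartT Nd w g m).1 : ℝ)
        * ((w : ℝ) * ρ) ^ (chartT Nd w g m).2.1 * ((w : ℝ) * T) ^ (chartT Nd w g m).2.2
        * (((w : ℝ) * r) ^ g.n * ((w : ℝ) * S) ^ g.s)
      = (w : ℝ) ^ Nd * ((m.c : ℝ) * ρ ^ m.a * (sg st * T) ^ m.b * (r ^ g.n * (sg ss * S) ^ g.s)) := by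
  have e1 : ((chartT Nd w g m).1 : ℝ)
      = (m.c.natAbs : ℝ) * (w : ℝ) ^ (Nd - (m.a + (m.b + (g.n + g.s)))) := by
    show ((m.c.natAbs * w ^ (Nd - (m.a + (m.b + (g.n + g.s)))) : ℕ) : ℝ) = _
    push_cast; ring
  have e2 : (chartT Nd w g m).2.1 = m.a := rfl
  have e3 : (chartT Nd w g m).2.2 = m.b := rfl
  rw [e1, e2, e3]
  have hw : (w : ℝ) ^ Nd = (w : ℝ) ^ (Nd - (m.a + (m.b + (g.n + g.s)))) * ((w : ℝ) ^ m.a * (w : ℝ) ^ m.b * ((w : ℝ) ^ g.n * (w : ℝ) ^ g.s)) := by
    rw [← pow_add, ← pow_add, ← pow_add, ← pow_add]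
    congr 1
    omega
  rw [hw, mul_pow, mul_pow, mul_pow, mul_pow, mul_pow, mul_pow, sg_pow, sg_pow]
  have hc : (if chartNeg st ss g m then (-1 : ℝ) else 1) * (m.c.natAbs : ℝ)
      = (m.c : ℝ) * (if (st && Nat.beq (m.b % 2) 1) then -1 else 1)
          * (if (ss && Nat.beq (g.s % 2) 1) then -1 else 1) := by
    unfold chartNeg
    have habs : (m.c.natAbs : ℝ) = |(m.c : ℝ)| := by
      rw [Nat.cast_natAbs]; simp
    rw [habs]
    show (if (xor (decide (m.c < 0)) (xor (st && Nat.beq (m.b % 2) 1) (ss && Nat.beq (g.s % 2) 1))) = true then (-1 : ℝ) else 1) * _ = _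
    by_cases h0 : m.c < 0
    · have h0' : (m.c : ℝ) < 0 := by exact_mod_cast h0
      rw [abs_of_neg h0']
      cases (st && Nat.beq (m.b % 2) 1) <;> cases (ss && Nat.beq (g.s % 2) 1) <;> simp [h0]
    · have h0' : (0 : ℝ) ≤ m.c := by exact_mod_cast not_lt.mp h0
      rw [abs_of_nonneg h0']
      cases (st && Nat.beq (m.b % 2) 1) <;> cases (ss && Nat.beq (g.s % 2) 1) <;> simp [h0]
  calc _ = ((if chartNeg st ss g m then (-1 : ℝ) else 1) * (m.c.natAbs : ℝ))
        * ((w : ℝ) ^ (Nd - (m.a + (m.b + (g.n + g.s))))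
          * ((w : ℝ) ^ m.a * (w : ℝ) ^ m.b * ((w : ℝ) ^ g.n * (w : ℝ) ^ g.s)))
        * (ρ ^ m.a * T ^ m.b * (r ^ g.n * S ^ g.s)) := by ring
    _ = _ := by rw [hc]; ring

lemma chart_list (st ss : Bool) (Nd w : ℕ) (g : IGp) (l : List ITm)
    (hd : ∀ m ∈ l, m.a + m.b + g.n + g.s ≤ Nd) (ρ T r S : ℝ) :
    (evalTL ((l.filter fun m => !chartNeg st ss g m).map (chartT Nd w g)) ((w : ℝ) * ρ) ((w : ℝ) * T)
        - evalTL ((l.filter fun m => chartNeg st ss g m).map (chartT Nd w g)) ((w : ℝ) * ρ) ((w : ℝ) * T))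
        * (((w : ℝ) * r) ^ g.n * ((w : ℝ) * S) ^ g.s)
      = (w : ℝ) ^ Nd * (evalIL l ρ (sg st * T) * (r ^ g.n * (sg ss * S) ^ g.s)) := by
  induction l with
  | nil => simp [evalIL]
  | cons m l ih =>
    have ih' := ih (fun n hn => hd n (List.mem_cons_of_mem _ hn))
    have ht := chart_term st ss Nd w g m (hd m List.mem_cons_self) ρ T r S
    have hE : evalIL (m :: l) ρ (sg st * T)
        = (m.c : ℝ) * ρ ^ m.a * (sg st * T) ^ m.b + evalIL l ρ (sg st * T) := by
      simp [evalIL]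
    rw [hE]
    cases hn : chartNeg st ss g m
    · have f1 : (m :: l).filter (fun m => !chartNeg st ss g m) = m :: l.filter (fun m => !chartNeg st ss g m) := by
        simp [hn]
      have f2 : (m :: l).filter (fun m => chartNeg st ss g m) = l.filter (fun m => chartNeg st ss g m) := by
        simp [hn]
      rw [f1, f2, List.map_cons, evalTL_cons]
      rw [hn] at ht
      simp only [Bool.false_eq_true, if_false, one_mul] at ht
      linear_combination ht + ih'
    · have f1 : (m :: l).filter (fun m => !chartNeg st ss g m) = l.filter (fun m => !chartNeg st ss g m) := by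
        simp [hn]
      have f2 : (m :: l).filter (fun m => chartNeg st ss g m) = m :: l.filter (fun m => chartNeg st ss g m) := by
        simp [hn]
      rw [f1, f2, List.map_cons, evalTL_cons]
      rw [hn] at ht
      simp only [if_true] at ht
      linear_combination ht + ih'

lemma chart_eval (st ss : Bool) (Nd w : ℕ) (G : List IGp) (hd : degOK Nd G = true) (ρ T r S : ℝ) :
    evalG (chartGs st ss Nd w G) ((w : ℝ) * ρ) ((w : ℝ) * T) ((w : ℝ) * r) ((w : ℝ) * S)
      = (w : ℝ) ^ Nd * evalI G ρ (sg st * T) r (sg ss * S) := by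
  induction G with
  | nil => simp [chartGs, evalI]
  | cons g G ih =>
    have hd' : (g.l.all fun m => Nat.ble (m.a + m.b + g.n + g.s) Nd) = true ∧ degOK Nd G = true := by
      simpa [degOK] using hd
    have hg : ∀ m ∈ g.l, m.a + m.b + g.n + g.s ≤ Nd := by
      intro m hm
      have := List.all_eq_true.mp hd'.1 m hm
      exact Nat.le_of_ble_eq_true this
    have e : chartGs st ss Nd w (g :: G) = chartG st ss Nd w g :: chartGs st ss Nd w G := rfl
    rw [e, evalG_cons, ih hd'.2]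
    have := chart_list st ss Nd w g g.l hg ρ T r S
    simp only [chartG]
    rw [this]
    simp [evalI]
    ring

/-- Domain polynomial of a chart: `w⁴ (1 - 3 ρ² ± 2 ρ³ T)`. -/
def conOf (flip : Bool) (w : ℕ) : TL × TL :=
  if flip then ([(w ^ 4, 0, 0)], [(3 * w ^ 2, 2, 0), (2, 3, 1)])
  else ([(w ^ 4, 0, 0), (2, 3, 1)], [(3 * w ^ 2, 2, 0)])

lemma conOf_eval (flip : Bool) (w : ℕ) (ρ T : ℝ) :
    evalTL (conOf flip w).1 ((w : ℝ) * ρ) ((w : ℝ) * T) - evalTL (conOf flip w).2 ((w : ℝ) * ρ) ((w : ℝ) * T)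
      = (w : ℝ) ^ 4 * (1 - 3 * ρ ^ 2 + 2 * ρ ^ 3 * (sg flip * T)) := by
  cases flip <;> simp [conOf, sg] <;> ring

/-- The problem of a chart. -/
def chartPb (st ss : Bool) (Nd w : ℕ) (G : List IGp) (sp : List (ℕ × ℕ)) : Pb :=
  ⟨chartGs st ss Nd w G, conOf st w, conOf ss w, sp, w / 2⟩

/-- The polynomial inequality from the four charts. -/
theorem poly_le_zero (Nd w : ℕ) (hw : 0 < w) (hw2 : w / 2 + w / 2 = w) (G : List IGp)
    (sp00 sp01 sp10 sp11 : List (ℕ × ℕ))
    (hd : degOK Nd G = true)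
    (h00 : Sound (chartPb false false Nd w G sp00) 0 (w / 2) 0 (w / 2))
    (h01 : Sound (chartPb false true Nd w G sp01) 0 (w / 2) 0 (w / 2))
    (h10 : Sound (chartPb true false Nd w G sp10) 0 (w / 2) 0 (w / 2))
    (h11 : Sound (chartPb true true Nd w G sp11) 0 (w / 2) 0 (w / 2))
    (ρ τ r σ : ℝ) (hρ0 : 0 ≤ ρ) (hρ1 : ρ ≤ 1) (hτ : |τ| ≤ 1) (hr0 : 0 ≤ r) (hr1 : r ≤ 1) (hσ : |σ| ≤ 1)
    (hc1 : 0 ≤ 1 - 3 * ρ ^ 2 + 2 * ρ ^ 3 * τ) (hc2 : 0 ≤ 1 - 3 * r ^ 2 + 2 * r ^ 3 * σ) :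
    evalI G ρ τ r σ ≤ 0 := by
  have hwR : (0 : ℝ) < w := by exact_mod_cast hw
  have hw2R : ((w / 2 : ℕ) : ℝ) + ((w / 2 : ℕ) : ℝ) = w := by exact_mod_cast hw2
  have key : ∀ (st ss : Bool) (sp : List (ℕ × ℕ)),
      Sound (chartPb st ss Nd w G sp) 0 (w / 2) 0 (w / 2) →
      ∀ T S : ℝ, 0 ≤ T → T ≤ 1 → 0 ≤ S → S ≤ 1 →
      0 ≤ 1 - 3 * ρ ^ 2 + 2 * ρ ^ 3 * (sg st * T) → 0 ≤ 1 - 3 * r ^ 2 + 2 * r ^ 3 * (sg ss * S) →
      evalI G ρ (sg st * T) r (sg ss * S) ≤ 0 := by
    intro st ss sp hS T S hT0 hT1 hS0 hS1 hcT hcS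
    have := hS ((w : ℝ) * ρ) ((w : ℝ) * T) ((w : ℝ) * r) ((w : ℝ) * S)
      (by simp; positivity) (by simp; nlinarith) (by simp; positivity) (by simp; nlinarith)
      (by positivity) (by show (w : ℝ) * r ≤ 2 * ((w / 2 : ℕ) : ℝ); nlinarith)
      (by positivity) (by show (w : ℝ) * S ≤ 2 * ((w / 2 : ℕ) : ℝ); nlinarith)
      (by
        show 0 ≤ evalTL (conOf st w).1 _ _ - evalTL (conOf st w).2 _ _
        rw [conOf_eval]; positivity)
      (by
        show 0 ≤ evalTL (conOf ss w).1 _ _ - evalTL (conOf ss w).2 _ _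
        rw [conOf_eval]; positivity)
    have e : (chartPb st ss Nd w G sp).gs = chartGs st ss Nd w G := rfl
    rw [e, chart_eval st ss Nd w G hd] at this
    have hp : (0 : ℝ) < (w : ℝ) ^ Nd := by positivity
    by_contra hn
    rw [not_le] at hn
    have := mul_pos hp hn
    linarith
  have htt := abs_le.mp hτ
  have hss := abs_le.mp hσ
  rcases le_total 0 τ with ht | ht <;> rcases le_total 0 σ with hs | hs
  · have := key false false sp00 h00 τ σ ht htt.2 hs hss.2 (by simpa [sg] using hc1) (by simpa [sg] using hc2)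
    simpa [sg] using this
  · have := key false true sp01 h01 τ (-σ) ht htt.2 (by linarith) (by linarith) (by simpa [sg] using hc1) (by simpa [sg] using hc2)
    simpa [sg] using this
  · have := key true false sp10 h10 (-τ) σ (by linarith) (by linarith) hs hss.2 (by simpa [sg] using hc1) (by simpa [sg] using hc2)
    simpa [sg] using this
  · have := key true true sp11 h11 (-τ) (-σ) (by linarith) (by linarith) (by linarith) (by linarith) (by simpa [sg] using hc1) (by simpa [sg] using hc2)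
    simpa [sg] using this

end Vale.Agent.P154
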