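import Vale.Agent.P154.Check2

/-!
The second order certificate checker with the first order rule at the corner.
-/

namespace Vale.Agent.P154.Cert

/-! ### The tree check -/

/-- Inner check. -/
noncomputable def chkIn3 (P : Pb) (K x0 h1 t0 h2 h11 h12 h22 : ℕ) (C : List CO) (t : InT) :
    ℕ → ℕ → ℕ → ℕ → Bool :=
  InT.rec (motive := fun _ => ℕ → ℕ → ℕ → ℕ → Bool)
    (fun q0 h3 s0 h4 =>
      let h33 := Nat.mul h3 h3
      let h34 := Nat.mul h3 h4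
      let h44 := Nat.mul h4 h4
      leafOK2 K h1 h2 h3 h4 h11 h12 h22 h33 h34 h44
        (innerAc (Nat.add q0 h3) h3 (Nat.add s0 h4) h4 h33 h34 h44 C))
    (fun q0 h3 s0 h4 => conNeg q0 h3 s0 h4 P.conI)
    (fun q0 h3 s0 h4 => cornerChk (Nat.add x0 (Nat.add h1 h1)) (Nat.add t0 (Nat.add h2 h2))
      (Nat.add q0 (Nat.add h3 h3)) (Nat.add s0 (Nat.add h4 h4)) P.sp (toFlat P.gs))
    (fun _ _ ihL ihR q0 h3 s0 h4 =>
      let h := Nat.div h3 2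
      and (Nat.beq (Nat.add h h) h3) (and (ihL q0 h s0 h4) (ihR (Nat.add q0 h3) h s0 h4)))
    (fun _ _ ihL ihR q0 h3 s0 h4 =>
      let h := Nat.div h4 2
      and (Nat.beq (Nat.add h h) h4) (and (ihL q0 h3 s0 h) (ihR q0 h3 (Nat.add s0 h4) h)))
    t

/-- Outer check. -/
noncomputable def chkOut3 (P : Pb) (K : ℕ) (t : OutT) : ℕ → ℕ → ℕ → ℕ → Bool :=
  OutT.rec (motive := fun _ => ℕ → ℕ → ℕ → ℕ → Bool)
    (fun x0 h1 t0 h2 => conNeg x0 h1 t0 h2 P.conO)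
    (fun t x0 h1 t0 h2 =>
      let h11 := Nat.mul h1 h1
      let h12 := Nat.mul h1 h2
      let h22 := Nat.mul h2 h2
      let C := mkOuter2 K (Nat.add x0 h1) h1 (Nat.add t0 h2) h2 h11 h12 h22 P.gs
      and (allOk C) (chkIn3 P K x0 h1 t0 h2 h11 h12 h22 C t 0 P.W 0 P.W))
    (fun _ _ ihL ihR x0 h1 t0 h2 =>
      let h := Nat.div h1 2
      and (Nat.beq (Nat.add h h) h1) (and (ihL x0 h t0 h2) (ihR (Nat.add x0 h1) h t0 h2)))
    (fun _ _ ihL ihR x0 h1 t0 h2 =>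
      let h := Nat.div h2 2
      and (Nat.beq (Nat.add h h) h2) (and (ihL x0 h1 t0 h) (ihR x0 h1 (Nat.add t0 h2) h)))
    t

lemma chkIn3_sound (P : Pb) (K x0 h1 t0 h2 : ℕ) (hok : allOk (mkOuter2 K (x0 + h1) h1 (t0 + h2) h2
      (h1 * h1) (h1 * h2) (h2 * h2) P.gs) = true) (t : InT) (q0 h3 s0 h4 : ℕ)
    (hc : chkIn3 P K x0 h1 t0 h2 (h1 * h1) (h1 * h2) (h2 * h2)
      (mkOuter2 K (x0 + h1) h1 (t0 + h2) h2 (h1 * h1) (h1 * h2) (h2 * h2) P.gs) t q0 h3 s0 h4 = true)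
    (X T Q S : ℝ) (hX0 : (x0 : ℝ) ≤ X) (hX1 : X ≤ x0 + 2 * h1)
    (hT0 : (t0 : ℝ) ≤ T) (hT1 : T ≤ t0 + 2 * h2)
    (hQ0 : (q0 : ℝ) ≤ Q) (hQ1 : Q ≤ q0 + 2 * h3) (hS0 : (s0 : ℝ) ≤ S) (hS1 : S ≤ s0 + 2 * h4)
    (hcon : 0 ≤ evalTL P.conI.1 Q S - evalTL P.conI.2 Q S) :
    evalG P.gs X T Q S ≤ 0 := by
  induction t generalizing q0 h3 s0 h4 with
  | l =>
    have hl : leafOK2 K h1 h2 h3 h4 (h1 * h1) (h1 * h2) (h2 * h2) (h3 * h3) (h3 * h4) (h4 * h4)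
        (innerAc (q0 + h3) h3 (s0 + h4) h4 (h3 * h3) (h3 * h4) (h4 * h4)
          (mkOuter2 K (x0 + h1) h1 (t0 + h2) h2 (h1 * h1) (h1 * h2) (h2 * h2) P.gs)) = true := hc
    have := leaf_bound2 K (x0 + h1) h1 (t0 + h2) h2 (h1 * h1) (h1 * h2) (h2 * h2) (q0 + h3) h3 (s0 + h4) h4
      (h3 * h3) (h3 * h4) (h4 * h4) P.gs rfl rfl rfl rfl rfl rfl hok hl
      (X - ((x0 + h1 : ℕ) : ℝ)) (T - ((t0 + h2 : ℕ) : ℝ)) (Q - ((q0 + h3 : ℕ) : ℝ)) (S - ((s0 + h4 : ℕ) : ℝ))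
      (by rw [abs_le]; push_cast; constructor <;> linarith)
      (by rw [abs_le]; push_cast; constructor <;> linarith)
      (by rw [abs_le]; push_cast; constructor <;> linarith)
      (by rw [abs_le]; push_cast; constructor <;> linarith)
    simp only [add_sub_cancel] at this
    exact this.le
  | k =>
    have hn : conNeg q0 h3 s0 h4 P.conI = true := hc
    have := conNeg_spec q0 h3 s0 h4 P.conI hn Q S hQ0 hQ1 hS0 hS1
    linarith
  | z =>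
    have hz : cornerChk (x0 + (h1 + h1)) (t0 + (h2 + h2)) (q0 + (h3 + h3)) (s0 + (h4 + h4))
        P.sp (toFlat P.gs) = true := hc
    have hx0 : (0 : ℝ) ≤ x0 := Nat.cast_nonneg _
    have ht0 : (0 : ℝ) ≤ t0 := Nat.cast_nonneg _
    have hq0 : (0 : ℝ) ≤ q0 := Nat.cast_nonneg _
    have hs0 : (0 : ℝ) ≤ s0 := Nat.cast_nonneg _
    have := cornerChk_spec _ _ _ _ _ _ hz X T Q S (by linarith) (by linarith) (by linarith) (by linarith)
      (by push_cast; linarith) (by push_cast; linarith) (by push_cast; linarith) (by push_cast; linarith)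
    rwa [evalFlat_toFlat] at this
  | c L R ihL ihR =>
    have hc' : and (Nat.beq (Nat.add (Nat.div h3 2) (Nat.div h3 2)) h3)
        (and (chkIn3 P K x0 h1 t0 h2 (h1 * h1) (h1 * h2) (h2 * h2) (mkOuter2 K (x0 + h1) h1 (t0 + h2) h2 (h1 * h1) (h1 * h2) (h2 * h2) P.gs) L q0 (Nat.div h3 2) s0 h4)
          (chkIn3 P K x0 h1 t0 h2 (h1 * h1) (h1 * h2) (h2 * h2) (mkOuter2 K (x0 + h1) h1 (t0 + h2) h2 (h1 * h1) (h1 * h2) (h2 * h2) P.gs) R (Nat.add q0 h3) (Nat.div h3 2) s0 h4)) = true := hc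
    simp only [Bool.and_eq_true] at hc'
    obtain ⟨h0, hL, hR⟩ := hc'
    have he : (Nat.div h3 2) + (Nat.div h3 2) = h3 := Nat.eq_of_beq_eq_true h0
    have he' : ((Nat.div h3 2 : ℕ) : ℝ) + ((Nat.div h3 2 : ℕ) : ℝ) = h3 := by exact_mod_cast he
    rcases le_total Q ((q0 : ℝ) + h3) with hq | hq
    · exact ihL _ _ _ _ hL hQ0 (by linarith) hS0 hS1
    · exact ihR _ _ _ _ hR (by simpa using hq) (by
        have : ((Nat.add q0 h3 : ℕ) : ℝ) = (q0 : ℝ) + h3 := by simp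
        rw [this]; linarith) hS0 hS1
  | d L R ihL ihR =>
    have hc' : and (Nat.beq (Nat.add (Nat.div h4 2) (Nat.div h4 2)) h4)
        (and (chkIn3 P K x0 h1 t0 h2 (h1 * h1) (h1 * h2) (h2 * h2) (mkOuter2 K (x0 + h1) h1 (t0 + h2) h2 (h1 * h1) (h1 * h2) (h2 * h2) P.gs) L q0 h3 s0 (Nat.div h4 2))
          (chkIn3 P K x0 h1 t0 h2 (h1 * h1) (h1 * h2) (h2 * h2) (mkOuter2 K (x0 + h1) h1 (t0 + h2) h2 (h1 * h1) (h1 * h2) (h2 * h2) P.gs) R q0 h3 (Nat.add s0 h4) (Nat.div h4 2))) = true := hc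
    simp only [Bool.and_eq_true] at hc'
    obtain ⟨h0, hL, hR⟩ := hc'
    have he : (Nat.div h4 2) + (Nat.div h4 2) = h4 := Nat.eq_of_beq_eq_true h0
    have he' : ((Nat.div h4 2 : ℕ) : ℝ) + ((Nat.div h4 2 : ℕ) : ℝ) = h4 := by exact_mod_cast he
    rcases le_total S ((s0 : ℝ) + h4) with hs | hs
    · exact ihL _ _ _ _ hL hQ0 hQ1 hS0 (by linarith)
    · exact ihR _ _ _ _ hR hQ0 hQ1 (by simpa using hs) (by
        have : ((Nat.add s0 h4 : ℕ) : ℝ) = (s0 : ℝ) + h4 := by simp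
        rw [this]; linarith)

lemma chkOut3_sound (P : Pb) (K : ℕ) (t : OutT) (x0 h1 t0 h2 : ℕ)
    (hc : chkOut3 P K t x0 h1 t0 h2 = true) : Sound P x0 h1 t0 h2 := by
  induction t generalizing x0 h1 t0 h2 with
  | s =>
    intro X T Q S hX0 hX1 hT0 hT1 _ _ _ _ hcO _
    have hn : conNeg x0 h1 t0 h2 P.conO = true := hc
    have := conNeg_spec x0 h1 t0 h2 P.conO hn X T hX0 hX1 hT0 hT1
    linarith
  | O t =>
    intro X T Q S hX0 hX1 hT0 hT1 hQ0 hQ1 hS0 hS1 _ hcI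
    have hi : and (allOk (mkOuter2 K (x0 + h1) h1 (t0 + h2) h2 (h1 * h1) (h1 * h2) (h2 * h2) P.gs))
        (chkIn3 P K x0 h1 t0 h2 (h1 * h1) (h1 * h2) (h2 * h2)
          (mkOuter2 K (x0 + h1) h1 (t0 + h2) h2 (h1 * h1) (h1 * h2) (h2 * h2) P.gs) t 0 P.W 0 P.W) = true := hc
    simp only [Bool.and_eq_true] at hi
    exact chkIn3_sound P K x0 h1 t0 h2 hi.1 t 0 P.W 0 P.W hi.2 X T Q S hX0 hX1 hT0 hT1
      (by simpa using hQ0) (by simpa using hQ1) (by simpa using hS0) (by simpa using hS1) hcI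
  | A L R ihL ihR =>
    have hc' : and (Nat.beq (Nat.add (Nat.div h1 2) (Nat.div h1 2)) h1)
        (and (chkOut3 P K L x0 (Nat.div h1 2) t0 h2) (chkOut3 P K R (Nat.add x0 h1) (Nat.div h1 2) t0 h2)) = true := hc
    simp only [Bool.and_eq_true] at hc'
    obtain ⟨h0, hL, hR⟩ := hc'
    have he : (Nat.div h1 2) + (Nat.div h1 2) = h1 := Nat.eq_of_beq_eq_true h0
    exact sound_splitA P x0 _ h1 t0 h2 he (ihL _ _ _ _ hL) (ihR _ _ _ _ hR)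
  | B L R ihL ihR =>
    have hc' : and (Nat.beq (Nat.add (Nat.div h2 2) (Nat.div h2 2)) h2)
        (and (chkOut3 P K L x0 h1 t0 (Nat.div h2 2)) (chkOut3 P K R x0 h1 (Nat.add t0 h2) (Nat.div h2 2))) = true := hc
    simp only [Bool.and_eq_true] at hc'
    obtain ⟨h0, hL, hR⟩ := hc'
    have he : (Nat.div h2 2) + (Nat.div h2 2) = h2 := Nat.eq_of_beq_eq_true h0
    exact sound_splitB P x0 h1 t0 _ h2 he (ihL _ _ _ _ hL) (ihR _ _ _ _ hR)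

end Vale.Agent.P154.Cert
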