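import Mathlib

/-!
Broadcasting the q-state Potts channel on the rooted d-ary tree: definitions.
A vertex at depth n is a word `Fin n → Fin d`; a leaf configuration at depth n is a colouring
`(Fin n → Fin d) → Fin q` of these words.
-/

open Finset BigOperators Filter Topology

namespace Vale.Agent.P154

/-- The q-state Potts channel with eigenvalue `lam`: `P(j | i) = lam * 1_{i = j} + (1 - lam) / q`. -/
noncomputable def potts (q : ℕ) (lam : ℝ) (i j : Fin q) : ℝ :=
  (if i = j then lam else 0) + (1 - lam) / q

/-- Probability of the leaf configuration `η` at depth `n` given that the root has colour `i`,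
on the rooted `d`-ary tree. -/
noncomputable def leafLik (q d : ℕ) (lam : ℝ) :
    (n : ℕ) → Fin q → ((Fin n → Fin d) → Fin q) → ℝ
  | 0, i, η => if η Fin.elim0 = i then 1 else 0
  | n + 1, i, η =>
      ∏ c : Fin d, ∑ j : Fin q, potts q lam i j *
        leafLik q d lam n j (fun w => η (Fin.cons c w))

/-- Joint probability of root colour `i` (uniform root) and leaf configuration `η`. -/
noncomputable def jointProb (q d : ℕ) (lam : ℝ) (n : ℕ) (i : Fin q)
    (η : (Fin n → Fin d) → Fin q) : ℝ :=
  (1 / (q : ℝ)) * leafLik q d lam n i η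

/-- Marginal probability of the leaf configuration `η`. -/
noncomputable def leafProb (q d : ℕ) (lam : ℝ) (n : ℕ)
    (η : (Fin n → Fin d) → Fin q) : ℝ :=
  ∑ i : Fin q, jointProb q d lam n i η

/-- The reconstruction error
`a_n = E [ (1/2) ∑_i | P(σ_root = i | σ_{L_n}) - 1/q | ]` on the rooted `d`-ary tree. -/
noncomputable def reconError (q d : ℕ) (lam : ℝ) (n : ℕ) : ℝ :=
  ∑ η : (Fin n → Fin d) → Fin q, leafProb q d lam n η *
    ((1 / 2 : ℝ) * ∑ i : Fin q, |jointProb q d lam n i η / leafProb q d lam n η - 1 / (q : ℝ)|)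

end Vale.Agent.P154
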