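import Vale.Agent.P154.Defs

/-!
Broadcasting on Galton-Watson trees: definitions.  An observation at depth `n` is the tree down to
depth `n` (with ordered children) together with the colours at depth `n`.
-/

open Finset BigOperators Filter Topology

namespace Vale.Agent.P154

/-- Observations at depth `n`: at depth `0` a colour; at depth `n + 1` the number `N` of children
of the root and the observations at depth `n` of the subtrees of the children. -/
@[reducible] def Obs (q : ℕ) : ℕ → Type
  | 0 => Fin q
  | n + 1 => Σ N : ℕ, (Fin N → Obs q n)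

/-- Probability of an observation given the colour of the root, when the offspring law is `off`. -/
noncomputable def gwLik (q : ℕ) (off : ℕ → ℝ) (lam : ℝ) : (n : ℕ) → Fin q → Obs q n → ℝ
  | 0, i, c => if c = i then 1 else 0
  | n + 1, i, ⟨N, f⟩ =>
      off N * ∏ c : Fin N, ∑ j : Fin q, potts q lam i j * gwLik q off lam n j (f c)

/-- Joint probability of root colour `i` (uniform root) and an observation. -/
noncomputable def gwJoint (q : ℕ) (off : ℕ → ℝ) (lam : ℝ) (n : ℕ) (i : Fin q) (ω : Obs q n) : ℝ :=
  (1 / (q : ℝ)) * gwLik q off lam n i ω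

/-- Marginal probability of an observation. -/
noncomputable def gwProb (q : ℕ) (off : ℕ → ℝ) (lam : ℝ) (n : ℕ) (ω : Obs q n) : ℝ :=
  ∑ i : Fin q, gwJoint q off lam n i ω

/-- The reconstruction error
`a_n = E [ (1/2) ∑_i | P(σ_root = i | tree, leaves) - 1/q | ]` on the Galton-Watson tree. -/
noncomputable def gwError (q : ℕ) (off : ℕ → ℝ) (lam : ℝ) (n : ℕ) : ℝ :=
  ∑' ω : Obs q n, gwProb q off lam n ω *
    ((1 / 2 : ℝ) * ∑ i : Fin q, |gwJoint q off lam n i ω / gwProb q off lam n ω - 1 / (q : ℝ)|)

/-- The Poisson offspring law of mean `d`. -/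
noncomputable def poissonOff (d : ℝ) (N : ℕ) : ℝ := Real.exp (-d) * (d ^ N / (N.factorial : ℝ))

end Vale.Agent.P154
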