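import Vale.Agent.P154.Tree
import Vale.Agent.P154.GWDefs

/-!
Broadcasting on Galton-Watson trees.  An observation at depth `n` is the tree down to depth `n`
(with ordered children) together with the colours at depth `n`.
-/

open Finset BigOperators Filter Topology

namespace Vale.Agent.P154

section product

variable {X : Type*}

/-- The law of independent copies. -/
lemma hasSum_pi_prod (g : X → ℝ) (hg : ∀ ξ, 0 ≤ g ξ) (a : ℝ) (h : HasSum g a) (N : ℕ) :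
    HasSum (fun f : Fin N → X => ∏ c, g (f c)) (a ^ N) := by
  induction N with
  | zero =>
    have : IsEmpty (Fin 0) := inferInstance
    simp
  | succ N ih =>
    have h0 : (0 : X → ℝ) ≤ g := fun ξ => hg ξ
    have h1 : (0 : (Fin N → X) → ℝ) ≤ fun f => ∏ c, g (f c) :=
      fun f => Finset.prod_nonneg fun c _ => hg (f c)
    have hs := Summable.mul_of_nonneg h.summable ih.summable h0 h1
    have hprod := h.mul ih hs
    have e := (Fin.consEquiv (fun _ => X)).hasSum_iff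
      (f := fun f : Fin (N + 1) → X => ∏ c, g (f c)) (a := a * a ^ N)
    have e2 : ((fun f : Fin (N + 1) → X => ∏ c, g (f c)) ∘ ⇑(Fin.consEquiv (fun _ => X)))
        = fun z : X × (Fin N → X) => g z.1 * ∏ c, g (z.2 c) := by
      funext z
      simp [Fin.consEquiv, Fin.prod_univ_succ]
    rw [e2] at e
    rw [pow_succ']
    exact e.mp hprod

end product

section basic

variable {off : ℕ → ℝ} {lam : ℝ}

/-- Total mass. -/
noncomputable def gS (off : ℕ → ℝ) (lam : ℝ) (n : ℕ) (ω : Obs 3 n) : ℝ := ∑ i, gwLik 3 off lam n i ω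

/-- Posterior vector. -/
noncomputable def gy (off : ℕ → ℝ) (lam : ℝ) (n : ℕ) (ω : Obs 3 n) (i : Fin 3) : ℝ :=
  3 * gwLik 3 off lam n i ω / gS off lam n ω - 1

/-- Marginal probability. -/
noncomputable def gp (off : ℕ → ℝ) (lam : ℝ) (n : ℕ) (ω : Obs 3 n) : ℝ := gS off lam n ω / 3

lemma gwLik_succ (n : ℕ) (i : Fin 3) (N : ℕ) (f : Fin N → Obs 3 n) :
    gwLik 3 off lam (n + 1) i ⟨N, f⟩
      = off N * ∏ c : Fin N, ∑ j : Fin 3, potts 3 lam i j * gwLik 3 off lam n j (f c) := rfl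

lemma potts_nonneg' (h0 : -(1 / 2) < lam) (h1 : lam ≤ 1) (i j : Fin 3) : 0 ≤ potts 3 lam i j := by
  unfold potts
  push_cast
  split_ifs <;> linarith

lemma gwLik_nonneg (hoff : ∀ N, 0 ≤ off N) (h0 : -(1 / 2) < lam) (h1 : lam ≤ 1) (n : ℕ) (i : Fin 3)
    (ω : Obs 3 n) : 0 ≤ gwLik 3 off lam n i ω := by
  induction n generalizing i with
  | zero =>
    show 0 ≤ (if ω = i then (1 : ℝ) else 0)
    split_ifs <;> norm_num
  | succ n ih =>
    obtain ⟨N, f⟩ := ω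
    rw [gwLik_succ]
    refine mul_nonneg (hoff N) (Finset.prod_nonneg fun c _ => Finset.sum_nonneg fun j _ => ?_)
    exact mul_nonneg (potts_nonneg' h0 h1 i j) (ih _ _)

lemma gS_pos (hoff : ∀ N, 0 < off N) (h0 : -(1 / 2) < lam) (h1 : lam < 1) (n : ℕ) (ω : Obs 3 n) :
    0 < gS off lam n ω := by
  have hoff' : ∀ N, 0 ≤ off N := fun N => (hoff N).le
  induction n with
  | zero =>
    unfold gS
    have h : gwLik 3 off lam 0 ω ω = 1 := by
      show (if ω = ω then (1 : ℝ) else 0) = 1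
      simp
    have h2 : ∀ i ∈ (Finset.univ : Finset (Fin 3)), 0 ≤ gwLik 3 off lam 0 i ω :=
      fun i _ => gwLik_nonneg hoff' h0 h1.le 0 i ω
    have h3 := Finset.single_le_sum h2 (Finset.mem_univ ω)
    rw [h] at h3
    linarith
  | succ n ih =>
    obtain ⟨N, f⟩ := ω
    unfold gS
    refine Finset.sum_pos (fun i _ => ?_) ⟨0, Finset.mem_univ _⟩
    rw [gwLik_succ]
    refine mul_pos (hoff N) (Finset.prod_pos fun c _ => ?_)
    rw [potts_sum]
    have h2 := ih (f c)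
    unfold gS at h2
    have h3 := gwLik_nonneg hoff' h0 h1.le n i (f c)
    rcases le_total 0 lam with hl | hl
    · have h4 : 0 < (1 - lam) / 3 := by linarith
      have : 0 ≤ lam * gwLik 3 off lam n i (f c) := mul_nonneg hl h3
      have := mul_pos h4 h2
      linarith
    · have h5 : gwLik 3 off lam n i (f c) ≤ ∑ j, gwLik 3 off lam n j (f c) :=
        Finset.single_le_sum (f := fun j => gwLik 3 off lam n j (f c))
          (fun j _ => gwLik_nonneg hoff' h0 h1.le n j (f c)) (Finset.mem_univ i)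
      have h6 : lam * (∑ j, gwLik 3 off lam n j (f c)) ≤ lam * gwLik 3 off lam n i (f c) :=
        mul_le_mul_of_nonpos_left h5 hl
      have h7 : 0 < (1 + 2 * lam) / 3 * ∑ j, gwLik 3 off lam n j (f c) :=
        mul_pos (by linarith) h2
      nlinarith

lemma gp_pos (hoff : ∀ N, 0 < off N) (h0 : -(1 / 2) < lam) (h1 : lam < 1) (n : ℕ) (ω : Obs 3 n) :
    0 < gp off lam n ω := by
  unfold gp
  have := gS_pos hoff h0 h1 n ω
  positivity

lemma gy_sum (hoff : ∀ N, 0 < off N) (h0 : -(1 / 2) < lam) (h1 : lam < 1) (n : ℕ) (ω : Obs 3 n) :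
    ∑ i, gy off lam n ω i = 0 := by
  unfold gy
  have hS := gS_pos hoff h0 h1 n ω
  rw [Finset.sum_sub_distrib, ← Finset.sum_div, ← Finset.mul_sum]
  change 3 * gS off lam n ω / gS off lam n ω - _ = 0
  field_simp
  simp

lemma gy_ge (hoff : ∀ N, 0 < off N) (h0 : -(1 / 2) < lam) (h1 : lam < 1) (n : ℕ) (ω : Obs 3 n) (i : Fin 3) :
    -1 ≤ gy off lam n ω i := by
  unfold gy
  have hS := gS_pos hoff h0 h1 n ω
  have := gwLik_nonneg (fun N => (hoff N).le) h0 h1.le n i ω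
  have : 0 ≤ 3 * gwLik 3 off lam n i ω / gS off lam n ω := by positivity
  linarith

/-- The message passed through an edge. -/
lemma gmessage (hoff : ∀ N, 0 < off N) (h0 : -(1 / 2) < lam) (h1 : lam < 1) (n : ℕ) (ξ : Obs 3 n) (i : Fin 3) :
    ∑ j, potts 3 lam i j * gwLik 3 off lam n j ξ
      = gp off lam n ξ * (1 + lam * gy off lam n ξ i) := by
  rw [potts_sum]
  have hS := gS_pos hoff h0 h1 n ξ
  unfold gp gy
  change _ + (1 - lam) / 3 * gS off lam n ξ = _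
  field_simp
  ring

/-- The likelihood at the next level. -/
lemma gwLik_succ' (hoff : ∀ N, 0 < off N) (h0 : -(1 / 2) < lam) (h1 : lam < 1) (n : ℕ) (i : Fin 3) (N : ℕ)
    (f : Fin N → Obs 3 n) :
    gwLik 3 off lam (n + 1) i ⟨N, f⟩
      = (off N * ∏ c, gp off lam n (f c)) * ∏ c, (1 + lam * gy off lam n (f c) i) := by
  rw [gwLik_succ, mul_assoc, ← Finset.prod_mul_distrib]
  congr 1
  refine Finset.prod_congr rfl fun c _ => ?_
  rw [gmessage hoff h0 h1]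

/-- The likelihoods of a colour sum to one. -/
lemma gwLik_hasSum (hoff : ∀ N, 0 ≤ off N) (hsum : HasSum off 1) (h0 : -(1 / 2) < lam) (h1 : lam ≤ 1)
    (n : ℕ) (i : Fin 3) : HasSum (fun ω : Obs 3 n => gwLik 3 off lam n i ω) 1 := by
  induction n generalizing i with
  | zero =>
    have := hasSum_fintype (fun ω : Fin 3 => gwLik 3 off lam 0 i ω)
    have e : ∑ ω : Fin 3, gwLik 3 off lam 0 i ω = 1 := by
      show ∑ ω : Fin 3, (if ω = i then (1 : ℝ) else 0) = 1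
      simp
    rw [e] at this
    exact this
  | succ n ih =>
    -- one edge
    set g : Obs 3 n → ℝ := fun ξ => ∑ j : Fin 3, potts 3 lam i j * gwLik 3 off lam n j ξ with hg
    have hg0 : ∀ ξ, 0 ≤ g ξ := fun ξ => Finset.sum_nonneg fun j _ =>
      mul_nonneg (potts_nonneg' h0 h1 i j) (gwLik_nonneg hoff h0 h1 n j ξ)
    have hg1 : HasSum g 1 := by
      have := hasSum_sum (s := Finset.univ) (f := fun (j : Fin 3) (ξ : Obs 3 n) =>
        potts 3 lam i j * gwLik 3 off lam n j ξ) (a := fun j => potts 3 lam i j * 1)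
        (fun j _ => (ih j).mul_left _)
      have e : ∑ j : Fin 3, potts 3 lam i j * 1 = 1 := by
        have := potts_sum lam i (fun _ => 1)
        simp only [mul_one] at this ⊢
        rw [this]
        simp
      rw [e] at this
      exact this
    have hfib : ∀ N, HasSum (fun f : Fin N → Obs 3 n => off N * ∏ c, g (f c)) (off N) := by
      intro N
      have := (hasSum_pi_prod g hg0 1 hg1 N).mul_left (off N)
      simpa using this
    have hnn : ∀ ω : (Σ N : ℕ, (Fin N → Obs 3 n)), 0 ≤ off ω.1 * ∏ c, g (ω.2 c) := fun ω =>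
      mul_nonneg (hoff _) (Finset.prod_nonneg fun c _ => hg0 _)
    have hS : Summable (fun ω : (Σ N : ℕ, (Fin N → Obs 3 n)) => off ω.1 * ∏ c, g (ω.2 c)) := by
      rw [summable_sigma_of_nonneg hnn]
      refine ⟨fun N => (hfib N).summable, ?_⟩
      have : (fun N => ∑' f : Fin N → Obs 3 n, off (⟨N, f⟩ : Σ N : ℕ, (Fin N → Obs 3 n)).1 *
          ∏ c, g ((⟨N, f⟩ : Σ N : ℕ, (Fin N → Obs 3 n)).2 c)) = off := by
        funext N
        exact (hfib N).tsum_eq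
      rw [this]
      exact hsum.summable
    exact HasSum.sigma_of_hasSum hsum hfib hS

lemma gp_hasSum (hoff : ∀ N, 0 ≤ off N) (hsum : HasSum off 1) (h0 : -(1 / 2) < lam) (h1 : lam ≤ 1) (n : ℕ) :
    HasSum (fun ω : Obs 3 n => gp off lam n ω) 1 := by
  have := hasSum_sum (s := Finset.univ) (f := fun (j : Fin 3) (ξ : Obs 3 n) =>
        gwLik 3 off lam n j ξ) (a := fun _ => 1) (fun j _ => gwLik_hasSum hoff hsum h0 h1 n j)
  have h2 := this.div_const 3
  simp only [Finset.sum_const, Finset.card_univ, Fintype.card_fin, smul_eq_mul, mul_one] at h2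
  have e : ((3 : ℕ) : ℝ) / 3 = 1 := by norm_num
  simp only [nsmul_eq_mul, mul_one] at h2
  rw [e] at h2
  exact h2

/-- The action of a permutation of the colours on the observations. -/
def obsPerm (g : Equiv.Perm (Fin 3)) : (n : ℕ) → Obs 3 n ≃ Obs 3 n
  | 0 => g
  | n + 1 => Equiv.sigmaCongrRight fun _ => Equiv.arrowCongr (Equiv.refl _) (obsPerm g n)

lemma gwLik_perm (g : Equiv.Perm (Fin 3)) (n : ℕ) (i : Fin 3) (ω : Obs 3 n) :
    gwLik 3 off lam n (g i) (obsPerm g n ω) = gwLik 3 off lam n i ω := by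
  induction n generalizing i with
  | zero =>
    show (if g ω = g i then (1 : ℝ) else 0) = if ω = i then 1 else 0
    simp
  | succ n ih =>
    obtain ⟨N, f⟩ := ω
    have e : obsPerm g (n + 1) ⟨N, f⟩ = ⟨N, fun c => obsPerm g n (f c)⟩ := rfl
    rw [e, gwLik_succ, gwLik_succ]
    congr 1
    refine Finset.prod_congr rfl fun c _ => ?_
    rw [← Equiv.sum_comp g]
    refine Finset.sum_congr rfl fun j _ => ?_
    rw [potts_perm, ih]

lemma gS_perm (g : Equiv.Perm (Fin 3)) (n : ℕ) (ω : Obs 3 n) :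
    gS off lam n (obsPerm g n ω) = gS off lam n ω := by
  unfold gS
  rw [← Equiv.sum_comp g]
  exact Finset.sum_congr rfl fun i _ => gwLik_perm g n i ω

lemma gy_perm (g : Equiv.Perm (Fin 3)) (n : ℕ) (ω : Obs 3 n) (i : Fin 3) :
    gy off lam n (obsPerm g n ω) i = gy off lam n ω (g⁻¹ i) := by
  unfold gy
  rw [gS_perm]
  have := gwLik_perm (off := off) (lam := lam) g n (g⁻¹ i) ω
  rw [show g (g⁻¹ i) = i by simp] at this
  rw [this]

/-- The law of the posterior is symmetric. -/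
lemma glaw_sym (n : ℕ) (g : Equiv.Perm (Fin 3)) (f : (Fin 3 → ℝ) → ℝ) :
    ∑' ω : Obs 3 n, gp off lam n ω * f (gy off lam n ω)
      = ∑' ω : Obs 3 n, gp off lam n ω * f (fun i => gy off lam n ω (g i)) := by
  rw [← (obsPerm g⁻¹ n).tsum_eq]
  refine tsum_congr fun ω => ?_
  unfold gp
  rw [gS_perm]
  congr 2
  funext i
  rw [gy_perm]
  simp

end basic

section merge

variable {X : Type*} {p : X → ℝ} {y : X → Fin 3 → ℝ} {lam : ℝ}

/-- The `k`-fold merge. -/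
noncomputable def mergeT (p : X → ℝ) (y : X → Fin 3 → ℝ) (lam : ℝ) (k : ℕ) (G : (Fin 3 → ℝ) → ℝ)
    (x : Fin 3 → ℝ) : ℝ :=
  ∑' f : Fin k → X, (∏ c, p (f c)) * G (fun i => x i * ∏ c, (1 + lam * y (f c) i))

/-- The law of the messages. -/
structure GLaw (p : X → ℝ) (y : X → Fin 3 → ℝ) (lam : ℝ) : Prop where
  hp : ∀ ξ, 0 ≤ p ξ
  hp1 : HasSum p 1
  hy0 : ∀ ξ, ∑ i, y ξ i = 0
  hy1 : ∀ ξ i, -1 ≤ y ξ i
  hsym : ∀ (g : Equiv.Perm (Fin 3)) (f : (Fin 3 → ℝ) → ℝ),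
    ∑' ξ, p ξ * f (y ξ) = ∑' ξ, p ξ * f (fun i => y ξ (g i))
  hl0 : -(1 / 2) < lam
  hl1 : lam < 1

/-- Bounds for the potential on the simplex. -/
structure GPot (P : ℝ → ℝ → ℝ) (C : ℝ) : Prop where
  h0 : ∀ v : Fin 3 → ℝ, ∑ i, v i = 0 → (∀ i, -1 ≤ v i) → 0 ≤ P (s2 v) (s3 v)
  hC : ∀ v : Fin 3 → ℝ, ∑ i, v i = 0 → (∀ i, -1 ≤ v i) → P (s2 v) (s3 v) ≤ C

lemma summ_p_mul (hL : GLaw p y lam) (F : X → ℝ) (B : ℝ) (hF : ∀ ξ, |F ξ| ≤ B) :
    Summable fun ξ => p ξ * F ξ := by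
  refine Summable.of_norm_bounded (g := fun ξ => p ξ * B) (hL.hp1.summable.mul_right B) fun ξ => ?_
  rw [norm_mul, Real.norm_eq_abs, Real.norm_eq_abs, abs_of_nonneg (hL.hp ξ)]
  exact mul_le_mul_of_nonneg_left (hF ξ) (hL.hp ξ)

lemma hom_bd {P : ℝ → ℝ → ℝ} {C : ℝ} (hP : GPot P C) (x : Fin 3 → ℝ) (hx : ∀ i, 0 < x i) :
    0 ≤ Hom P x ∧ Hom P x ≤ (∑ i, x i) / 3 * C := by
  have hS : 0 < ∑ i, x i := Finset.sum_pos (fun i _ => hx i) ⟨0, Finset.mem_univ _⟩
  set z : Fin 3 → ℝ := fun i => 3 * x i / (∑ k, x k) - 1 with hz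
  have hz0 : ∑ i, z i = 0 := by
    have h3 : ∑ i, 3 * x i / (∑ k, x k) = 3 := by
      rw [← Finset.sum_div, ← Finset.mul_sum]
      field_simp
    simp only [hz, Finset.sum_sub_distrib, h3]
    simp
  have hz1 : ∀ i, -1 ≤ z i := by
    intro i
    have : 0 ≤ 3 * x i / ∑ k, x k := by
      have := hx i
      positivity
    simp only [hz]
    linarith
  have e : Hom P x = (∑ i, x i) / 3 * P (s2 z) (s3 z) := rfl
  rw [e]
  constructor
  · exact mul_nonneg (by positivity) (hP.h0 z hz0 hz1)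
  · exact mul_le_mul_of_nonneg_left (hP.hC z hz0 hz1) (by positivity)

lemma msg_pos (hL : GLaw p y lam) (ξ : X) (i : Fin 3) : 0 < 1 + lam * y ξ i := by
  have := hL.hy1 ξ i
  have h2 := y_le_two (hL.hy0 ξ) (hL.hy1 ξ) i
  have h0 := hL.hl0
  have h1 := hL.hl1
  rcases le_total 0 lam with hl | hl
  · nlinarith
  · nlinarith

lemma msg_le (hL : GLaw p y lam) (ξ : X) (i : Fin 3) : 1 + lam * y ξ i ≤ 1 + 2 * |lam| := by
  have := y_le_two (hL.hy0 ξ) (hL.hy1 ξ) i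
  have h1 := hL.hy1 ξ i
  rcases le_total 0 lam with hl | hl
  · rw [abs_of_nonneg hl]; nlinarith
  · rw [abs_of_nonpos hl]; nlinarith

lemma prod_msg_pos (hL : GLaw p y lam) {k : ℕ} (f : Fin k → X) (i : Fin 3) :
    0 < ∏ c, (1 + lam * y (f c) i) := Finset.prod_pos fun c _ => msg_pos hL _ _

lemma prod_msg_le (hL : GLaw p y lam) {k : ℕ} (f : Fin k → X) (i : Fin 3) :
    ∏ c, (1 + lam * y (f c) i) ≤ (1 + 2 * |lam|) ^ k := by
  calc ∏ c, (1 + lam * y (f c) i) ≤ ∏ _c : Fin k, (1 + 2 * |lam|) :=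
        Finset.prod_le_prod (fun c _ => (msg_pos hL _ _).le) (fun c _ => msg_le hL _ _)
    _ = _ := by simp

/-- The bound used for the summability of the merges. -/
noncomputable def mergeB (lam : ℝ) (k : ℕ) (C : ℝ) (x : Fin 3 → ℝ) : ℝ :=
  (∑ i, x i) / 3 * (1 + 2 * |lam|) ^ k * C

lemma hom_prod_bd (hL : GLaw p y lam) {P : ℝ → ℝ → ℝ} {C : ℝ} (hP : GPot P C) (hC : 0 ≤ C)
    (x : Fin 3 → ℝ) (hx : ∀ i, 0 < x i) {k : ℕ} (f : Fin k → X) :
    0 ≤ Hom P (fun i => x i * ∏ c, (1 + lam * y (f c) i))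
      ∧ Hom P (fun i => x i * ∏ c, (1 + lam * y (f c) i)) ≤ mergeB lam k C x := by
  have hpos : ∀ i, 0 < x i * ∏ c, (1 + lam * y (f c) i) := fun i =>
    mul_pos (hx i) (prod_msg_pos hL f i)
  obtain ⟨h1, h2⟩ := hom_bd hP _ hpos
  refine ⟨h1, h2.trans ?_⟩
  unfold mergeB
  apply mul_le_mul_of_nonneg_right _ hC
  have hs : ∑ i, x i * ∏ c, (1 + lam * y (f c) i) ≤ ∑ i, x i * (1 + 2 * |lam|) ^ k :=
    Finset.sum_le_sum fun i _ => mul_le_mul_of_nonneg_left (prod_msg_le hL f i) (hx i).le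
  rw [← Finset.sum_mul] at hs
  have : (∑ i, x i) * (1 + 2 * |lam|) ^ k / 3 = (∑ i, x i) / 3 * (1 + 2 * |lam|) ^ k := by ring
  rw [← this]
  exact div_le_div_of_nonneg_right hs (by norm_num)

lemma prod_p_hasSum (hL : GLaw p y lam) (k : ℕ) :
    HasSum (fun f : Fin k → X => ∏ c, p (f c)) 1 := by
  have := hasSum_pi_prod p hL.hp 1 hL.hp1 k
  simpa using this

lemma summ_merge (hL : GLaw p y lam) {P : ℝ → ℝ → ℝ} {C : ℝ} (hP : GPot P C) (hC : 0 ≤ C)
    (x : Fin 3 → ℝ) (hx : ∀ i, 0 < x i) (k : ℕ) :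
    Summable fun f : Fin k → X =>
      (∏ c, p (f c)) * Hom P (fun i => x i * ∏ c, (1 + lam * y (f c) i)) := by
  refine Summable.of_nonneg_of_le (fun f => mul_nonneg (Finset.prod_nonneg fun c _ => hL.hp _)
    (hom_prod_bd hL hP hC x hx f).1) (fun f => mul_le_mul_of_nonneg_left
      (hom_prod_bd hL hP hC x hx f).2 (Finset.prod_nonneg fun c _ => hL.hp _))
    ((prod_p_hasSum hL k).summable.mul_right (mergeB lam k C x))

lemma merge_bd (hL : GLaw p y lam) {P : ℝ → ℝ → ℝ} {C : ℝ} (hP : GPot P C) (hC : 0 ≤ C)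
    (x : Fin 3 → ℝ) (hx : ∀ i, 0 < x i) (k : ℕ) :
    0 ≤ mergeT p y lam k (Hom P) x ∧ mergeT p y lam k (Hom P) x ≤ mergeB lam k C x := by
  constructor
  · exact tsum_nonneg fun f => mul_nonneg (Finset.prod_nonneg fun c _ => hL.hp _)
      (hom_prod_bd hL hP hC x hx f).1
  · have h1 := ((prod_p_hasSum hL k).mul_right (mergeB lam k C x)).tsum_eq
    rw [one_mul] at h1
    rw [← h1]
    exact (summ_merge hL hP hC x hx k).tsum_le_tsum (fun f => mul_le_mul_of_nonneg_left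
      (hom_prod_bd hL hP hC x hx f).2 (Finset.prod_nonneg fun c _ => hL.hp _))
      ((prod_p_hasSum hL k).summable.mul_right _)

lemma mergeT_zero (G : (Fin 3 → ℝ) → ℝ) (x : Fin 3 → ℝ) : mergeT p y lam 0 G x = G x := by
  unfold mergeT
  rw [tsum_fintype]
  simp

lemma mergeT_succ (hL : GLaw p y lam) {P : ℝ → ℝ → ℝ} {C : ℝ} (hP : GPot P C) (hC : 0 ≤ C)
    (x : Fin 3 → ℝ) (hx : ∀ i, 0 < x i) (k : ℕ) :
    mergeT p y lam (k + 1) (Hom P) x
      = ∑' ξ, p ξ * mergeT p y lam k (Hom P) (fun i => x i * (1 + lam * y ξ i)) := by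
  unfold mergeT
  rw [← (Fin.consEquiv (fun _ => X)).tsum_eq]
  have hs := (Fin.consEquiv (fun _ => X)).summable_iff.mpr (summ_merge hL hP hC x hx (k + 1))
  have e : ∀ z : X × (Fin k → X),
      (∏ c, p ((Fin.consEquiv (fun _ => X)) z c))
        * Hom P (fun i => x i * ∏ c, (1 + lam * y ((Fin.consEquiv (fun _ => X)) z c) i))
      = p z.1 * ((∏ c, p (z.2 c)) * Hom P (fun i => (x i * (1 + lam * y z.1 i))
          * ∏ c, (1 + lam * y (z.2 c) i))) := by
    intro z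
    simp only [Fin.consEquiv, Equiv.coe_fn_mk, Fin.prod_univ_succ, Fin.cons_zero, Fin.cons_succ]
    rw [mul_assoc]
    congr 3
    funext i
    ring
  have hs2 : Summable fun z : X × (Fin k → X) =>
      p z.1 * ((∏ c, p (z.2 c)) * Hom P (fun i => (x i * (1 + lam * y z.1 i))
          * ∏ c, (1 + lam * y (z.2 c) i))) := by
    convert hs using 1
    funext z
    exact (e z).symm
  simp only [e]
  rw [hs2.tsum_prod' ?_]
  · refine tsum_congr fun ξ => ?_
    dsimp only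
    rw [tsum_mul_left]
  · intro ξ
    have := summ_merge hL hP hC (fun i => x i * (1 + lam * y ξ i))
      (fun i => mul_pos (hx i) (msg_pos hL ξ i)) k
    dsimp only
    exact this.mul_left (p ξ)

lemma gmean_zero (hL : GLaw p y lam) (i : Fin 3) : ∑' ξ, p ξ * y ξ i = 0 := by
  have hb : ∀ j, Summable fun ξ => p ξ * y ξ j := fun j => summ_p_mul hL _ 2 fun ξ => by
    rw [abs_le]
    constructor
    · linarith [hL.hy1 ξ j]
    · exact y_le_two (hL.hy0 ξ) (hL.hy1 ξ) j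
  have h : ∀ j : Fin 3, ∑' ξ, p ξ * y ξ j = ∑' ξ, p ξ * y ξ i := by
    intro j
    have := hL.hsym (Equiv.swap i j) (fun v => v i)
    simp only [Equiv.swap_apply_left] at this
    exact this.symm
  have h3 : ∑ j : Fin 3, ∑' ξ, p ξ * y ξ j = 0 := by
    rw [← Summable.tsum_finsetSum (fun j _ => hb j)]
    have : ∀ ξ, ∑ j : Fin 3, p ξ * y ξ j = 0 := fun ξ => by
      rw [← Finset.mul_sum, hL.hy0, mul_zero]
    simp [this]
  simp only [h, Finset.sum_const, Finset.card_univ, Fintype.card_fin] at h3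
  simpa using h3

lemma gsumx (hL : GLaw p y lam) (x : Fin 3 → ℝ) :
    ∑' ξ, p ξ * ((∑ i, x i * (1 + lam * y ξ i)) / 3) = (∑ i, x i) / 3 := by
  have hb : ∀ j, Summable fun ξ => p ξ * y ξ j := fun j => summ_p_mul hL _ 2 fun ξ => by
    rw [abs_le]
    constructor
    · linarith [hL.hy1 ξ j]
    · exact y_le_two (hL.hy0 ξ) (hL.hy1 ξ) j
  have e : ∀ ξ, p ξ * ((∑ i, x i * (1 + lam * y ξ i)) / 3)
      = p ξ * ((∑ i, x i) / 3) + ∑ i, (lam / 3 * x i) * (p ξ * y ξ i) := by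
    intro ξ
    simp only [Fin.sum_univ_three]
    ring
  simp only [e]
  have h1 : Summable fun ξ => p ξ * ((∑ i, x i) / 3) := hL.hp1.summable.mul_right _
  have h2 : Summable fun ξ => ∑ i, (lam / 3 * x i) * (p ξ * y ξ i) :=
    summable_sum fun i _ => (hb i).mul_left _
  rw [h1.tsum_add h2, tsum_mul_right, hL.hp1.tsum_eq, one_mul,
    Summable.tsum_finsetSum (fun i _ => (hb i).mul_left _)]
  simp only [tsum_mul_left, gmean_zero hL]
  simp

lemma kp_bd (hL : GLaw p y lam) {P : ℝ → ℝ → ℝ} {C : ℝ} (hP : GPot P C) (hC : 0 ≤ C)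
    (z : Fin 3 → ℝ) (hz0 : ∑ i, z i = 0) (hz1 : ∀ i, 0 < 1 + z i)
    (v : Fin 3 → ℝ) (hv0 : ∑ i, v i = 0) (hv1 : ∀ i, -1 ≤ v i) :
    |Kp P z (fun i => lam * v i)| ≤ (1 + 2 * |lam|) * C := by
  have hl0 := hL.hl0
  have hl1 := hL.hl1
  have hm0 : ∀ i, 0 < 1 + lam * v i := fun i => by
    have h2 := y_le_two hv0 hv1 i
    have h3 := hv1 i
    rcases le_total 0 lam with hl | hl
    · nlinarith
    · nlinarith
  have hm1 : ∀ i, 1 + lam * v i ≤ 1 + 2 * |lam| := fun i => by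
    have h2 := y_le_two hv0 hv1 i
    have h3 := hv1 i
    rcases le_total 0 lam with hl | hl
    · rw [abs_of_nonneg hl]; nlinarith
    · rw [abs_of_nonpos hl]; nlinarith
  obtain ⟨h1, h2⟩ := hom_bd hP (fun i => (1 + z i) * (1 + lam * v i))
    (fun i => mul_pos (hz1 i) (hm0 i))
  have e : Kp P z (fun i => lam * v i) = Hom P (fun i => (1 + z i) * (1 + lam * v i)) := rfl
  rw [e, abs_of_nonneg h1]
  refine h2.trans (mul_le_mul_of_nonneg_right ?_ hC)
  have hs : ∑ i, (1 + z i) * (1 + lam * v i) ≤ ∑ i, (1 + z i) * (1 + 2 * |lam|) :=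
    Finset.sum_le_sum fun i _ => mul_le_mul_of_nonneg_left (hm1 i) (hz1 i).le
  rw [← Finset.sum_mul, Finset.sum_add_distrib, hz0] at hs
  simp only [Finset.sum_const, Finset.card_univ, Fintype.card_fin, nsmul_eq_mul, mul_one, add_zero] at hs
  push_cast at hs
  linarith

lemma comp_perm_zero (v : Fin 3 → ℝ) (hv : ∑ i, v i = 0) (g : Equiv.Perm (Fin 3)) :
    ∑ i, v (g i) = 0 := by
  rw [← hv]
  exact Equiv.sum_comp g v

/-- Expectation of the two point potential. -/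
lemma gE_le (hL : GLaw p y lam) {P : ℝ → ℝ → ℝ} {C κ : ℝ} (hP : GPot P C) (hC : 0 ≤ C)
    (hI : ∀ z v : Fin 3 → ℝ, ∑ i, z i = 0 → (∀ i, -1 ≤ z i) → ∑ i, v i = 0 → (∀ i, -1 ≤ v i) →
      (1 / 6 : ℝ) * ∑ g : Equiv.Perm (Fin 3), Kp P z (fun i => lam * v (g i))
        ≤ P (s2 z) (s3 z) + κ * P (s2 v) (s3 v))
    (z : Fin 3 → ℝ) (hz0 : ∑ i, z i = 0) (hz1 : ∀ i, 0 < 1 + z i) :
    ∑' ξ, p ξ * Kp P z (fun i => lam * y ξ i)
      ≤ P (s2 z) (s3 z) + κ * ∑' ξ, p ξ * P (s2 (y ξ)) (s3 (y ξ)) := by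
  have hbd : ∀ (g : Equiv.Perm (Fin 3)) (ξ : X),
      |Kp P z (fun i => lam * y ξ (g i))| ≤ (1 + 2 * |lam|) * C := fun g ξ =>
    kp_bd hL hP hC z hz0 hz1 (fun i => y ξ (g i)) (comp_perm_zero _ (hL.hy0 ξ) g) (fun i => hL.hy1 ξ _)
  have hsg : ∀ g : Equiv.Perm (Fin 3),
      Summable fun ξ => p ξ * Kp P z (fun i => lam * y ξ (g i)) := fun g =>
    summ_p_mul hL _ _ (hbd g)
  have hs0 : Summable fun ξ => p ξ * Kp P z (fun i => lam * y ξ i) := by
    refine summ_p_mul hL _ ((1 + 2 * |lam|) * C) fun ξ => ?_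
    exact kp_bd hL hP hC z hz0 hz1 (y ξ) (hL.hy0 ξ) (hL.hy1 ξ)
  have hPv : Summable fun ξ => p ξ * P (s2 (y ξ)) (s3 (y ξ)) := by
    refine summ_p_mul hL _ C fun ξ => ?_
    rw [abs_of_nonneg (hP.h0 _ (hL.hy0 ξ) (hL.hy1 ξ))]
    exact hP.hC _ (hL.hy0 ξ) (hL.hy1 ξ)
  have hsym : ∀ g : Equiv.Perm (Fin 3), ∑' ξ, p ξ * Kp P z (fun i => lam * y ξ (g i))
      = ∑' ξ, p ξ * Kp P z (fun i => lam * y ξ i) := fun g =>
    (hL.hsym g (fun v => Kp P z (fun i => lam * v i))).symm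
  have hsum : ∑' ξ, p ξ * ((1 / 6 : ℝ) * ∑ g : Equiv.Perm (Fin 3), Kp P z (fun i => lam * y ξ (g i)))
      = ∑' ξ, p ξ * Kp P z (fun i => lam * y ξ i) := by
    have e : ∀ ξ, p ξ * ((1 / 6 : ℝ) * ∑ g : Equiv.Perm (Fin 3), Kp P z (fun i => lam * y ξ (g i)))
        = (1 / 6 : ℝ) * ∑ g : Equiv.Perm (Fin 3), p ξ * Kp P z (fun i => lam * y ξ (g i)) := by
      intro ξ
      rw [Finset.mul_sum, Finset.mul_sum, Finset.mul_sum]
      refine Finset.sum_congr rfl fun g _ => ?_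
      ring
    simp only [e]
    rw [tsum_mul_left, Summable.tsum_finsetSum (fun g _ => hsg g)]
    simp only [hsym, Finset.sum_const, Finset.card_univ, Fintype.card_perm, Fintype.card_fin]
    simp [Nat.factorial]
  rw [← hsum]
  have hle : ∀ ξ, p ξ * ((1 / 6 : ℝ) * ∑ g : Equiv.Perm (Fin 3), Kp P z (fun i => lam * y ξ (g i)))
      ≤ p ξ * (P (s2 z) (s3 z) + κ * P (s2 (y ξ)) (s3 (y ξ))) := fun ξ =>
    mul_le_mul_of_nonneg_left (hI z (y ξ) hz0 (fun i => by linarith [hz1 i]) (hL.hy0 ξ) (hL.hy1 ξ))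
      (hL.hp ξ)
  have hS1 : Summable fun ξ => p ξ * ((1 / 6 : ℝ) * ∑ g : Equiv.Perm (Fin 3),
      Kp P z (fun i => lam * y ξ (g i))) := by
    refine summ_p_mul hL _ ((1 + 2 * |lam|) * C) fun ξ => ?_
    rw [abs_mul, abs_of_nonneg (by norm_num : (0 : ℝ) ≤ 1 / 6)]
    have h6 : |∑ g : Equiv.Perm (Fin 3), Kp P z (fun i => lam * y ξ (g i))|
        ≤ ∑ _g : Equiv.Perm (Fin 3), (1 + 2 * |lam|) * C :=
      (Finset.abs_sum_le_sum_abs _ _).trans (Finset.sum_le_sum fun g _ => hbd g ξ)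
    simp only [Finset.sum_const, Finset.card_univ, Fintype.card_perm, Fintype.card_fin] at h6
    have h7 : ((3 : ℕ).factorial : ℕ) • ((1 + 2 * |lam|) * C) = 6 * ((1 + 2 * |lam|) * C) := by
      simp [Nat.factorial]
    rw [h7] at h6
    linarith
  have e2 : ∀ ξ, p ξ * (P (s2 z) (s3 z) + κ * P (s2 (y ξ)) (s3 (y ξ)))
      = p ξ * P (s2 z) (s3 z) + κ * (p ξ * P (s2 (y ξ)) (s3 (y ξ))) := fun ξ => by ring
  have hS2 : Summable fun ξ => p ξ * (P (s2 z) (s3 z) + κ * P (s2 (y ξ)) (s3 (y ξ))) := by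
    simp only [e2]
    exact (hL.hp1.summable.mul_right _).add (hPv.mul_left _)
  refine (hS1.tsum_le_tsum hle hS2).trans (le_of_eq ?_)
  simp only [e2]
  rw [(hL.hp1.summable.mul_right _).tsum_add (hPv.mul_left _), tsum_mul_right, hL.hp1.tsum_eq, one_mul,
    tsum_mul_left]

/-- The bound for a merge, by induction. -/
theorem merge_claim (hL : GLaw p y lam) {P : ℝ → ℝ → ℝ} {C κ : ℝ} (hP : GPot P C) (hC : 0 ≤ C)
    (hI : ∀ z v : Fin 3 → ℝ, ∑ i, z i = 0 → (∀ i, -1 ≤ z i) → ∑ i, v i = 0 → (∀ i, -1 ≤ v i) →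
      (1 / 6 : ℝ) * ∑ g : Equiv.Perm (Fin 3), Kp P z (fun i => lam * v (g i))
        ≤ P (s2 z) (s3 z) + κ * P (s2 v) (s3 v))
    (k : ℕ) (x : Fin 3 → ℝ) (hx : ∀ i, 0 < x i) :
    mergeT p y lam k (Hom P) x
      ≤ Hom P x + k * ((∑ i, x i) / 3 * (κ * ∑' ξ, p ξ * P (s2 (y ξ)) (s3 (y ξ)))) := by
  set Φ := ∑' ξ, p ξ * P (s2 (y ξ)) (s3 (y ξ)) with hΦ
  induction k generalizing x with
  | zero =>
    rw [mergeT_zero]; simp
  | succ k ih =>
    rw [mergeT_succ hL hP hC x hx]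
    have hS : 0 < ∑ i, x i := Finset.sum_pos (fun i _ => hx i) ⟨0, Finset.mem_univ _⟩
    have hl0 := hL.hl0
    have hmp : ∀ ξ i, 0 < x i * (1 + lam * y ξ i) := fun ξ i => mul_pos (hx i) (msg_pos hL ξ i)
    have hsumle : ∀ ξ, ∑ i, x i * (1 + lam * y ξ i) ≤ (∑ i, x i) * (1 + 2 * |lam|) := by
      intro ξ
      rw [Finset.sum_mul]
      exact Finset.sum_le_sum fun i _ => mul_le_mul_of_nonneg_left (msg_le hL ξ i) (hx i).le
    have hsum0 : ∀ ξ, 0 ≤ ∑ i, x i * (1 + lam * y ξ i) := fun ξ =>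
      Finset.sum_nonneg fun i _ => (hmp ξ i).le
    -- summability
    have hs1 : Summable fun ξ => p ξ * mergeT p y lam k (Hom P) (fun i => x i * (1 + lam * y ξ i)) := by
      refine summ_p_mul hL _ ((∑ i, x i) * (1 + 2 * |lam|) / 3 * (1 + 2 * |lam|) ^ k * C) fun ξ => ?_
      obtain ⟨b0, b1⟩ := merge_bd hL hP hC _ (hmp ξ) k
      rw [abs_of_nonneg b0]
      refine b1.trans ?_
      unfold mergeB
      apply mul_le_mul_of_nonneg_right _ hC
      apply mul_le_mul_of_nonneg_right _ (by positivity)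
      exact div_le_div_of_nonneg_right (hsumle ξ) (by norm_num)
    have hs2 : Summable fun ξ => p ξ * Hom P (fun i => x i * (1 + lam * y ξ i)) := by
      refine summ_p_mul hL _ ((∑ i, x i) * (1 + 2 * |lam|) / 3 * C) fun ξ => ?_
      obtain ⟨b0, b1⟩ := hom_bd hP _ (hmp ξ)
      rw [abs_of_nonneg b0]
      refine b1.trans ?_
      apply mul_le_mul_of_nonneg_right _ hC
      exact div_le_div_of_nonneg_right (hsumle ξ) (by norm_num)
    have hs3 : Summable fun ξ => p ξ * ((∑ i, x i * (1 + lam * y ξ i)) / 3) := by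
      refine summ_p_mul hL _ ((∑ i, x i) * (1 + 2 * |lam|) / 3) fun ξ => ?_
      rw [abs_of_nonneg (by have := hsum0 ξ; positivity)]
      exact div_le_div_of_nonneg_right (hsumle ξ) (by norm_num)
    have hrhs : ∀ ξ, p ξ * (Hom P (fun i => x i * (1 + lam * y ξ i))
        + k * ((∑ i, x i * (1 + lam * y ξ i)) / 3 * (κ * Φ)))
        = p ξ * Hom P (fun i => x i * (1 + lam * y ξ i))
          + (k * (κ * Φ)) * (p ξ * ((∑ i, x i * (1 + lam * y ξ i)) / 3)) := fun ξ => by ring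
    have hs4 : Summable fun ξ => p ξ * (Hom P (fun i => x i * (1 + lam * y ξ i))
        + k * ((∑ i, x i * (1 + lam * y ξ i)) / 3 * (κ * Φ))) := by
      simp only [hrhs]
      exact hs2.add (hs3.mul_left _)
    have hle := hs1.tsum_le_tsum (fun ξ => mul_le_mul_of_nonneg_left
      (ih (fun i => x i * (1 + lam * y ξ i)) (hmp ξ)) (hL.hp ξ)) hs4
    refine hle.trans ?_
    simp only [hrhs]
    rw [hs2.tsum_add (hs3.mul_left _), tsum_mul_left, gsumx hL]
    -- the main term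
    set z : Fin 3 → ℝ := fun i => 3 * x i / (∑ k, x k) - 1 with hz
    have hz0 : ∑ i, z i = 0 := by
      have h3 : ∑ i, 3 * x i / (∑ k, x k) = 3 := by
        rw [← Finset.sum_div, ← Finset.mul_sum]
        field_simp
      simp only [hz, Finset.sum_sub_distrib, h3]
      simp
    have hz1 : ∀ i, 0 < 1 + z i := by
      intro i
      have : 0 < 3 * x i / ∑ k, x k := by
        have := hx i
        positivity
      simp only [hz]
      linarith
    have e1 : ∀ ξ, Hom P (fun i => x i * (1 + lam * y ξ i))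
        = (∑ i, x i) / 3 * Kp P z (fun i => lam * y ξ i) := fun ξ =>
      Hom_mul P x (fun i => lam * y ξ i) hS.ne'
    have e2 : ∀ ξ, p ξ * Hom P (fun i => x i * (1 + lam * y ξ i))
        = (∑ i, x i) / 3 * (p ξ * Kp P z (fun i => lam * y ξ i)) := fun ξ => by
      rw [e1]; ring
    simp only [e2]
    rw [tsum_mul_left]
    have hHom : Hom P x = (∑ i, x i) / 3 * P (s2 z) (s3 z) := rfl
    have hE := gE_le hL hP hC hI z hz0 hz1
    have hS3 : 0 ≤ (∑ i, x i) / 3 := by positivity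
    have := mul_le_mul_of_nonneg_left hE hS3
    rw [hHom]
    push_cast
    rw [← hΦ] at this
    nlinarith

/-- The bound for a full merge at the root. -/
theorem merge_top (hL : GLaw p y lam) {P : ℝ → ℝ → ℝ} {C κ τ : ℝ} (hP : GPot P C) (hC : 0 ≤ C)
    (hP00 : P 0 0 ≤ 0)
    (hI : ∀ z v : Fin 3 → ℝ, ∑ i, z i = 0 → (∀ i, -1 ≤ z i) → ∑ i, v i = 0 → (∀ i, -1 ≤ v i) →
      (1 / 6 : ℝ) * ∑ g : Equiv.Perm (Fin 3), Kp P z (fun i => lam * v (g i))
        ≤ P (s2 z) (s3 z) + κ * P (s2 v) (s3 v))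
    (hT : ∀ v : Fin 3 → ℝ, ∑ i, v i = 0 → (∀ i, -1 ≤ v i) →
        P (s2 fun i => lam * v i) (s3 fun i => lam * v i)
          ≤ κ * P (s2 v) (s3 v) - τ * s2 v ^ 2)
    (hB : ∀ ξ, s2 (y ξ) ^ 2 ≤ 36)
    (N : ℕ) :
    mergeT p y lam N (Hom P) (fun _ => 1)
      ≤ N * (κ * ∑' ξ, p ξ * P (s2 (y ξ)) (s3 (y ξ)))
        - (if N = 0 then 0 else τ * ∑' ξ, p ξ * s2 (y ξ) ^ 2) := by
  set Φ := ∑' ξ, p ξ * P (s2 (y ξ)) (s3 (y ξ)) with hΦ
  set E2 := ∑' ξ, p ξ * s2 (y ξ) ^ 2 with hE2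
  rcases N with _ | k
  · rw [mergeT_zero]
    simp only [if_true, sub_zero]
    have h1 : Hom P (fun _ => (1 : ℝ)) = P 0 0 := by
      have := Hom_one_add P (fun _ => 0) (by simp)
      simp only [add_zero] at this
      rw [this]
      simp [s2, s3]
    rw [h1]
    simpa using hP00
  · rw [mergeT_succ hL hP hC _ (fun _ => one_pos)]
    simp only [Nat.add_one_ne_zero, if_false]
    have hmp : ∀ ξ i, 0 < 1 * (1 + lam * y ξ i) := fun ξ i => by
      rw [one_mul]; exact msg_pos hL ξ i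
    have hsum3 : ∀ ξ, ∑ i, (1 * (1 + lam * y ξ i)) = 3 := by
      intro ξ
      simp only [one_mul]
      rw [Finset.sum_add_distrib, ← Finset.mul_sum, hL.hy0]
      simp
    have hPv : Summable fun ξ => p ξ * P (s2 (y ξ)) (s3 (y ξ)) := by
      refine summ_p_mul hL _ C fun ξ => ?_
      rw [abs_of_nonneg (hP.h0 _ (hL.hy0 ξ) (hL.hy1 ξ))]
      exact hP.hC _ (hL.hy0 ξ) (hL.hy1 ξ)
    have hE : Summable fun ξ => p ξ * s2 (y ξ) ^ 2 := by
      refine summ_p_mul hL _ 36 fun ξ => ?_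
      rw [abs_of_nonneg (by positivity)]
      exact hB ξ
    have hbd : ∀ ξ, mergeT p y lam k (Hom P) (fun i => 1 * (1 + lam * y ξ i))
        ≤ κ * P (s2 (y ξ)) (s3 (y ξ)) - τ * s2 (y ξ) ^ 2 + k * (κ * Φ) := by
      intro ξ
      have h1 := merge_claim hL hP hC hI k _ (hmp ξ)
      rw [hsum3, ← hΦ] at h1
      simp only [one_mul] at h1 ⊢
      have h2 : Hom P (fun i => 1 + lam * y ξ i)
          = P (s2 fun i => lam * y ξ i) (s3 fun i => lam * y ξ i) :=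
        Hom_one_add P (fun i => lam * y ξ i) (by rw [← Finset.mul_sum, hL.hy0, mul_zero])
      rw [h2] at h1
      have h3 := hT (y ξ) (hL.hy0 ξ) (hL.hy1 ξ)
      have e : (3 : ℝ) / 3 = 1 := by norm_num
      rw [e, one_mul] at h1
      linarith
    have hs1 : Summable fun ξ => p ξ * mergeT p y lam k (Hom P) (fun i => 1 * (1 + lam * y ξ i)) := by
      refine summ_p_mul hL _ ((1 + 2 * |lam|) ^ k * C) fun ξ => ?_
      obtain ⟨b0, b1⟩ := merge_bd hL hP hC _ (hmp ξ) k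
      rw [abs_of_nonneg b0]
      refine b1.trans (le_of_eq ?_)
      unfold mergeB
      rw [hsum3]
      ring
    have hr : ∀ ξ, p ξ * (κ * P (s2 (y ξ)) (s3 (y ξ)) - τ * s2 (y ξ) ^ 2 + k * (κ * Φ))
        = κ * (p ξ * P (s2 (y ξ)) (s3 (y ξ))) - τ * (p ξ * s2 (y ξ) ^ 2) + (k * (κ * Φ)) * p ξ :=
      fun ξ => by ring
    have hs2 : Summable fun ξ => p ξ * (κ * P (s2 (y ξ)) (s3 (y ξ)) - τ * s2 (y ξ) ^ 2 + k * (κ * Φ)) := by
      simp only [hr]
      exact ((hPv.mul_left _).sub (hE.mul_left _)).add (hL.hp1.summable.mul_left _)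
    have hle := hs1.tsum_le_tsum (fun ξ => mul_le_mul_of_nonneg_left (hbd ξ) (hL.hp ξ)) hs2
    refine hle.trans (le_of_eq ?_)
    simp only [hr]
    rw [((hPv.mul_left _).sub (hE.mul_left _)).tsum_add (hL.hp1.summable.mul_left _),
      (hPv.mul_left _).tsum_sub (hE.mul_left _), tsum_mul_left, tsum_mul_left, tsum_mul_left,
      hL.hp1.tsum_eq, ← hΦ, ← hE2]
    push_cast
    ring

end merge

section final

variable {off : ℕ → ℝ} {lam : ℝ}

lemma gLaw (hoff : ∀ N, 0 < off N) (hsum : HasSum off 1) (h0 : -(1 / 2) < lam) (h1 : lam < 1) (n : ℕ) :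
    GLaw (gp off lam n) (gy off lam n) lam :=
  ⟨fun ξ => (gp_pos hoff h0 h1 n ξ).le, gp_hasSum (fun N => (hoff N).le) hsum h0 h1.le n,
    fun ξ => gy_sum hoff h0 h1 n ξ, fun ξ i => gy_ge hoff h0 h1 n ξ i, fun g f => glaw_sym n g f, h0, h1⟩

/-- One term of the potential expectation at the next level. -/
lemma gterm (hoff : ∀ N, 0 < off N) (h0 : -(1 / 2) < lam) (h1 : lam < 1) (n : ℕ) (P : ℝ → ℝ → ℝ) (N : ℕ)
    (f : Fin N → Obs 3 n) :
    gp off lam (n + 1) ⟨N, f⟩ * P (s2 (gy off lam (n + 1) ⟨N, f⟩)) (s3 (gy off lam (n + 1) ⟨N, f⟩))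
      = off N * ((∏ c, gp off lam n (f c))
          * Hom P (fun i => 1 * ∏ c, (1 + lam * gy off lam n (f c) i))) := by
  have e : gp off lam (n + 1) ⟨N, f⟩
      * P (s2 (gy off lam (n + 1) ⟨N, f⟩)) (s3 (gy off lam (n + 1) ⟨N, f⟩))
      = Hom P (fun i => gwLik 3 off lam (n + 1) i ⟨N, f⟩) := rfl
  rw [e]
  have e2 : (fun i => gwLik 3 off lam (n + 1) i ⟨N, f⟩)
      = fun i => (off N * ∏ c, gp off lam n (f c)) * ∏ c, (1 + lam * gy off lam n (f c) i) := by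
    funext i
    exact gwLik_succ' hoff h0 h1 n i N f
  rw [e2, Hom_smul]
  · simp only [one_mul]
    ring
  · have h2 : 0 < off N * ∏ c, gp off lam n (f c) :=
      mul_pos (hoff N) (Finset.prod_pos fun c _ => gp_pos hoff h0 h1 n _)
    exact h2.ne'

/-- The potential expectation at the next level, as a sum over the number of children. -/
lemma gphi_succ (hoff : ∀ N, 0 < off N) (hsum : HasSum off 1) (h0 : -(1 / 2) < lam) (h1 : lam < 1) (n : ℕ)
    {P : ℝ → ℝ → ℝ} {C : ℝ} (hP : GPot P C) :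
    (∑' ω : Obs 3 (n + 1), gp off lam (n + 1) ω
        * P (s2 (gy off lam (n + 1) ω)) (s3 (gy off lam (n + 1) ω)))
      = ∑' N, off N * mergeT (gp off lam n) (gy off lam n) lam N (Hom P) (fun _ => 1)
    ∧ Summable fun N => off N * mergeT (gp off lam n) (gy off lam n) lam N (Hom P) (fun _ => 1) := by
  have hL' := gLaw hoff hsum h0 h1 (n + 1)
  have hS := summ_p_mul hL'
      (fun ω => P (s2 (gy off lam (n + 1) ω)) (s3 (gy off lam (n + 1) ω))) C (fun ω => by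
    rw [abs_of_nonneg (hP.h0 _ (hL'.hy0 ω) (hL'.hy1 ω))]
    exact hP.hC _ (hL'.hy0 ω) (hL'.hy1 ω))
  have hfib : ∀ N, (∑' f : Fin N → Obs 3 n, gp off lam (n + 1) ⟨N, f⟩
      * P (s2 (gy off lam (n + 1) ⟨N, f⟩)) (s3 (gy off lam (n + 1) ⟨N, f⟩)))
      = off N * mergeT (gp off lam n) (gy off lam n) lam N (Hom P) (fun _ => 1) := by
    intro N
    simp only [gterm hoff h0 h1]
    rw [tsum_mul_left]
    rfl
  have hS' : Summable fun ω : (Σ N : ℕ, (Fin N → Obs 3 n)) => gp off lam (n + 1) ω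
      * P (s2 (gy off lam (n + 1) ω)) (s3 (gy off lam (n + 1) ω)) := hS
  constructor
  · have := hS'.tsum_sigma' (fun N => hS'.sigma_factor N)
    rw [show (∑' ω : Obs 3 (n + 1), gp off lam (n + 1) ω
        * P (s2 (gy off lam (n + 1) ω)) (s3 (gy off lam (n + 1) ω)))
        = ∑' ω : (Σ N : ℕ, (Fin N → Obs 3 n)), gp off lam (n + 1) ω
        * P (s2 (gy off lam (n + 1) ω)) (s3 (gy off lam (n + 1) ω)) from rfl, this]
    exact tsum_congr hfib
  · have := hS'.sigma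
    simp only [hfib] at this
    exact this

lemma s2_sq_le (v : Fin 3 → ℝ) (hv : ∑ i, v i = 0) (h1 : ∀ i, -1 ≤ v i) : s2 v ≤ 6 := by
  have h2 := y_le_two hv h1
  have key : ∀ i, v i ^ 2 ≤ v i + 2 := fun i => by nlinarith [h1 i, h2 i]
  have := Finset.sum_le_sum fun i (_ : i ∈ Finset.univ) => key i
  rw [Finset.sum_add_distrib, hv] at this
  simp at this
  unfold s2
  linarith

lemma s2_nn (v : Fin 3 → ℝ) : 0 ≤ s2 v := Finset.sum_nonneg fun _ _ => sq_nonneg _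

/-- The one-step recursion for the potential. -/
theorem gphi_step (hoff : ∀ N, 0 < off N) (hsum : HasSum off 1) (h0 : -(1 / 2) < lam) (h1 : lam < 1)
    (m : ℝ) (hm : HasSum (fun N : ℕ => off N * (N : ℝ)) m)
    {P : ℝ → ℝ → ℝ} {C κ τ : ℝ} (hP : GPot P C) (hC : 0 ≤ C) (hP00 : P 0 0 ≤ 0)
    (hI : ∀ z v : Fin 3 → ℝ, ∑ i, z i = 0 → (∀ i, -1 ≤ z i) → ∑ i, v i = 0 → (∀ i, -1 ≤ v i) →
      (1 / 6 : ℝ) * ∑ g : Equiv.Perm (Fin 3), Kp P z (fun i => lam * v (g i))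
        ≤ P (s2 z) (s3 z) + κ * P (s2 v) (s3 v))
    (hT : ∀ v : Fin 3 → ℝ, ∑ i, v i = 0 → (∀ i, -1 ≤ v i) →
        P (s2 fun i => lam * v i) (s3 fun i => lam * v i)
          ≤ κ * P (s2 v) (s3 v) - τ * s2 v ^ 2) (n : ℕ) :
    (∑' ω : Obs 3 (n + 1), gp off lam (n + 1) ω
        * P (s2 (gy off lam (n + 1) ω)) (s3 (gy off lam (n + 1) ω)))
      ≤ m * (κ * ∑' ω : Obs 3 n, gp off lam n ω * P (s2 (gy off lam n ω)) (s3 (gy off lam n ω)))
        - (1 - off 0) * (τ * ∑' ω : Obs 3 n, gp off lam n ω * s2 (gy off lam n ω) ^ 2) := by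
  have hL := gLaw hoff hsum h0 h1 n
  obtain ⟨e1, hS⟩ := gphi_succ hoff hsum h0 h1 n hP
  rw [e1]
  have hB : ∀ ξ, s2 (gy off lam n ξ) ^ 2 ≤ 36 := fun ξ => by
    have a := s2_sq_le _ (hL.hy0 ξ) (hL.hy1 ξ)
    have b := s2_nn (gy off lam n ξ)
    nlinarith
  set Φ := ∑' ω : Obs 3 n, gp off lam n ω * P (s2 (gy off lam n ω)) (s3 (gy off lam n ω)) with hΦ
  set E2 := ∑' ω : Obs 3 n, gp off lam n ω * s2 (gy off lam n ω) ^ 2 with hE2
  have htop : ∀ N : ℕ, off N * mergeT (gp off lam n) (gy off lam n) lam N (Hom P) (fun _ => 1)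
      ≤ off N * ((N : ℝ) * (κ * Φ) - (if N = 0 then 0 else τ * E2)) := fun N =>
    mul_le_mul_of_nonneg_left (merge_top hL hP hC hP00 hI hT hB N) (hoff N).le
  have hG : HasSum (fun N : ℕ => off N * (N : ℝ) * (κ * Φ)
      - (off N - if N = 0 then off 0 else 0) * (τ * E2)) (m * (κ * Φ) - (1 - off 0) * (τ * E2)) :=
    (hm.mul_right _).sub ((hsum.sub (hasSum_ite_eq 0 (off 0))).mul_right _)
  have ee : ∀ N : ℕ, off N * ((N : ℝ) * (κ * Φ) - (if N = 0 then 0 else τ * E2))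
      = off N * (N : ℝ) * (κ * Φ) - (off N - if N = 0 then off 0 else 0) * (τ * E2) := by
    intro N
    by_cases hN : N = 0
    · subst hN
      simp
    · simp [hN]
      ring
  simp only [ee] at htop
  exact (hS.tsum_le_tsum htop hG.summable).trans (le_of_eq hG.tsum_eq)

lemma jensen_tsum {X : Type*} {p : X → ℝ} (hp : ∀ ξ, 0 ≤ p ξ) (hp1 : HasSum p 1) (a : X → ℝ) (B : ℝ)
    (hB : ∀ ξ, |a ξ| ≤ B) : (∑' ξ, p ξ * a ξ) ^ 2 ≤ ∑' ξ, p ξ * a ξ ^ 2 := by
  have hs : ∀ F : X → ℝ, ∀ B' : ℝ, (∀ ξ, |F ξ| ≤ B') → Summable fun ξ => p ξ * F ξ := by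
    intro F B' hF
    refine Summable.of_norm_bounded (g := fun ξ => p ξ * B') (hp1.summable.mul_right B') fun ξ => ?_
    rw [norm_mul, Real.norm_eq_abs, Real.norm_eq_abs, abs_of_nonneg (hp ξ)]
    exact mul_le_mul_of_nonneg_left (hF ξ) (hp ξ)
  have h1 := hs a B hB
  have h2 := hs (fun ξ => a ξ ^ 2) (B ^ 2) (fun ξ => by
    rw [abs_pow]
    exact pow_le_pow_left₀ (abs_nonneg _) (hB ξ) 2)
  set t := ∑' ξ, p ξ * a ξ with ht
  have e : ∀ ξ, p ξ * (a ξ - t) ^ 2 = p ξ * a ξ ^ 2 - (2 * t) * (p ξ * a ξ) + t ^ 2 * p ξ := fun ξ => by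
    ring
  have h3 : 0 ≤ ∑' ξ, p ξ * (a ξ - t) ^ 2 := tsum_nonneg fun ξ => mul_nonneg (hp ξ) (sq_nonneg _)
  simp only [e] at h3
  rw [(h2.sub (h1.mul_left _)).tsum_add (hp1.summable.mul_left _), h2.tsum_sub (h1.mul_left _),
    tsum_mul_left, tsum_mul_left, hp1.tsum_eq, ← ht] at h3
  nlinarith

/-- Bound on the reconstruction error by the second moment. -/
lemma gwError_sq_le (hoff : ∀ N, 0 < off N) (hsum : HasSum off 1) (h0 : -(1 / 2) < lam) (h1 : lam < 1) (n : ℕ) :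
    gwError 3 off lam n ^ 2 ≤ (∑' ω : Obs 3 n, gp off lam n ω * s2 (gy off lam n ω)) / 12 := by
  have hL := gLaw hoff hsum h0 h1 n
  have hl : ∀ ω : Obs 3 n, gwProb 3 off lam n ω = gp off lam n ω := by
    intro ω
    unfold gwProb gwJoint gp gS
    rw [← Finset.mul_sum]
    push_cast
    ring
  have hj : ∀ (ω : Obs 3 n) (i : Fin 3),
      |gwJoint 3 off lam n i ω / gp off lam n ω - 1 / ((3 : ℕ) : ℝ)|
        = |gy off lam n ω i| / 3 := by
    intro ω i
    have hS := gS_pos hoff h0 h1 n ω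
    have e : gwJoint 3 off lam n i ω / gp off lam n ω - 1 / ((3 : ℕ) : ℝ) = gy off lam n ω i / 3 := by
      unfold gwJoint gp gy
      push_cast
      field_simp
    rw [e, abs_div]
    simp
  have e1 : gwError 3 off lam n
      = ∑' ω : Obs 3 n, gp off lam n ω * ((1 / 6 : ℝ) * ∑ i, |gy off lam n ω i|) := by
    unfold gwError
    refine tsum_congr fun ω => ?_
    rw [hl]
    congr 1
    simp only [hj, Fin.sum_univ_three]
    ring
  rw [e1]
  have hb : ∀ ω : Obs 3 n, abs ((1 / 6 : ℝ) * ∑ i, |gy off lam n ω i|) ≤ 1 := by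
    intro ω
    have hnn : 0 ≤ (1 / 6 : ℝ) * ∑ i, |gy off lam n ω i| := by positivity
    rw [abs_of_nonneg hnn]
    have : ∀ i, |gy off lam n ω i| ≤ 2 := fun i => by
      rw [abs_le]
      exact ⟨by linarith [hL.hy1 ω i], y_le_two (hL.hy0 ω) (hL.hy1 ω) i⟩
    simp only [Fin.sum_univ_three]
    linarith [this 0, this 1, this 2]
  have cs := jensen_tsum hL.hp hL.hp1 (fun ω => (1 / 6 : ℝ) * ∑ i, |gy off lam n ω i|) 1 hb
  refine cs.trans ?_
  rw [← tsum_div_const]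
  have hs1 : Summable fun ω : Obs 3 n => gp off lam n ω * ((1 / 6 : ℝ) * ∑ i, |gy off lam n ω i|) ^ 2 := by
    refine summ_p_mul hL _ 1 fun ω => ?_
    rw [abs_pow]
    have := hb ω
    have h2 := abs_nonneg ((1 / 6 : ℝ) * ∑ i, |gy off lam n ω i|)
    nlinarith
  have hs2 : Summable fun ω : Obs 3 n => gp off lam n ω * s2 (gy off lam n ω) / 12 := by
    refine Summable.div_const ?_ _
    refine summ_p_mul hL _ 6 fun ω => ?_
    rw [abs_of_nonneg (s2_nn _)]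
    exact s2_sq_le _ (hL.hy0 ω) (hL.hy1 ω)
  refine hs1.tsum_le_tsum (fun ω => ?_) hs2
  rw [mul_div_assoc]
  refine mul_le_mul_of_nonneg_left ?_ (hL.hp ω)
  unfold s2
  simp only [Fin.sum_univ_three]
  have a0 := abs_nonneg (gy off lam n ω 0)
  have a1 := abs_nonneg (gy off lam n ω 1)
  have a2 := abs_nonneg (gy off lam n ω 2)
  rw [← sq_abs (gy off lam n ω 0), ← sq_abs (gy off lam n ω 1), ← sq_abs (gy off lam n ω 2)]
  nlinarith [sq_nonneg (|gy off lam n ω 0| - |gy off lam n ω 1|),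
    sq_nonneg (|gy off lam n ω 0| - |gy off lam n ω 2|),
    sq_nonneg (|gy off lam n ω 1| - |gy off lam n ω 2|)]

/-- Non-reconstruction on a Galton-Watson tree from a stationary potential. -/
theorem gw_nonrecon (hoff : ∀ N, 0 < off N) (hsum : HasSum off 1) (h0 : -(1 / 2) < lam) (h1 : lam < 1)
    (m : ℝ) (hm : HasSum (fun N : ℕ => off N * (N : ℝ)) m)
    {P : ℝ → ℝ → ℝ} {κ τ ε C : ℝ} (hmκ : m * κ ≤ 1) (hτ : 0 < τ) (hε : 0 < ε) (hC : 0 < C)
    (hP00 : P 0 0 ≤ 0)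
    (hI : ∀ z v : Fin 3 → ℝ, ∑ i, z i = 0 → (∀ i, -1 ≤ z i) → ∑ i, v i = 0 → (∀ i, -1 ≤ v i) →
      (1 / 6 : ℝ) * ∑ g : Equiv.Perm (Fin 3), Kp P z (fun i => lam * v (g i))
        ≤ P (s2 z) (s3 z) + κ * P (s2 v) (s3 v))
    (hT : ∀ v : Fin 3 → ℝ, ∑ i, v i = 0 → (∀ i, -1 ≤ v i) →
        P (s2 fun i => lam * v i) (s3 fun i => lam * v i)
          ≤ κ * P (s2 v) (s3 v) - τ * s2 v ^ 2)
    (hlow : ∀ v : Fin 3 → ℝ, ∑ i, v i = 0 → (∀ i, -1 ≤ v i) → ε * s2 v ≤ P (s2 v) (s3 v))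
    (hup : ∀ v : Fin 3 → ℝ, ∑ i, v i = 0 → (∀ i, -1 ≤ v i) → P (s2 v) (s3 v) ≤ C * s2 v) :
    Tendsto (gwError 3 off lam) atTop (𝓝 0) := by
  have hP : GPot P (C * 6) := by
    refine ⟨fun v hv hv1 => ?_, fun v hv hv1 => ?_⟩
    · exact (mul_nonneg hε.le (s2_nn v)).trans (hlow v hv hv1)
    · exact (hup v hv hv1).trans (mul_le_mul_of_nonneg_left (s2_sq_le v hv hv1) hC.le)
  have hC6 : 0 ≤ C * 6 := by positivity
  set Φ : ℕ → ℝ := fun n =>
    ∑' ω : Obs 3 n, gp off lam n ω * P (s2 (gy off lam n ω)) (s3 (gy off lam n ω)) with hΦ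
  set e : ℕ → ℝ := fun n => ∑' ω : Obs 3 n, gp off lam n ω * s2 (gy off lam n ω) with he
  set E2 : ℕ → ℝ := fun n => ∑' ω : Obs 3 n, gp off lam n ω * s2 (gy off lam n ω) ^ 2 with hE2
  have hL := fun n => gLaw hoff hsum h0 h1 n
  have hsP : ∀ n, Summable fun ω : Obs 3 n => gp off lam n ω * P (s2 (gy off lam n ω)) (s3 (gy off lam n ω)) := by
    intro n
    refine summ_p_mul (hL n) _ (C * 6) fun ω => ?_
    rw [abs_of_nonneg (hP.h0 _ ((hL n).hy0 ω) ((hL n).hy1 ω))]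
    exact hP.hC _ ((hL n).hy0 ω) ((hL n).hy1 ω)
  have hse : ∀ n, Summable fun ω : Obs 3 n => gp off lam n ω * s2 (gy off lam n ω) := by
    intro n
    refine summ_p_mul (hL n) _ 6 fun ω => ?_
    rw [abs_of_nonneg (s2_nn _)]
    exact s2_sq_le _ ((hL n).hy0 ω) ((hL n).hy1 ω)
  have hΦe : ∀ n, Φ n ≤ C * e n := by
    intro n
    simp only [hΦ, he]
    rw [← tsum_mul_left]
    refine (hsP n).tsum_le_tsum (fun ω => ?_) ((hse n).mul_left C)
    have := hup _ ((hL n).hy0 ω) ((hL n).hy1 ω)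
    calc _ ≤ gp off lam n ω * (C * s2 (gy off lam n ω)) :=
          mul_le_mul_of_nonneg_left this ((hL n).hp ω)
      _ = _ := by ring
  have heΦ : ∀ n, ε * e n ≤ Φ n := by
    intro n
    simp only [hΦ, he]
    rw [← tsum_mul_left]
    refine ((hse n).mul_left ε).tsum_le_tsum (fun ω => ?_) (hsP n)
    have := hlow _ ((hL n).hy0 ω) ((hL n).hy1 ω)
    calc _ = gp off lam n ω * (ε * s2 (gy off lam n ω)) := by ring
      _ ≤ _ := mul_le_mul_of_nonneg_left this ((hL n).hp ω)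
  have he0 : ∀ n, 0 ≤ e n := fun n =>
    tsum_nonneg fun ω => mul_nonneg ((hL n).hp ω) (s2_nn _)
  have hΦ0 : ∀ n, 0 ≤ Φ n := fun n => le_trans (mul_nonneg hε.le (he0 n)) (heΦ n)
  have hcs : ∀ n, e n ^ 2 ≤ E2 n := fun n =>
    jensen_tsum (hL n).hp (hL n).hp1 (fun ω => s2 (gy off lam n ω)) 6 (fun ω => by
      rw [abs_of_nonneg (s2_nn _)]
      exact s2_sq_le _ ((hL n).hy0 ω) ((hL n).hy1 ω))
  -- the positive mass of the trees with children
  have hc0 : 0 < 1 - off 0 := by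
    have h2 := sum_le_hasSum ({0, 1} : Finset ℕ) (fun N _ => (hoff N).le) hsum
    rw [Finset.sum_pair (by norm_num)] at h2
    linarith [hoff 1]
  set τ' := (1 - off 0) * τ with hτ'
  have hτ'0 : 0 < τ' := mul_pos hc0 hτ
  have hrec : ∀ n, Φ (n + 1) ≤ Φ n - τ' * E2 n := by
    intro n
    have := gphi_step hoff hsum h0 h1 m hm hP hC6 hP00 hI hT n
    have h5 : m * (κ * Φ n) ≤ Φ n := by
      have h6 := mul_le_mul_of_nonneg_right hmκ (hΦ0 n)
      nlinarith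
    have h7 : (1 - off 0) * (τ * E2 n) = τ' * E2 n := by rw [hτ']; ring
    show _ ≤ _
    calc Φ (n + 1) ≤ m * (κ * Φ n) - (1 - off 0) * (τ * E2 n) := this
      _ ≤ _ := by rw [h7]; linarith
  have hdec : ∀ n, Φ (n + 1) ≤ Φ n - τ' * (Φ n / C) ^ 2 := by
    intro n
    have h1' := hrec n
    have h2 := hcs n
    have h3 : Φ n / C ≤ e n := by
      rw [div_le_iff₀ hC]; linarith [hΦe n]
    have h4 : 0 ≤ Φ n / C := div_nonneg (hΦ0 n) hC.le
    have h5 : (Φ n / C) ^ 2 ≤ e n ^ 2 := pow_le_pow_left₀ h4 h3 2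
    have h6 : τ' * (Φ n / C) ^ 2 ≤ τ' * E2 n := mul_le_mul_of_nonneg_left (h5.trans h2) hτ'0.le
    linarith
  have hanti : Antitone Φ := by
    refine antitone_nat_of_succ_le fun n => ?_
    have := hdec n
    have : 0 ≤ τ' * (Φ n / C) ^ 2 := by positivity
    linarith
  have hbdd : BddBelow (Set.range Φ) := ⟨0, by rintro _ ⟨n, rfl⟩; exact hΦ0 n⟩
  have hlim := tendsto_atTop_ciInf hanti hbdd
  set L := ⨅ n, Φ n with hL'
  have hL0 : 0 ≤ L := le_ciInf hΦ0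
  have hlim2 : Tendsto (fun n => Φ n - τ' * (Φ n / C) ^ 2) atTop (𝓝 (L - τ' * (L / C) ^ 2)) :=
    hlim.sub (((hlim.div_const C).pow 2).const_mul τ')
  have hle : L ≤ L - τ' * (L / C) ^ 2 :=
    le_of_tendsto_of_tendsto' (hlim.comp (tendsto_add_atTop_nat 1)) hlim2 hdec
  have hLz : L = 0 := by
    have h2 : τ' * (L / C) ^ 2 ≤ 0 := by linarith
    have h3 : 0 ≤ τ' * (L / C) ^ 2 := by positivity
    have h4 : τ' * (L / C) ^ 2 = 0 := le_antisymm h2 h3
    have h5 : (L / C) ^ 2 = 0 := by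
      rcases mul_eq_zero.mp h4 with h | h
      · exact absurd h hτ'0.ne'
      · exact h
    have h6 : L / C = 0 := by simpa using h5
    rcases div_eq_zero_iff.mp h6 with h | h
    · exact h
    · exact absurd h hC.ne'
  rw [hLz] at hlim
  have he_lim : Tendsto e atTop (𝓝 0) := by
    refine squeeze_zero he0 (fun n => ?_) (by simpa using hlim.div_const ε)
    rw [le_div_iff₀ hε]
    linarith [heΦ n]
  have hsq : ∀ n, gwError 3 off lam n ^ 2 ≤ e n / 12 := fun n => gwError_sq_le hoff hsum h0 h1 n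
  have h12 : Tendsto (fun n => Real.sqrt (e n / 12)) atTop (𝓝 0) := by
    have := (he_lim.div_const 12).sqrt
    simpa using this
  refine squeeze_zero_norm (fun n => ?_) h12
  rw [Real.norm_eq_abs]
  exact Real.abs_le_sqrt (hsq n)

end final

end Vale.Agent.P154
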