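import Vale.Agent.P154.Stat
import Vale.Agent.P154.GW

/-!
Nonreconstruction on Galton-Watson trees from a stationary certificate.
-/

open Finset Filter Topology

namespace Vale.Agent.P154

open PolyR Cert

/-- The stationary certificate gives nonreconstruction for every offspring law of mean `d`
with `d λ² ≤ 1`. -/
theorem gw_nonrecon_of_stat {S : StatData} (h : S.OK) (hc1 : 0 < S.c1) (hc4 : 0 < S.c4)
    (hc : 9 * S.c2 ^ 2 < 32 * S.c1 * S.c4) {off : ℕ → ℝ} (hoff : ∀ N, 0 < off N)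
    (hsum : HasSum off 1) (d : ℝ) (hdpos : 0 < d)
    (hm : HasSum (fun N : ℕ => off N * (N : ℝ)) d) (lam : ℝ) (h0 : 0 ≤ lam)
    (hl : lam ≤ S.lam) (hdl : d * lam ^ 2 ≤ 1) :
    Tendsto (gwError 3 off lam) atTop (𝓝 0) := by
  have hl0 := h.hlam0
  have hl1 := h.hlam1
  have hlam1 : lam < 1 := by linarith
  have hdl' : lam ^ 2 ≤ 1 / d := by
    rw [le_div_iff₀ hdpos]; linarith
  have hc' : 9 * S.c2 ^ 2 ≤ 32 * S.c1 * S.c4 := hc.le
  set P := Pq S.c1 S.c2 S.c4 with hP
  have hPnn : ∀ v : Fin 3 → ℝ, 0 ≤ P (s2 v) (s3 v) := fun v =>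
    (s2_nonneg v).trans (Pq_low hc1 hc4 hc' _ _)
  -- the slack in the final step
  set κ := (S.c1 - 9 * S.c2 ^ 2 / (32 * S.c4)) / 2 with hκ
  have hmid : 9 * S.c2 ^ 2 / (32 * S.c4) < S.c1 := by
    rw [div_lt_iff₀ (by positivity)]
    nlinarith
  have hnn0 : 0 ≤ 9 * S.c2 ^ 2 / (32 * S.c4) := by positivity
  have hκ0 : 0 < κ := by rw [hκ]; linarith
  have hκ1 : 0 < S.c1 - κ := by rw [hκ]; linarith
  have hκ2 : 9 * S.c2 ^ 2 ≤ 32 * (S.c1 - κ) * S.c4 := by
    have h3 : 9 * S.c2 ^ 2 / (32 * S.c4) ≤ S.c1 - κ := by rw [hκ]; linarith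
    rw [div_le_iff₀ (by positivity)] at h3
    linarith
  have hslack : ∀ (a b : ℝ), κ * a ^ 2 ≤ S.c1 * (1 + lam) * a ^ 2 + S.c2 * (1 + lam + lam ^ 2) * (a * b)
      + S.c4 * ((1 + lam) * (1 + lam ^ 2)) * b ^ 2 := by
    intro a b
    have hform := inner_form hκ1 hc4 hκ2 lam h0 a b
    have hnn : 0 ≤ κ * lam * a ^ 2 := by positivity
    nlinarith
  have hPscale := fun (θ : ℝ) (h0 : 0 ≤ θ) (h1 : θ ≤ 1) (a b : ℝ) => Pq_scale (c1 := S.c1) (c2 := S.c2)
    (c4 := S.c4) hc1 hc4 hc' θ h0 h1 a b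
  set τ := (1 / d - lam ^ 2) / 6 + lam ^ 2 / 36 * ((1 - lam) * κ) with hτ
  have hτ0 : 0 < τ := by
    have h1 : 0 ≤ (1 / d - lam ^ 2) / 6 := by
      apply div_nonneg _ (by norm_num)
      linarith
    rcases h0.eq_or_lt with h00 | h00
    · rw [hτ, ← h00]
      have : (0 : ℝ) < 1 / d := by positivity
      simp
      positivity
    · have h2 : 0 < lam ^ 2 / 36 * ((1 - lam) * κ) :=
        mul_pos (by positivity) (mul_pos (by linarith) hκ0)
      rw [hτ]; linarith
  refine gw_nonrecon hoff hsum (by linarith) hlam1 d hm (P := P) (κ := 1 / d) (τ := τ) (ε := 1)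
    (C := 1 + (S.c1 + |S.c2| + S.c4) / 6) (by field_simp; exact le_refl _) hτ0 one_pos
    (by positivity) (by rw [hP]; unfold Pq; simp) ?_ ?_ ?_ ?_
  · intro z v hz hz1 hv hv1
    have hlS : lam / S.lam ≤ 1 := by rw [div_le_one hl0]; exact hl
    have hθ0 : 0 ≤ lam / S.lam := by positivity
    set θ := lam / S.lam with hθ
    have hy : ∑ i, (fun i => θ * v i) i = 0 := by
      simp only [← Finset.mul_sum, hv, mul_zero]
    have hy1 : ∀ i, -1 ≤ (fun i => θ * v i) i := by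
      intro i
      have := hv1 i
      show -1 ≤ θ * v i
      nlinarith
    have hstep := StatData.one_step h z (fun i => θ * v i) hz hy hz1 hy1
    have e1 : ∀ g : Equiv.Perm (Fin 3), (fun i => S.lam * (fun i => θ * v i) (g i))
        = fun i => lam * v (g i) := by
      intro g
      funext i
      show S.lam * (θ * v (g i)) = lam * v (g i)
      rw [← mul_assoc, hθ, mul_div_cancel₀ _ hl0.ne']
    simp only [e1] at hstep
    refine hstep.trans ?_
    rw [s2_smul, s3_smul]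
    have h3 := hPscale θ hθ0 hlS (s2 v) (s3 v)
    have h4 : S.lam ^ 2 * θ ^ 2 = lam ^ 2 := by
      rw [← mul_pow, hθ, mul_div_cancel₀ _ hl0.ne']
    have hPv := hPnn v
    have h5 : S.lam ^ 2 * P (θ ^ 2 * s2 v) (θ ^ 3 * s3 v) ≤ lam ^ 2 * P (s2 v) (s3 v) := by
      rw [← h4, mul_assoc]
      exact mul_le_mul_of_nonneg_left h3 (by positivity)
    have h6 : lam ^ 2 * P (s2 v) (s3 v) ≤ (1 / d : ℝ) * P (s2 v) (s3 v) :=
      mul_le_mul_of_nonneg_right hdl' hPv
    linarith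
  · intro v hv hv1
    rw [s2_smul, s3_smul]
    set a := s2 v with ha
    set b := s3 v with hb
    have ha6 : a ≤ 6 := s2_le_six v hv hv1
    have ha0 : 0 ≤ a := s2_nonneg v
    have hlow : a ≤ P a b := Pq_low hc1 hc4 hc' a b
    have hform := hslack a b
    have key : lam ^ 2 * P a b - P (lam ^ 2 * a) (lam ^ 3 * b)
        = lam ^ 2 / 36 * ((1 - lam) * (S.c1 * (1 + lam) * a ^ 2 + S.c2 * (1 + lam + lam ^ 2) * (a * b)
            + S.c4 * ((1 + lam) * (1 + lam ^ 2)) * b ^ 2)) := by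
      rw [hP]; unfold Pq; ring
    have h1 : lam ^ 2 / 36 * ((1 - lam) * (κ * a ^ 2)) ≤ lam ^ 2 * P a b - P (lam ^ 2 * a) (lam ^ 3 * b) := by
      rw [key]
      apply mul_le_mul_of_nonneg_left _ (by positivity)
      exact mul_le_mul_of_nonneg_left hform (by linarith)
    have h2 : (1 / d - lam ^ 2) * (a ^ 2 / 6) ≤ (1 / d - lam ^ 2) * P a b := by
      apply mul_le_mul_of_nonneg_left _ (by linarith)
      nlinarith
    have e : τ * a ^ 2 = (1 / d - lam ^ 2) * (a ^ 2 / 6) + lam ^ 2 / 36 * ((1 - lam) * (κ * a ^ 2)) := by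
      rw [hτ]; ring
    show P (lam ^ 2 * a) (lam ^ 3 * b) ≤ (1 / d) * P a b - τ * a ^ 2
    rw [e]
    nlinarith
  · intro v _ _
    rw [one_mul]
    exact Pq_low hc1 hc4 hc' _ _
  · intro v hv hv1
    exact Pq_up v hv hv1 hc1 hc4

/-! The Poisson offspring law. -/

lemma poissonOff_pos {d : ℝ} (hd : 0 < d) (N : ℕ) : 0 < poissonOff d N := by
  unfold poissonOff
  positivity

lemma poissonOff_hasSum (d : ℝ) : HasSum (poissonOff d) 1 := by
  have h := (NormedSpace.expSeries_div_hasSum_exp d).mul_left (Real.exp (-d))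
  rw [← Real.exp_eq_exp_ℝ, ← Real.exp_add, neg_add_cancel, Real.exp_zero] at h
  exact h

lemma poissonOff_mean (d : ℝ) : HasSum (fun N : ℕ => poissonOff d N * (N : ℝ)) d := by
  rw [← hasSum_nat_add_iff' 1]
  have h := (poissonOff_hasSum d).mul_left d
  rw [mul_one] at h
  simp only [Finset.sum_range_one, Nat.cast_zero, mul_zero, sub_zero]
  have e : (fun N : ℕ => poissonOff d (N + 1) * ((N + 1 : ℕ) : ℝ)) = fun N => d * poissonOff d N := by
    funext N
    unfold poissonOff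
    rw [Nat.factorial_succ]
    push_cast
    field_simp
    ring
  rw [e]
  exact h

end Vale.Agent.P154
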