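import Vale.Agent.P154.GW

/-!
The series defining the reconstruction error on a Galton-Watson tree converges.
-/

open Finset BigOperators Filter Topology

namespace Vale.Agent.P154

variable {off : ℕ → ℝ} {lam : ℝ}

/-- The series defining `gwError` is summable. -/
lemma gwError_summable (hoff : ∀ N, 0 < off N) (hsum : HasSum off 1) (h0 : -(1 / 2) < lam)
    (h1 : lam < 1) (n : ℕ) :
    Summable fun ω : Obs 3 n => gwProb 3 off lam n ω *
      ((1 / 2 : ℝ) * ∑ i : Fin 3, |gwJoint 3 off lam n i ω / gwProb 3 off lam n ω - 1 / ((3 : ℕ) : ℝ)|) := by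
  have hL := gLaw hoff hsum h0 h1 n
  have hl : ∀ ω : Obs 3 n, gwProb 3 off lam n ω = gp off lam n ω := by
    intro ω
    unfold gwProb gwJoint gp gS
    rw [← Finset.mul_sum]
    push_cast
    ring
  have hj : ∀ (ω : Obs 3 n) (i : Fin 3),
      |gwJoint 3 off lam n i ω / gp off lam n ω - 1 / ((3 : ℕ) : ℝ)|
        = |gy off lam n ω i| / 3 := by
    intro ω i
    have hS := gS_pos hoff h0 h1 n ω
    have e : gwJoint 3 off lam n i ω / gp off lam n ω - 1 / ((3 : ℕ) : ℝ) = gy off lam n ω i / 3 := by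
      unfold gwJoint gp gy
      push_cast
      field_simp
    rw [e, abs_div]
    simp
  have e1 : (fun ω : Obs 3 n => gwProb 3 off lam n ω *
      ((1 / 2 : ℝ) * ∑ i : Fin 3, |gwJoint 3 off lam n i ω / gwProb 3 off lam n ω - 1 / ((3 : ℕ) : ℝ)|))
      = fun ω => gp off lam n ω * ((1 / 6 : ℝ) * ∑ i, |gy off lam n ω i|) := by
    funext ω
    rw [hl]
    congr 1
    simp only [hj, Fin.sum_univ_three]
    ring
  rw [e1]
  refine summ_p_mul hL _ 1 fun ω => ?_
  have hnn : 0 ≤ (1 / 6 : ℝ) * ∑ i, |gy off lam n ω i| := by positivity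
  rw [abs_of_nonneg hnn]
  have : ∀ i, |gy off lam n ω i| ≤ 2 := fun i => by
    rw [abs_le]
    exact ⟨by linarith [hL.hy1 ω i], y_le_two (hL.hy0 ω) (hL.hy1 ω) i⟩
  simp only [Fin.sum_univ_three]
  linarith [this 0, this 1, this 2]

end Vale.Agent.P154
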