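import Vale.Agent.P154.Defs

open Finset BigOperators Filter Topology

namespace Vale.Agent.P154

/-- Sum of squares and of cubes of a vector. -/
def s2 (v : Fin 3 → ℝ) : ℝ := ∑ i, v i ^ 2
def s3 (v : Fin 3 → ℝ) : ℝ := ∑ i, v i ^ 3

/-- Homogeneous extension of a potential given in terms of `(s2, s3)`. -/
noncomputable def Hom (P : ℝ → ℝ → ℝ) (x : Fin 3 → ℝ) : ℝ :=
  (∑ i, x i) / 3 * P (s2 fun i => 3 * x i / (∑ k, x k) - 1) (s3 fun i => 3 * x i / (∑ k, x k) - 1)

/-- The two-point potential `D * P(z ⊕ m)`, with `D = ∑ (1+z_i)(1+m_i)/3`. -/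
noncomputable def Kp (P : ℝ → ℝ → ℝ) (z m : Fin 3 → ℝ) : ℝ :=
  Hom P (fun i => (1 + z i) * (1 + m i))

lemma Hom_smul (P : ℝ → ℝ → ℝ) (c : ℝ) (hc : c ≠ 0) (v : Fin 3 → ℝ) :
    Hom P (fun i => c * v i) = c * Hom P v := by
  unfold Hom
  have h1 : (∑ i, c * v i) = c * ∑ i, v i := by rw [Finset.mul_sum]
  have h2 : ∀ i, 3 * (c * v i) / (c * ∑ k, v k) = 3 * v i / ∑ k, v k := by
    intro i
    rw [show 3 * (c * v i) = c * (3 * v i) by ring, mul_div_mul_left _ _ hc]
  simp only [h1, h2]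
  ring

lemma Hom_mul (P : ℝ → ℝ → ℝ) (x m : Fin 3 → ℝ) (hS : (∑ i, x i) ≠ 0) :
    Hom P (fun i => x i * (1 + m i))
      = (∑ i, x i) / 3 * Kp P (fun i => 3 * x i / (∑ k, x k) - 1) m := by
  unfold Kp
  have hc : (∑ i, x i) / 3 ≠ 0 := div_ne_zero hS (by norm_num)
  rw [← Hom_smul P _ hc]
  congr 1
  funext i
  field_simp
  ring

lemma Hom_one_add (P : ℝ → ℝ → ℝ) (m : Fin 3 → ℝ) (hm : ∑ i, m i = 0) :
    Hom P (fun i => 1 + m i) = P (s2 m) (s3 m) := by
  unfold Hom
  have h1 : ∑ i, (1 + m i) = 3 := by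
    rw [Finset.sum_add_distrib, hm]; simp
  simp only [h1]
  have h2 : (fun i => 3 * (1 + m i) / 3 - 1) = m := by
    funext i; ring
  rw [h2]; simp

section law

variable {X : Type*} [Fintype X]

/-- The `k`-fold merging operator. -/
noncomputable def mergeA (p : X → ℝ) (y : X → Fin 3 → ℝ) (lam : ℝ) (k : ℕ) (G : (Fin 3 → ℝ) → ℝ)
    (x : Fin 3 → ℝ) : ℝ :=
  ∑ f : Fin k → X, (∏ c, p (f c)) * G (fun i => x i * ∏ c, (1 + lam * y (f c) i))

lemma mergeA_zero (p : X → ℝ) (y : X → Fin 3 → ℝ) (lam : ℝ) (G : (Fin 3 → ℝ) → ℝ)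
    (x : Fin 3 → ℝ) : mergeA p y lam 0 G x = G x := by
  simp [mergeA]

lemma mergeA_succ (p : X → ℝ) (y : X → Fin 3 → ℝ) (lam : ℝ) (k : ℕ) (G : (Fin 3 → ℝ) → ℝ)
    (x : Fin 3 → ℝ) :
    mergeA p y lam (k + 1) G x
      = ∑ ξ, p ξ * mergeA p y lam k G (fun i => x i * (1 + lam * y ξ i)) := by
  classical
  unfold mergeA
  rw [← (Fin.consEquiv (fun _ => X)).sum_comp, Fintype.sum_prod_type]
  refine Finset.sum_congr rfl fun ξ _ => ?_
  rw [Finset.mul_sum]
  refine Finset.sum_congr rfl fun f _ => ?_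
  simp only [Fin.consEquiv, Equiv.coe_fn_mk, Fin.prod_univ_succ, Fin.cons_zero, Fin.cons_succ]
  rw [mul_assoc]
  congr 3
  funext i
  ring

variable {p : X → ℝ} {y : X → Fin 3 → ℝ} {lam : ℝ}

lemma avg_sym
    (hsym : ∀ (g : Equiv.Perm (Fin 3)) (f : (Fin 3 → ℝ) → ℝ),
      ∑ ξ, p ξ * f (y ξ) = ∑ ξ, p ξ * f (fun i => y ξ (g i)))
    (f : (Fin 3 → ℝ) → ℝ) :
    ∑ ξ, p ξ * f (y ξ)
      = ∑ ξ, p ξ * ((1 / 6 : ℝ) * ∑ g : Equiv.Perm (Fin 3), f (fun i => y ξ (g i))) := by
  have h : ∑ ξ, p ξ * ((1 / 6 : ℝ) * ∑ g : Equiv.Perm (Fin 3), f (fun i => y ξ (g i)))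
      = (1 / 6 : ℝ) * ∑ g : Equiv.Perm (Fin 3), ∑ ξ, p ξ * f (fun i => y ξ (g i)) := by
    rw [Finset.sum_comm, Finset.mul_sum]
    refine Finset.sum_congr rfl fun ξ _ => ?_
    rw [Finset.mul_sum, Finset.mul_sum, Finset.mul_sum]
    refine Finset.sum_congr rfl fun g _ => ?_
    ring
  rw [h]
  have h2 : ∀ g : Equiv.Perm (Fin 3), ∑ ξ, p ξ * f (fun i => y ξ (g i)) = ∑ ξ, p ξ * f (y ξ) :=
    fun g => (hsym g f).symm
  simp only [h2, Finset.sum_const, Finset.card_univ, Fintype.card_perm, Fintype.card_fin]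
  simp [Nat.factorial]

lemma mean_zero
    (hy0 : ∀ ξ, ∑ i, y ξ i = 0)
    (hsym : ∀ (g : Equiv.Perm (Fin 3)) (f : (Fin 3 → ℝ) → ℝ),
      ∑ ξ, p ξ * f (y ξ) = ∑ ξ, p ξ * f (fun i => y ξ (g i))) (i : Fin 3) :
    ∑ ξ, p ξ * y ξ i = 0 := by
  have h : ∀ j : Fin 3, ∑ ξ, p ξ * y ξ j = ∑ ξ, p ξ * y ξ i := by
    intro j
    have := hsym (Equiv.swap i j) (fun v => v i)
    simp only [Equiv.swap_apply_left] at this
    exact this.symm
  have h3 : ∑ j : Fin 3, ∑ ξ, p ξ * y ξ j = 0 := by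
    rw [Finset.sum_comm]
    refine Finset.sum_eq_zero fun ξ _ => ?_
    rw [← Finset.mul_sum, hy0, mul_zero]
  simp only [h, Finset.sum_const, Finset.card_univ, Fintype.card_fin] at h3
  simpa using h3

lemma y_le_two {v : Fin 3 → ℝ} (h0 : ∑ i, v i = 0) (h1 : ∀ i, -1 ≤ v i) (i : Fin 3) : v i ≤ 2 := by
  have := h1 0; have := h1 1; have := h1 2
  rw [Fin.sum_univ_three] at h0
  fin_cases i <;> simp <;> linarith

/-- The chain of potentials gives the one-step bound. -/
theorem chain_bound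
    (hp : ∀ ξ, 0 ≤ p ξ) (hp1 : ∑ ξ, p ξ = 1)
    (hy0 : ∀ ξ, ∑ i, y ξ i = 0) (hy1 : ∀ ξ i, -1 ≤ y ξ i)
    (hsym : ∀ (g : Equiv.Perm (Fin 3)) (f : (Fin 3 → ℝ) → ℝ),
      ∑ ξ, p ξ * f (y ξ) = ∑ ξ, p ξ * f (fun i => y ξ (g i)))
    (hl0 : 0 ≤ lam) (hl1 : lam < 1)
    (d : ℕ) (hd : 1 ≤ d) (P : ℕ → ℝ → ℝ → ℝ) (κ τ : ℝ) (μ : ℕ → ℝ)
    (hμ : ∀ j, μ j * (1 + 2 * ((1 + 2 * lam) / (1 - lam)) ^ j) ≤ 3)
    (hI : ∀ k, k + 1 ≤ d - 1 → ∀ z : Fin 3 → ℝ, ∑ i, z i = 0 → (∀ i, μ (d - (k + 1)) ≤ 1 + z i) →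
      ∀ v : Fin 3 → ℝ, ∑ i, v i = 0 → (∀ i, -1 ≤ v i) →
        (1 / 6 : ℝ) * ∑ g : Equiv.Perm (Fin 3), Kp (P k) z (fun i => lam * v (g i))
          ≤ P (k + 1) (s2 z) (s3 z) + κ * P 0 (s2 v) (s3 v))
    (hT : ∀ v : Fin 3 → ℝ, ∑ i, v i = 0 → (∀ i, -1 ≤ v i) →
        P (d - 1) (s2 fun i => lam * v i) (s3 fun i => lam * v i)
          ≤ κ * P 0 (s2 v) (s3 v) - τ * s2 v ^ 2) :
    mergeA p y lam d (Hom (P 0)) (fun _ => 1)
      ≤ d * κ * (∑ ξ, p ξ * P 0 (s2 (y ξ)) (s3 (y ξ))) - τ * ∑ ξ, p ξ * s2 (y ξ) ^ 2 := by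
  classical
  set Φ := ∑ ξ, p ξ * P 0 (s2 (y ξ)) (s3 (y ξ)) with hΦ
  set R := (1 + 2 * lam) / (1 - lam) with hR
  have h1l : 0 < 1 - lam := by linarith
  have hR1 : 1 ≤ R := by
    rw [hR, le_div_iff₀ h1l]; linarith
  have hpos : ∀ ξ i, 0 < 1 + lam * y ξ i := by
    intro ξ i
    have := hy1 ξ i
    nlinarith
  have hratio : ∀ ξ i l, 1 + lam * y ξ i ≤ R * (1 + lam * y ξ l) := by
    intro ξ i l
    have h2 := y_le_two (hy0 ξ) (hy1 ξ) i
    have h3 := hy1 ξ l
    have h4 : 1 + lam * y ξ i ≤ 1 + 2 * lam := by nlinarith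
    have h5 : 1 - lam ≤ 1 + lam * y ξ l := by nlinarith
    have h6 : R * (1 - lam) = 1 + 2 * lam := by
      rw [hR]; field_simp
    have h7 : 0 ≤ R := by linarith
    nlinarith
  -- sum formula
  have hsumx : ∀ x : Fin 3 → ℝ,
      ∑ ξ, p ξ * ((∑ i, x i * (1 + lam * y ξ i)) / 3) = (∑ i, x i) / 3 := by
    intro x
    have hm := mean_zero (p := p) (y := y) hy0 hsym
    have : ∀ ξ, p ξ * ((∑ i, x i * (1 + lam * y ξ i)) / 3)
        = p ξ * ((∑ i, x i) / 3) + (lam / 3) * ∑ i, x i * (p ξ * y ξ i) := by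
      intro ξ
      simp only [Fin.sum_univ_three]
      ring
    simp only [this]
    rw [Finset.sum_add_distrib, ← Finset.sum_mul, hp1, one_mul]
    have h2 : ∑ ξ, (lam / 3) * ∑ i, x i * (p ξ * y ξ i) = 0 := by
      rw [← Finset.mul_sum, Finset.sum_comm]
      have : ∀ i, ∑ ξ, x i * (p ξ * y ξ i) = 0 := by
        intro i
        rw [← Finset.mul_sum, hm, mul_zero]
      simp [this]
    rw [h2, add_zero]
  -- main claim
  have claim : ∀ k, k ≤ d - 1 → ∀ x : Fin 3 → ℝ, (∀ i, 0 < x i) →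
      (∀ i l, x i ≤ R ^ (d - k) * x l) →
      mergeA p y lam k (Hom (P 0)) x ≤ Hom (P k) x + k * ((∑ i, x i) / 3 * (κ * Φ)) := by
    intro k
    induction k with
    | zero =>
      intro _ x _ _
      rw [mergeA_zero]; simp
    | succ k ih =>
      intro hk x hx hxr
      rw [mergeA_succ]
      have hS : 0 < ∑ i, x i := Finset.sum_pos (fun i _ => hx i) ⟨0, Finset.mem_univ _⟩
      have hd1 : d - k = d - (k + 1) + 1 := by omega
      have step : ∀ ξ, mergeA p y lam k (Hom (P 0)) (fun i => x i * (1 + lam * y ξ i))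
          ≤ Hom (P k) (fun i => x i * (1 + lam * y ξ i))
            + k * ((∑ i, x i * (1 + lam * y ξ i)) / 3 * (κ * Φ)) := by
        intro ξ
        apply ih (by omega)
        · intro i; exact mul_pos (hx i) (hpos ξ i)
        · intro i l
          rw [hd1, pow_succ]
          have h1 := hxr i l
          have h2 := hratio ξ i l
          have hRp : 0 ≤ R ^ (d - (k + 1)) := by positivity
          calc x i * (1 + lam * y ξ i) ≤ (R ^ (d - (k + 1)) * x l) * (R * (1 + lam * y ξ l)) := by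
                apply mul_le_mul h1 h2 (hpos ξ i).le
                exact mul_nonneg hRp (hx l).le
            _ = _ := by ring
      calc ∑ ξ, p ξ * mergeA p y lam k (Hom (P 0)) (fun i => x i * (1 + lam * y ξ i))
          ≤ ∑ ξ, p ξ * (Hom (P k) (fun i => x i * (1 + lam * y ξ i))
            + k * ((∑ i, x i * (1 + lam * y ξ i)) / 3 * (κ * Φ))) :=
              Finset.sum_le_sum fun ξ _ => mul_le_mul_of_nonneg_left (step ξ) (hp ξ)
        _ = ∑ ξ, p ξ * Hom (P k) (fun i => x i * (1 + lam * y ξ i))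
            + k * ((∑ i, x i) / 3 * (κ * Φ)) := by
              have : ∀ ξ, p ξ * (Hom (P k) (fun i => x i * (1 + lam * y ξ i))
                  + k * ((∑ i, x i * (1 + lam * y ξ i)) / 3 * (κ * Φ)))
                  = p ξ * Hom (P k) (fun i => x i * (1 + lam * y ξ i))
                    + (k * (κ * Φ)) * (p ξ * ((∑ i, x i * (1 + lam * y ξ i)) / 3)) := by
                intro ξ; ring
              simp only [this]
              rw [Finset.sum_add_distrib, ← Finset.mul_sum, hsumx]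
              ring
        _ ≤ Hom (P (k + 1)) x + ((k + 1 : ℕ) : ℝ) * ((∑ i, x i) / 3 * (κ * Φ)) := by
              set z : Fin 3 → ℝ := fun i => 3 * x i / (∑ k, x k) - 1 with hz
              have hz0 : ∑ i, z i = 0 := by
                have h3 : ∑ i, 3 * x i / (∑ k, x k) = 3 := by
                  rw [← Finset.sum_div, ← Finset.mul_sum]
                  field_simp
                simp only [hz, Finset.sum_sub_distrib, h3]
                simp
              have hzμ : ∀ i, μ (d - (k + 1)) ≤ 1 + z i := by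
                intro i
                have hb : (∑ l, x l) ≤ (1 + 2 * R ^ (d - (k + 1))) * x i := by
                  rw [Fin.sum_univ_three]
                  have h0 := hxr 0 i
                  have h1 := hxr 1 i
                  have h2 := hxr 2 i
                  have hRp : 1 ≤ R ^ (d - (k + 1)) := one_le_pow₀ hR1
                  have hxi := hx i
                  fin_cases i <;> simp at h0 h1 h2 hxi ⊢ <;> nlinarith
                have hq : 1 + z i = 3 * x i / ∑ l, x l := by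
                  simp only [hz]; ring
                rw [hq, le_div_iff₀ hS]
                have h3 := hμ (d - (k + 1))
                have hq2 : 0 < 1 + 2 * R ^ (d - (k + 1)) := by positivity
                by_cases hm0 : μ (d - (k + 1)) ≤ 0
                · have : μ (d - (k + 1)) * ∑ l, x l ≤ 0 :=
                    mul_nonpos_of_nonpos_of_nonneg hm0 hS.le
                  have := hx i
                  nlinarith
                · push Not at hm0
                  calc μ (d - (k + 1)) * ∑ l, x l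
                      ≤ μ (d - (k + 1)) * ((1 + 2 * R ^ (d - (k + 1))) * x i) :=
                        mul_le_mul_of_nonneg_left hb hm0.le
                    _ = (μ (d - (k + 1)) * (1 + 2 * R ^ (d - (k + 1)))) * x i := by ring
                    _ ≤ 3 * x i := mul_le_mul_of_nonneg_right h3 (hx i).le
              have e1 : ∀ ξ, Hom (P k) (fun i => x i * (1 + lam * y ξ i))
                  = (∑ i, x i) / 3 * Kp (P k) z (fun i => lam * y ξ i) := by
                intro ξ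
                exact Hom_mul (P k) x (fun i => lam * y ξ i) hS.ne'
              have e2 : ∑ ξ, p ξ * Kp (P k) z (fun i => lam * y ξ i)
                  ≤ P (k + 1) (s2 z) (s3 z) + κ * Φ := by
                have := avg_sym hsym (fun v => Kp (P k) z (fun i => lam * v i))
                simp only at this
                rw [this]
                calc ∑ ξ, p ξ * ((1 / 6 : ℝ) * ∑ g : Equiv.Perm (Fin 3),
                        Kp (P k) z (fun i => lam * y ξ (g i)))
                    ≤ ∑ ξ, p ξ * (P (k + 1) (s2 z) (s3 z) + κ * P 0 (s2 (y ξ)) (s3 (y ξ))) := by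
                      refine Finset.sum_le_sum fun ξ _ => mul_le_mul_of_nonneg_left ?_ (hp ξ)
                      exact hI k (by omega) z hz0 hzμ (y ξ) (hy0 ξ) (hy1 ξ)
                  _ = P (k + 1) (s2 z) (s3 z) + κ * Φ := by
                      have : ∀ ξ, p ξ * (P (k + 1) (s2 z) (s3 z) + κ * P 0 (s2 (y ξ)) (s3 (y ξ)))
                          = P (k + 1) (s2 z) (s3 z) * p ξ
                            + κ * (p ξ * P 0 (s2 (y ξ)) (s3 (y ξ))) := by
                        intro ξ; ring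
                      simp only [this]
                      rw [Finset.sum_add_distrib, ← Finset.mul_sum, ← Finset.mul_sum, hp1, mul_one]
              have hHom : Hom (P (k + 1)) x = (∑ i, x i) / 3 * P (k + 1) (s2 z) (s3 z) := rfl
              simp only [e1]
              have e3 : ∑ ξ, p ξ * ((∑ i, x i) / 3 * Kp (P k) z (fun i => lam * y ξ i))
                  = (∑ i, x i) / 3 * ∑ ξ, p ξ * Kp (P k) z (fun i => lam * y ξ i) := by
                rw [Finset.mul_sum]
                refine Finset.sum_congr rfl fun ξ _ => ?_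
                ring
              rw [e3, hHom]
              have hS3 : 0 ≤ (∑ i, x i) / 3 := by positivity
              have := mul_le_mul_of_nonneg_left e2 hS3
              push_cast
              nlinarith
  -- the top level
  obtain ⟨d', rfl⟩ : ∃ d', d = d' + 1 := ⟨d - 1, by omega⟩
  rw [mergeA_succ]
  have hstep : ∀ ξ, mergeA p y lam d' (Hom (P 0)) (fun i => 1 * (1 + lam * y ξ i))
      ≤ κ * P 0 (s2 (y ξ)) (s3 (y ξ)) - τ * s2 (y ξ) ^ 2 + d' * (κ * Φ) := by
    intro ξ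
    have hsum3 : ∑ i, (1 + lam * y ξ i) = 3 := by
      rw [Finset.sum_add_distrib, ← Finset.mul_sum, hy0]; simp
    have := claim d' (by omega) (fun i => 1 * (1 + lam * y ξ i))
      (fun i => by simpa using hpos ξ i)
      (fun i l => by
        simp only [one_mul]
        have : d' + 1 - d' = 1 := by omega
        rw [this, pow_one]
        exact hratio ξ i l)
    simp only [one_mul] at this ⊢
    rw [hsum3] at this
    have h2 : Hom (P d') (fun i => 1 + lam * y ξ i)
        = P d' (s2 fun i => lam * y ξ i) (s3 fun i => lam * y ξ i) :=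
      Hom_one_add (P d') (fun i => lam * y ξ i) (by rw [← Finset.mul_sum, hy0, mul_zero])
    rw [h2] at this
    have h3 := hT (y ξ) (hy0 ξ) (hy1 ξ)
    simp only [Nat.add_sub_cancel] at h3
    have e : (3 : ℝ) / 3 = 1 := by norm_num
    rw [e, one_mul] at this
    linarith
  calc ∑ ξ, p ξ * mergeA p y lam d' (Hom (P 0)) (fun i => 1 * (1 + lam * y ξ i))
      ≤ ∑ ξ, p ξ * (κ * P 0 (s2 (y ξ)) (s3 (y ξ)) - τ * s2 (y ξ) ^ 2 + d' * (κ * Φ)) :=
        Finset.sum_le_sum fun ξ _ => mul_le_mul_of_nonneg_left (hstep ξ) (hp ξ)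
    _ = _ := by
        have : ∀ ξ, p ξ * (κ * P 0 (s2 (y ξ)) (s3 (y ξ)) - τ * s2 (y ξ) ^ 2 + d' * (κ * Φ))
            = κ * (p ξ * P 0 (s2 (y ξ)) (s3 (y ξ))) - τ * (p ξ * s2 (y ξ) ^ 2)
              + (d' * (κ * Φ)) * p ξ := by
          intro ξ; ring
        simp only [this]
        rw [Finset.sum_add_distrib, Finset.sum_sub_distrib, ← Finset.mul_sum, ← Finset.mul_sum,
          ← Finset.mul_sum, hp1, ← hΦ]
        push_cast
        ring

end law

end Vale.Agent.P154
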