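import Vale.Agent.P154.AtomBounds

/-!
Reduction of the averaged two-point potential to a polynomial plus an error term.
-/

open Finset

namespace Vale.Agent.P154

open PolyR

lemma sum_perm_apply (t : Fin 3 → ℝ) (ht : ∑ i, t i = 0) (i : Fin 3) :
    ∑ g : Equiv.Perm (Fin 3), t (g i) = 0 := by
  have h3 : t 0 + t 1 + t 2 = 0 := by rw [Fin.sum_univ_three] at ht; exact ht
  fin_cases i
  · have := perm3_sum2 (fun a _ _ => t a)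
    show ∑ g : Equiv.Perm (Fin 3), t (g 0) = 0
    rw [this]; linarith
  · have := perm3_sum2 (fun _ b _ => t b)
    show ∑ g : Equiv.Perm (Fin 3), t (g 1) = 0
    rw [this]; linarith
  · have := perm3_sum2 (fun _ _ c => t c)
    show ∑ g : Equiv.Perm (Fin 3), t (g 2) = 0
    rw [this]; linarith

lemma sum_uu_perm (z t : Fin 3 → ℝ) (ht : ∑ i, t i = 0) :
    ∑ g : Equiv.Perm (Fin 3), uu z (t ∘ g) = 0 := by
  unfold uu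
  rw [← Finset.sum_div, Finset.sum_comm]
  simp only [Function.comp, ← Finset.mul_sum, sum_perm_apply t ht]
  simp

lemma sum_lin_perm (f : Fin 3 → ℝ) (z t : Fin 3 → ℝ) (ht : ∑ i, t i = 0) :
    ∑ g : Equiv.Perm (Fin 3), ∑ i, f i * ((1 + z i) * ((t ∘ g) i - uu z (t ∘ g))) = 0 := by
  rw [Finset.sum_comm]
  refine Finset.sum_eq_zero fun i _ => ?_
  simp only [← Finset.mul_sum, Finset.sum_sub_distrib, Function.comp, sum_perm_apply t ht]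
  have e : ∑ g : Equiv.Perm (Fin 3), uu z (t ∘ g) = 0 := sum_uu_perm z t ht
  rw [e]
  simp

lemma sum_al1_perm (z t : Fin 3 → ℝ) (ht : ∑ i, t i = 0) :
    ∑ g : Equiv.Perm (Fin 3), al1 z (t ∘ g) = 0 := sum_lin_perm z z t ht

lemma sum_be1_perm (z t : Fin 3 → ℝ) (ht : ∑ i, t i = 0) :
    ∑ g : Equiv.Perm (Fin 3), be1 z (t ∘ g) = 0 := sum_lin_perm (fun i => z i ^ 2) z t ht

/-- The data of polynomial approximants of `(1 + u)⁻ʲ`, `j = 1, …, 5`. -/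
structure Apx where
  D1 : ℝ
  D2 : ℝ
  D3 : ℝ
  D4 : ℝ
  D5 : ℝ
  p1 : List ℤ
  p2 : List ℤ
  p3 : List ℤ
  p4 : List ℤ
  p5 : List ℤ
  m1 : ℕ
  m2 : ℕ
  m3 : ℕ
  m4 : ℕ
  m5 : ℕ
  e1 : ℝ
  e2 : ℝ
  e3 : ℝ
  e4 : ℝ
  e5 : ℝ

/-- Validity of the approximants on `[u0, u1]`. -/
structure Apx.OK (A : Apx) (u0 u1 : ℝ) : Prop where
  e10 : 0 ≤ A.e1
  e20 : 0 ≤ A.e2
  e30 : 0 ≤ A.e3
  e40 : 0 ≤ A.e4
  e50 : 0 ≤ A.e5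
  h1 : ∀ u, u0 ≤ u → u ≤ u1 → |(1 + u)⁻¹ - evalZ A.p1 (3 * u) / A.D1| ≤ A.e1 * |u| ^ A.m1
  h2 : ∀ u, u0 ≤ u → u ≤ u1 → |((1 + u)⁻¹) ^ 2 - evalZ A.p2 (3 * u) / A.D2| ≤ A.e2 * |u| ^ A.m2
  h3 : ∀ u, u0 ≤ u → u ≤ u1 → |((1 + u)⁻¹) ^ 3 - evalZ A.p3 (3 * u) / A.D3| ≤ A.e3 * |u| ^ A.m3
  h4 : ∀ u, u0 ≤ u → u ≤ u1 → |((1 + u)⁻¹) ^ 4 - evalZ A.p4 (3 * u) / A.D4| ≤ A.e4 * |u| ^ A.m4
  h5 : ∀ u, u0 ≤ u → u ≤ u1 → |((1 + u)⁻¹) ^ 5 - evalZ A.p5 (3 * u) / A.D5| ≤ A.e5 * |u| ^ A.m5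

/-- The polynomial part of the average. -/
noncomputable def Fav (A : Apx) (c1 c2 c4 : ℝ) (z t : Fin 3 → ℝ) : ℝ :=
  (1 / 6) * ∑ g : Equiv.Perm (Fin 3),
    (Aj1 c1 c2 c4 z (t ∘ g) * (evalZ A.p1 (3 * uu z (t ∘ g)) / A.D1)
      + Aj2 c1 c2 c4 z (t ∘ g) * (evalZ A.p2 (3 * uu z (t ∘ g)) / A.D2)
      + Aj3 c1 c2 c4 z (t ∘ g) * (evalZ A.p3 (3 * uu z (t ∘ g)) / A.D3)
      + Aj4 c2 c4 z (t ∘ g) * (evalZ A.p4 (3 * uu z (t ∘ g)) / A.D4)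
      + Aj5 c4 z (t ∘ g) * (evalZ A.p5 (3 * uu z (t ∘ g)) / A.D5))

/-- The error part of the average. -/
noncomputable def ErrT (A : Apx) (K : Ks) (c1 c2 c4 ρ q : ℝ) : ℝ :=
  A.e1 * (2 * ρ * q) ^ A.m1 * Ab1 K c1 c2 c4 ρ q + A.e2 * (2 * ρ * q) ^ A.m2 * Ab2 K c1 c2 c4 ρ q
    + A.e3 * (2 * ρ * q) ^ A.m3 * Ab3 K c1 c2 c4 ρ q + A.e4 * (2 * ρ * q) ^ A.m4 * Ab4 K c2 c4 ρ q
    + A.e5 * (2 * ρ * q) ^ A.m5 * Ab5 K c4 q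

lemma term_le {a v P B e x X : ℝ} {m : ℕ} (ha : |a| ≤ B) (hP : |v - P| ≤ e * |x| ^ m)
    (he : 0 ≤ e) (hx : |x| ≤ X) : a * v ≤ a * P + e * X ^ m * B := by
  have h1 : |x| ^ m ≤ X ^ m := pow_le_pow_left₀ (abs_nonneg _) hx m
  have h2 : |v - P| ≤ e * X ^ m := hP.trans (mul_le_mul_of_nonneg_left h1 he)
  have h3 : a * (v - P) ≤ |a| * |v - P| := by
    rw [← abs_mul]; exact le_abs_self _
  have h4 : |a| * |v - P| ≤ B * (e * X ^ m) :=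
    mul_le_mul ha h2 (abs_nonneg _) ((abs_nonneg _).trans ha)
  nlinarith

/-- The main reduction. -/
theorem master_bound (A : Apx) (K : Ks) (u0 u1 c1 c2 c4 : ℝ) (hu0 : -1 < u0) (hA : A.OK u0 u1)
    (z t : Fin 3 → ℝ) (hz : ∑ i, z i = 0) (ht : ∑ i, t i = 0) (ρ q : ℝ) (hρ0 : 0 ≤ ρ) (hq0 : 0 ≤ q)
    (hρ : ρ ^ 2 = s2 z / 6) (hq : q ^ 2 = s2 t / 6)
    (hK : K.OK) (hal2 : ∀ g : Equiv.Perm (Fin 3), al2 z (t ∘ g) ≤ K.k2 * q ^ 2)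
    (hu : ∀ g : Equiv.Perm (Fin 3), u0 ≤ uu z (t ∘ g) ∧ uu z (t ∘ g) ≤ u1) :
    (1 / 6) * ∑ g : Equiv.Perm (Fin 3), Kp (Pq c1 c2 c4) z (t ∘ g)
      ≤ Pq c1 c2 c4 (s2 z) (s3 z) + Fav A c1 c2 c4 z t + ErrT A K c1 c2 c4 ρ q := by
  set E := ErrT A K c1 c2 c4 ρ q with hE
  have hs : ∀ g : Equiv.Perm (Fin 3), Kp (Pq c1 c2 c4) z (t ∘ g)
      ≤ (1 + uu z (t ∘ g)) * Pq c1 c2 c4 (s2 z) (s3 z)
        + (2 * al1 z (t ∘ g) + c1 / 36 * (4 * s2 z * al1 z (t ∘ g))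
            + c2 / 36 * (3 * s2 z * be1 z (t ∘ g) + 2 * s3 z * al1 z (t ∘ g))
            + c4 / 36 * (6 * s3 z * be1 z (t ∘ g)))
        + (Aj1 c1 c2 c4 z (t ∘ g) * (evalZ A.p1 (3 * uu z (t ∘ g)) / A.D1)
          + Aj2 c1 c2 c4 z (t ∘ g) * (evalZ A.p2 (3 * uu z (t ∘ g)) / A.D2)
          + Aj3 c1 c2 c4 z (t ∘ g) * (evalZ A.p3 (3 * uu z (t ∘ g)) / A.D3)
          + Aj4 c2 c4 z (t ∘ g) * (evalZ A.p4 (3 * uu z (t ∘ g)) / A.D4)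
          + Aj5 c4 z (t ∘ g) * (evalZ A.p5 (3 * uu z (t ∘ g)) / A.D5)) + E := by
    intro g
    have htg : ∑ i, (t ∘ g) i = 0 := sum_zero_comp t ht g
    obtain ⟨hu1, hu2⟩ := hu g
    have hD : 1 + uu z (t ∘ g) ≠ 0 := by
      have : 0 < 1 + uu z (t ∘ g) := by linarith
      exact this.ne'
    have hqg : q ^ 2 = s2 (t ∘ g) / 6 := by rw [s2_perm]; exact hq
    have hat : AtomB K z (t ∘ g) ρ q := atomB_of K hK z (t ∘ g) hz htg ρ q hρ0 hq0 hρ (hal2 g)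
    have huabs := uu_abs_le z (t ∘ g) ρ q hρ0 hq0 hρ hqg
    rw [Kp_expand c1 c2 c4 z (t ∘ g) hz htg hD]
    have t1 := term_le (bdj1 hat c1 c2 c4) (hA.h1 _ hu1 hu2) hA.e10 huabs
    have t2 := term_le (bdj2 hat c1 c2 c4) (hA.h2 _ hu1 hu2) hA.e20 huabs
    have t3 := term_le (bdj3 hat c1 c2 c4) (hA.h3 _ hu1 hu2) hA.e30 huabs
    have t4 := term_le (bdj4 hat c2 c4) (hA.h4 _ hu1 hu2) hA.e40 huabs
    have t5 := term_le (bdj5 hat c4) (hA.h5 _ hu1 hu2) hA.e50 huabs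
    rw [hE]
    unfold ErrT
    linarith
  have hsum := Finset.sum_le_sum fun g (_ : g ∈ (Finset.univ : Finset (Equiv.Perm (Fin 3)))) => hs g
  have hcard : ∑ _g : Equiv.Perm (Fin 3), (1 : ℝ) = 6 := by
    simp [Finset.card_univ, Fintype.card_perm, Nat.factorial]
  have h1 : ∑ g : Equiv.Perm (Fin 3), (1 + uu z (t ∘ g)) * Pq c1 c2 c4 (s2 z) (s3 z)
      = 6 * Pq c1 c2 c4 (s2 z) (s3 z) := by
    rw [← Finset.sum_mul, Finset.sum_add_distrib, sum_uu_perm z t ht, hcard]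
    ring
  have h2 : ∑ g : Equiv.Perm (Fin 3), (2 * al1 z (t ∘ g) + c1 / 36 * (4 * s2 z * al1 z (t ∘ g))
            + c2 / 36 * (3 * s2 z * be1 z (t ∘ g) + 2 * s3 z * al1 z (t ∘ g))
            + c4 / 36 * (6 * s3 z * be1 z (t ∘ g))) = 0 := by
    have e : ∀ g : Equiv.Perm (Fin 3), (2 * al1 z (t ∘ g) + c1 / 36 * (4 * s2 z * al1 z (t ∘ g))
            + c2 / 36 * (3 * s2 z * be1 z (t ∘ g) + 2 * s3 z * al1 z (t ∘ g))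
            + c4 / 36 * (6 * s3 z * be1 z (t ∘ g)))
        = (2 + c1 / 36 * (4 * s2 z) + c2 / 36 * (2 * s3 z)) * al1 z (t ∘ g)
          + (c2 / 36 * (3 * s2 z) + c4 / 36 * (6 * s3 z)) * be1 z (t ∘ g) := fun g => by ring
    simp only [e, Finset.sum_add_distrib, ← Finset.mul_sum, sum_al1_perm z t ht, sum_be1_perm z t ht]
    ring
  have h3 : ∑ _g : Equiv.Perm (Fin 3), E = 6 * E := by
    simp [Finset.card_univ, Fintype.card_perm, Nat.factorial]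
  rw [Finset.sum_add_distrib, Finset.sum_add_distrib, Finset.sum_add_distrib, h1, h2, h3] at hsum
  unfold Fav
  linarith

end Vale.Agent.P154
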