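import Mathlib

/-!
Polynomials in four variables with integer coefficients, as sorted lists of terms, in a form
that the kernel evaluates quickly.
-/

namespace Vale.Agent.P154.PolyR

/-- A term `c x₁^e1 x₂^e2 x₃^e3 x₄^e4`, with a redundant comparison key `k`. -/
structure Tm where
  k : ℕ
  e1 : ℕ
  e2 : ℕ
  e3 : ℕ
  e4 : ℕ
  c : ℤ

/-- Polynomials as lists of terms. -/
abbrev Poly := List Tm

/-- Value of a term. -/
noncomputable def Tm.val (x1 x2 x3 x4 : ℝ) (m : Tm) : ℝ :=
  (m.c : ℝ) * x1 ^ m.e1 * x2 ^ m.e2 * x3 ^ m.e3 * x4 ^ m.e4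

/-- Value of a polynomial. -/
noncomputable def ev (p : Poly) (x1 x2 x3 x4 : ℝ) : ℝ :=
  List.rec (motive := fun _ => ℝ) 0 (fun m _ ih => m.val x1 x2 x3 x4 + ih) p

@[simp] lemma ev_nil (x1 x2 x3 x4 : ℝ) : ev [] x1 x2 x3 x4 = 0 := rfl
@[simp] lemma ev_cons (m : Tm) (p : Poly) (x1 x2 x3 x4 : ℝ) :
    ev (m :: p) x1 x2 x3 x4 = m.val x1 x2 x3 x4 + ev p x1 x2 x3 x4 := rfl

/-- Zero test on integers. -/
def isZ : ℤ → Bool
  | Int.ofNat n => Nat.beq n 0
  | Int.negSucc _ => false

lemma isZ_spec (c : ℤ) (h : isZ c = true) : c = 0 := by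
  cases c with
  | ofNat n =>
    have : n = 0 := Nat.eq_of_beq_eq_true h
    simp [this]
  | negSucc n => exact absurd h (by simp [isZ])

/-- Same exponents. -/
def sameE (a b : Tm) : Bool :=
  and (Nat.beq a.e1 b.e1) (and (Nat.beq a.e2 b.e2) (and (Nat.beq a.e3 b.e3) (Nat.beq a.e4 b.e4)))

lemma sameE_spec (a b : Tm) (h : sameE a b = true) :
    a.e1 = b.e1 ∧ a.e2 = b.e2 ∧ a.e3 = b.e3 ∧ a.e4 = b.e4 := by
  simp only [sameE, Bool.and_eq_true] at h
  exact ⟨Nat.eq_of_beq_eq_true h.1, Nat.eq_of_beq_eq_true h.2.1, Nat.eq_of_beq_eq_true h.2.2.1,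
    Nat.eq_of_beq_eq_true h.2.2.2⟩

/-- Combine two terms of the same key into a list tail. -/
def combine (a b : Tm) (t1 t2 : Poly) : Poly :=
  cond (sameE a b)
    (let c := Int.add a.c b.c
     cond (isZ c) t1 (⟨a.k, a.e1, a.e2, a.e3, a.e4, c⟩ :: t1))
    (a :: b :: t2)

/-- Merge a term into a list, given the merged tail function. -/
noncomputable def mergeAux (a : Tm) (ih : Poly → Poly) (q : Poly) : Poly :=
  List.rec (motive := fun _ => Poly) (a :: ih [])
    (fun b q' ihq =>
      cond (Nat.blt a.k b.k) (a :: ih (b :: q'))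
        (cond (Nat.blt b.k a.k) (b :: ihq)
          (combine a b (ih q') (ih q'))))
    q

/-- Merge of sorted lists (the sum of two polynomials). -/
noncomputable def add (p q : Poly) : Poly :=
  (List.rec (motive := fun _ => Poly → Poly) (fun q => q)
    (fun a _ ih q => mergeAux a ih q) p) q

@[simp] lemma add_nil_left (q : Poly) : add [] q = q := rfl
lemma add_cons (a : Tm) (p q : Poly) : add (a :: p) q = mergeAux a (add p) q := rfl

lemma ev_mergeAux (a : Tm) (p : Poly) (q : Poly) (x1 x2 x3 x4 : ℝ)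
    (hp : ∀ r, ev (add p r) x1 x2 x3 x4 = ev p x1 x2 x3 x4 + ev r x1 x2 x3 x4) :
    ev (mergeAux a (add p) q) x1 x2 x3 x4
      = a.val x1 x2 x3 x4 + ev p x1 x2 x3 x4 + ev q x1 x2 x3 x4 := by
  induction q with
  | nil =>
    show ev (a :: add p []) x1 x2 x3 x4 = _
    rw [ev_cons, hp]; simp
  | cons b q ih =>
    have e : mergeAux a (add p) (b :: q) =
      cond (Nat.blt a.k b.k) (a :: add p (b :: q))
        (cond (Nat.blt b.k a.k) (b :: mergeAux a (add p) q)
          (combine a b (add p q) (add p q))) := rfl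
    rw [e]
    cases h1 : Nat.blt a.k b.k
    · cases h2 : Nat.blt b.k a.k
      · simp only [cond_false]
        unfold combine
        cases h3 : sameE a b
        · simp only [cond_false, ev_cons, hp]
          ring
        · obtain ⟨e1, e2, e3, e4⟩ := sameE_spec a b h3
          simp only [cond_true]
          cases h4 : isZ (Int.add a.c b.c)
          · simp only [cond_false, ev_cons, hp]
            simp only [Tm.val, e1, e2, e3, e4]
            have : ((Int.add a.c b.c : ℤ) : ℝ) = (a.c : ℝ) + b.c := by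
              show ((a.c + b.c : ℤ) : ℝ) = _
              push_cast; ring
            rw [this]; ring
          · simp only [cond_true, ev_cons, hp]
            have hz := isZ_spec _ h4
            have hz' : (a.c : ℝ) + b.c = 0 := by
              have : a.c + b.c = 0 := hz
              exact_mod_cast this
            simp only [Tm.val, e1, e2, e3, e4]
            have e5 : (b.c : ℝ) = - a.c := by linarith
            rw [e5]; ring
      · simp only [cond_false, cond_true, ev_cons, ih]
        ring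
    · simp only [cond_true, ev_cons, hp]
      ring

lemma ev_add (p q : Poly) (x1 x2 x3 x4 : ℝ) :
    ev (add p q) x1 x2 x3 x4 = ev p x1 x2 x3 x4 + ev q x1 x2 x3 x4 := by
  induction p generalizing q with
  | nil => simp
  | cons a p ih =>
    rw [add_cons, ev_mergeAux a p q x1 x2 x3 x4 ih, ev_cons]

/-- Product with a term. -/
noncomputable def mulTerm (a : Tm) (p : Poly) : Poly :=
  List.rec (motive := fun _ => Poly) []
    (fun b _ ih => ⟨Nat.add a.k b.k, Nat.add a.e1 b.e1, Nat.add a.e2 b.e2, Nat.add a.e3 b.e3,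
      Nat.add a.e4 b.e4, Int.mul a.c b.c⟩ :: ih) p

lemma ev_mulTerm (a : Tm) (p : Poly) (x1 x2 x3 x4 : ℝ) :
    ev (mulTerm a p) x1 x2 x3 x4 = a.val x1 x2 x3 x4 * ev p x1 x2 x3 x4 := by
  induction p with
  | nil => simp [mulTerm]
  | cons b p ih =>
    have e : mulTerm a (b :: p) = ⟨Nat.add a.k b.k, Nat.add a.e1 b.e1, Nat.add a.e2 b.e2,
      Nat.add a.e3 b.e3, Nat.add a.e4 b.e4, Int.mul a.c b.c⟩ :: mulTerm a p := rfl
    rw [e, ev_cons, ev_cons, ih]
    have hm : Int.mul a.c b.c = a.c * b.c := rfl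
    simp only [Tm.val, Nat.add_eq, pow_add, hm]
    push_cast
    ring

/-- Product of polynomials. -/
noncomputable def mul (p q : Poly) : Poly :=
  List.rec (motive := fun _ => Poly) [] (fun a _ ih => add (mulTerm a q) ih) p

lemma ev_mul (p q : Poly) (x1 x2 x3 x4 : ℝ) :
    ev (mul p q) x1 x2 x3 x4 = ev p x1 x2 x3 x4 * ev q x1 x2 x3 x4 := by
  induction p with
  | nil => simp [mul]
  | cons a p ih =>
    have e : mul (a :: p) q = add (mulTerm a q) (mul p q) := rfl
    rw [e, ev_add, ev_mulTerm, ih, ev_cons]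
    ring

/-- Multiplication by an integer constant. -/
noncomputable def smul (c : ℤ) (p : Poly) : Poly := mulTerm ⟨0, 0, 0, 0, 0, c⟩ p

lemma ev_smul (c : ℤ) (p : Poly) (x1 x2 x3 x4 : ℝ) :
    ev (smul c p) x1 x2 x3 x4 = (c : ℝ) * ev p x1 x2 x3 x4 := by
  unfold smul
  rw [ev_mulTerm]
  simp [Tm.val]

/-- The constant one. -/
def one : Poly := [⟨0, 0, 0, 0, 0, 1⟩]

@[simp] lemma ev_one (x1 x2 x3 x4 : ℝ) : ev one x1 x2 x3 x4 = 1 := by
  simp [one, Tm.val]

/-- The four variables; keys order terms lexicographically by `e1, e2, e3, e4`. -/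
def v1 : Poly := [⟨16777216, 1, 0, 0, 0, 1⟩]
def v2 : Poly := [⟨65536, 0, 1, 0, 0, 1⟩]
def v3 : Poly := [⟨256, 0, 0, 1, 0, 1⟩]
def v4 : Poly := [⟨1, 0, 0, 0, 1, 1⟩]

@[simp] lemma ev_v1 (x1 x2 x3 x4 : ℝ) : ev v1 x1 x2 x3 x4 = x1 := by simp [v1, Tm.val]
@[simp] lemma ev_v2 (x1 x2 x3 x4 : ℝ) : ev v2 x1 x2 x3 x4 = x2 := by simp [v2, Tm.val]
@[simp] lemma ev_v3 (x1 x2 x3 x4 : ℝ) : ev v3 x1 x2 x3 x4 = x3 := by simp [v3, Tm.val]
@[simp] lemma ev_v4 (x1 x2 x3 x4 : ℝ) : ev v4 x1 x2 x3 x4 = x4 := by simp [v4, Tm.val]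

/-- Pairwise merging of a list of polynomials. -/
noncomputable def pairUp (l : List Poly) : List Poly :=
  (List.rec (motive := fun _ => Option Poly → List Poly)
    (fun o => o.elim [] fun a => [a])
    (fun b _ ih o => o.elim (ih (some b)) fun a => add a b :: ih none) l) none

/-- Sum of a list of polynomials. -/
noncomputable def sumP (l : List Poly) : Poly :=
  List.rec (motive := fun _ => Poly) [] (fun a _ ih => add a ih) l

/-- Sum of a list of values. -/
noncomputable def evs (l : List Poly) (x1 x2 x3 x4 : ℝ) : ℝ :=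
  (l.map fun p => ev p x1 x2 x3 x4).sum

lemma ev_sumP (l : List Poly) (x1 x2 x3 x4 : ℝ) :
    ev (sumP l) x1 x2 x3 x4 = evs l x1 x2 x3 x4 := by
  induction l with
  | nil => simp [sumP, evs]
  | cons a l ih =>
    have e : sumP (a :: l) = add a (sumP l) := rfl
    rw [e, ev_add, ih]
    simp [evs]

lemma evs_pairUp (l : List Poly) (x1 x2 x3 x4 : ℝ) :
    evs (pairUp l) x1 x2 x3 x4 = evs l x1 x2 x3 x4 := by
  have key : ∀ (l : List Poly) (o : Option Poly),
      evs ((List.rec (motive := fun _ => Option Poly → List Poly)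
        (fun o => o.elim [] fun a => [a])
        (fun b _ ih o => o.elim (ih (some b)) fun a => add a b :: ih none) l) o) x1 x2 x3 x4
      = (o.elim 0 fun a => ev a x1 x2 x3 x4) + evs l x1 x2 x3 x4 := by
    intro l
    induction l with
    | nil =>
      intro o
      cases o <;> simp [evs]
    | cons b l ih =>
      intro o
      cases o with
      | none =>
        show evs ((List.rec (motive := fun _ => Option Poly → List Poly)
          (fun o => o.elim [] fun a => [a])
          (fun b _ ih o => o.elim (ih (some b)) fun a => add a b :: ih none) l) (some b)) x1 x2 x3 x4 = _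
        rw [ih]
        simp [evs]
      | some a =>
        show evs (add a b :: (List.rec (motive := fun _ => Option Poly → List Poly)
          (fun o => o.elim [] fun a => [a])
          (fun b _ ih o => o.elim (ih (some b)) fun a => add a b :: ih none) l) none) x1 x2 x3 x4 = _
        have : ∀ m : List Poly, evs (add a b :: m) x1 x2 x3 x4
            = ev a x1 x2 x3 x4 + ev b x1 x2 x3 x4 + evs m x1 x2 x3 x4 := by
          intro m; simp [evs, ev_add]
        rw [this, ih]
        simp [evs]
        ring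
  unfold pairUp
  simpa using key l none

/-- Balanced summation: `n` rounds of pairwise merging. -/
noncomputable def mergeAll (n : ℕ) (l : List Poly) : Poly :=
  sumP ((Nat.rec (motive := fun _ => List Poly → List Poly) (fun l => l)
    (fun _ ih l => ih (pairUp l)) n) l)

lemma ev_mergeAll (n : ℕ) (l : List Poly) (x1 x2 x3 x4 : ℝ) :
    ev (mergeAll n l) x1 x2 x3 x4 = evs l x1 x2 x3 x4 := by
  unfold mergeAll
  rw [ev_sumP]
  induction n generalizing l with
  | zero => rfl
  | succ n ih =>
    show evs ((Nat.rec (motive := fun _ => List Poly → List Poly) (fun l => l)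
      (fun _ ih l => ih (pairUp l)) n) (pairUp l)) x1 x2 x3 x4 = _
    rw [ih, evs_pairUp]

/-- Equality test of polynomials (as lists). -/
noncomputable def beqP (p q : Poly) : Bool :=
  (List.rec (motive := fun _ => Poly → Bool)
    (fun q => List.rec (motive := fun _ => Bool) true (fun _ _ _ => false) q)
    (fun a _ ih q => List.rec (motive := fun _ => Bool) false
      (fun b q' _ => and (sameE a b) (and (isZ (Int.sub a.c b.c)) (ih q'))) q) p) q

lemma ev_of_beqP (p q : Poly) (h : beqP p q = true) (x1 x2 x3 x4 : ℝ) :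
    ev p x1 x2 x3 x4 = ev q x1 x2 x3 x4 := by
  induction p generalizing q with
  | nil =>
    cases q with
    | nil => rfl
    | cons b q => exact absurd h (by simp [beqP])
  | cons a p ih =>
    cases q with
    | nil => exact absurd h (by simp [beqP])
    | cons b q =>
      have h' : and (sameE a b) (and (isZ (Int.sub a.c b.c)) (beqP p q)) = true := h
      simp only [Bool.and_eq_true] at h'
      obtain ⟨h1, h2, h3⟩ := h'
      obtain ⟨e1, e2, e3, e4⟩ := sameE_spec a b h1
      have hz : a.c - b.c = 0 := isZ_spec _ h2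
      have hc : a.c = b.c := by omega
      rw [ev_cons, ev_cons, ih q h3]
      simp only [Tm.val, e1, e2, e3, e4, hc]

end Vale.Agent.P154.PolyR
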