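import Vale.Agent.P154.Bridge

/-!
Tables of averaged polynomials through a linear recurrence.
The six numbers `x_g = 3 u(z, t ∘ g)`, `g ∈ S₃`, are the roots of a polynomial of degree six
whose coefficients are polynomials in the invariants of `z` and of `t`.
-/

open Finset

namespace Vale.Agent.P154

open PolyR

/-- Coefficients of the recurrence. -/
def CH2 : Poly := [⟨16777216 + 256, 1, 0, 1, 0, 54⟩]
def CH3 : Poly := [⟨65536 + 1, 0, 1, 0, 1, 108⟩]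
def CH4 : Poly := [⟨2 * 16777216 + 2 * 256, 2, 0, 2, 0, -729⟩]
def CH5 : Poly := [⟨16777216 + 65536 + 256 + 1, 1, 1, 1, 1, -2916⟩]
def CH6 : Poly := [⟨2 * 65536 + 3 * 256, 0, 2, 3, 0, -2916⟩, ⟨3 * 16777216 + 2, 3, 0, 0, 2, -2916⟩,
  ⟨3 * 16777216 + 3 * 256, 3, 0, 3, 0, 2916⟩]

/-- One step of the recurrence. -/
noncomputable def recF (r0 r1 r2 r3 r4 : Poly) : Poly :=
  add (mul CH6 r0) (add (mul CH5 r1) (add (mul CH4 r2) (add (mul CH3 r3) (mul CH2 r4))))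

lemma char_id (z t : Fin 3 → ℝ) (hz : ∑ i, z i = 0) (ht : ∑ i, t i = 0) :
    (3 * uu z t) ^ 6 = ev CH2 (iA z) (iB z) (iA t) (iB t) * (3 * uu z t) ^ 4
      + ev CH3 (iA z) (iB z) (iA t) (iB t) * (3 * uu z t) ^ 3
      + ev CH4 (iA z) (iB z) (iA t) (iB t) * (3 * uu z t) ^ 2
      + ev CH5 (iA z) (iB z) (iA t) (iB t) * (3 * uu z t)
      + ev CH6 (iA z) (iB z) (iA t) (iB t) := by
  have h1 := z2_eq z hz
  have h2 := t2_eq t ht
  simp only [CH2, CH3, CH4, CH5, CH6, ev_cons, ev_nil, Tm.val, iA, iB, uu, Fin.sum_univ_three, h1, h2]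
  push_cast
  ring

lemma iA_perm (t : Fin 3 → ℝ) (g : Equiv.Perm (Fin 3)) : iA (t ∘ g) = iA t := by
  unfold iA
  congr 1
  exact Equiv.sum_comp g fun i => t i ^ 2

lemma iB_perm (t : Fin 3 → ℝ) (g : Equiv.Perm (Fin 3)) : iB (t ∘ g) = iB t := by
  unfold iB
  congr 1
  exact Equiv.sum_comp g fun i => t i ^ 3

/-- The averages that the tables compute. -/
noncomputable def AV (sc : ℝ) (AF : (Fin 3 → ℝ) → (Fin 3 → ℝ) → ℝ) (z t : Fin 3 → ℝ) (l : ℕ) : ℝ :=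
  (1 / 6) * ∑ g : Equiv.Perm (Fin 3), sc * AF z (t ∘ g) * (3 * uu z (t ∘ g)) ^ l

lemma AV_rec (sc : ℝ) (AF : (Fin 3 → ℝ) → (Fin 3 → ℝ) → ℝ) (z t : Fin 3 → ℝ) (hz : ∑ i, z i = 0)
    (ht : ∑ i, t i = 0) (l : ℕ) :
    AV sc AF z t (l + 6) = ev CH2 (iA z) (iB z) (iA t) (iB t) * AV sc AF z t (l + 4)
      + ev CH3 (iA z) (iB z) (iA t) (iB t) * AV sc AF z t (l + 3)
      + ev CH4 (iA z) (iB z) (iA t) (iB t) * AV sc AF z t (l + 2)
      + ev CH5 (iA z) (iB z) (iA t) (iB t) * AV sc AF z t (l + 1)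
      + ev CH6 (iA z) (iB z) (iA t) (iB t) * AV sc AF z t l := by
  unfold AV
  simp only [← mul_assoc, mul_comm _ (1 / 6 : ℝ)]
  simp only [mul_assoc (1 / 6 : ℝ)]
  rw [← mul_add, ← mul_add, ← mul_add, ← mul_add]
  congr 1
  simp only [Finset.mul_sum, ← Finset.sum_add_distrib]
  refine Finset.sum_congr rfl fun g _ => ?_
  have h := char_id z (t ∘ g) hz (sum_zero_comp t ht g)
  rw [iA_perm, iB_perm] at h
  have e : (3 * uu z (t ∘ g)) ^ (l + 6) = (3 * uu z (t ∘ g)) ^ l * (3 * uu z (t ∘ g)) ^ 6 := by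
    rw [pow_add]
  rw [e, h]
  ring

/-- The values of a list of polynomials are the averages from index `i` on. -/
def RowsFrom (f : ℕ → ℝ) (x1 x2 x3 x4 : ℝ) : List Poly → ℕ → Prop
  | [], _ => True
  | r :: rs, i => ev r x1 x2 x3 x4 = f i ∧ RowsFrom f x1 x2 x3 x4 rs (i + 1)

/-- Check of the rows from the recurrence. -/
noncomputable def chkRec (rows : List Poly) : Poly → Poly → Poly → Poly → Poly → Poly → Bool :=
  List.rec (motive := fun _ => Poly → Poly → Poly → Poly → Poly → Poly → Bool)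
    (fun _ _ _ _ _ _ => true)
    (fun r _ ih r0 r1 r2 r3 r4 r5 => and (beqP (recF r0 r1 r2 r3 r4) r) (ih r1 r2 r3 r4 r5 r)) rows

lemma chkRec_spec (sc : ℝ) (AF : (Fin 3 → ℝ) → (Fin 3 → ℝ) → ℝ) (z t : Fin 3 → ℝ) (hz : ∑ i, z i = 0)
    (ht : ∑ i, t i = 0) (rows : List Poly) (r0 r1 r2 r3 r4 r5 : Poly) (l : ℕ)
    (hc : chkRec rows r0 r1 r2 r3 r4 r5 = true)
    (e0 : ev r0 (iA z) (iB z) (iA t) (iB t) = AV sc AF z t l)
    (e1 : ev r1 (iA z) (iB z) (iA t) (iB t) = AV sc AF z t (l + 1))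
    (e2 : ev r2 (iA z) (iB z) (iA t) (iB t) = AV sc AF z t (l + 2))
    (e3 : ev r3 (iA z) (iB z) (iA t) (iB t) = AV sc AF z t (l + 3))
    (e4 : ev r4 (iA z) (iB z) (iA t) (iB t) = AV sc AF z t (l + 4))
    (e5 : ev r5 (iA z) (iB z) (iA t) (iB t) = AV sc AF z t (l + 5)) :
    RowsFrom (AV sc AF z t) (iA z) (iB z) (iA t) (iB t) rows (l + 6) := by
  induction rows generalizing r0 r1 r2 r3 r4 r5 l with
  | nil => trivial
  | cons r rs ih =>
    have hc' : and (beqP (recF r0 r1 r2 r3 r4) r) (chkRec rs r1 r2 r3 r4 r5 r) = true := hc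
    simp only [Bool.and_eq_true] at hc'
    obtain ⟨h1, h2⟩ := hc'
    have e6 : ev r (iA z) (iB z) (iA t) (iB t) = AV sc AF z t (l + 6) := by
      rw [← ev_of_beqP _ _ h1, AV_rec sc AF z t hz ht l]
      unfold recF
      simp only [ev_add, ev_mul, e0, e1, e2, e3, e4]
      ring
    refine ⟨e6, ?_⟩
    have := ih r1 r2 r3 r4 r5 r (l + 1) h2 e1 e2 e3 e4 e5 e6
    exact this

/-- The initial rows are right, and the others come from the recurrence. -/
noncomputable def chkAll (init rest : List Poly) (N : Poly) : Bool :=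
  and (chkRows init N) (match init with
    | [r0, r1, r2, r3, r4, r5] => chkRec rest r0 r1 r2 r3 r4 r5
    | _ => false)

lemma avg_row' (N : Poly) (sc : ℝ) (AF : (Fin 3 → ℝ) → (Fin 3 → ℝ) → ℝ)
    (hN : ∀ z t : Fin 3 → ℝ, ∑ i, z i = 0 → ∑ i, t i = 0 →
      ev N (z 0) (z 1) (t 0) (t 1) = sc * AF z t)
    (hinv : ∀ (z t : Fin 3 → ℝ) (h : Equiv.Perm (Fin 3)), AF (z ∘ h) (t ∘ h) = AF z t)
    (z t : Fin 3 → ℝ) (hz : ∑ i, z i = 0) (ht : ∑ i, t i = 0) (rows : List Poly) (i : ℕ)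
    (hc : chkRows rows (iterU N i) = true) :
    RowsFrom (AV sc AF z t) (iA z) (iB z) (iA t) (iB t) rows i := by
  induction rows generalizing i with
  | nil => trivial
  | cons r rs ih =>
    have hc' : and (beqP (mapZ (mapT (iterU N i))) r) (chkRows rs (iterU N (i + 1))) = true := hc
    simp only [Bool.and_eq_true] at hc'
    obtain ⟨h1, h2⟩ := hc'
    refine ⟨?_, ih (i + 1) h2⟩
    rw [← ev_of_beqP _ _ h1, avg_row N sc AF hN hinv z t hz ht i]
    rfl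

lemma rowsFrom_append (f : ℕ → ℝ) (x1 x2 x3 x4 : ℝ) (a b : List Poly) (i : ℕ)
    (ha : RowsFrom f x1 x2 x3 x4 a i) (hb : RowsFrom f x1 x2 x3 x4 b (i + a.length)) :
    RowsFrom f x1 x2 x3 x4 (a ++ b) i := by
  induction a generalizing i with
  | nil => simpa using hb
  | cons r rs ih =>
    refine ⟨ha.1, ih (i + 1) ha.2 ?_⟩
    have e : i + 1 + rs.length = i + (r :: rs).length := by
      simp only [List.length_cons]; omega
    rw [e]; exact hb

lemma chkAll_spec (init rest : List Poly) (N : Poly) (h : chkAll init rest N = true) (sc : ℝ)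
    (AF : (Fin 3 → ℝ) → (Fin 3 → ℝ) → ℝ)
    (hN : ∀ z t : Fin 3 → ℝ, ∑ i, z i = 0 → ∑ i, t i = 0 →
      ev N (z 0) (z 1) (t 0) (t 1) = sc * AF z t)
    (hinv : ∀ (z t : Fin 3 → ℝ) (h : Equiv.Perm (Fin 3)), AF (z ∘ h) (t ∘ h) = AF z t)
    (z t : Fin 3 → ℝ) (hz : ∑ i, z i = 0) (ht : ∑ i, t i = 0) :
    RowsFrom (AV sc AF z t) (iA z) (iB z) (iA t) (iB t) (init ++ rest) 0 := by
  unfold chkAll at h
  simp only [Bool.and_eq_true] at h
  obtain ⟨h1, h2⟩ := h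
  have hI := avg_row' N sc AF hN hinv z t hz ht init 0 h1
  match init, h2, hI with
  | [r0, r1, r2, r3, r4, r5], h2, hI =>
    refine rowsFrom_append _ _ _ _ _ _ _ 0 hI ?_
    have h3 : chkRec rest r0 r1 r2 r3 r4 r5 = true := h2
    obtain ⟨e0, e1, e2, e3, e4, e5, _⟩ := hI
    exact chkRec_spec sc AF z t hz ht rest r0 r1 r2 r3 r4 r5 0 h3 e0 e1 e2 e3 e4 e5


/-- The evaluated combination, as an average. -/
lemma combo_avg (sc : ℝ) (AF : (Fin 3 → ℝ) → (Fin 3 → ℝ) → ℝ) (z t : Fin 3 → ℝ)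
    (pi : List ℤ) (rows : List Poly) (i : ℕ)
    (hr : RowsFrom (AV sc AF z t) (iA z) (iB z) (iA t) (iB t) rows i)
    (hlen : pi.length ≤ rows.length) :
    ev (combo pi rows) (iA z) (iB z) (iA t) (iB t)
      = (1 / 6) * ∑ g : Equiv.Perm (Fin 3),
          sc * AF z (t ∘ g) * (3 * uu z (t ∘ g)) ^ i * evalZ pi (3 * uu z (t ∘ g)) := by
  induction pi generalizing rows i with
  | nil => simp [combo]
  | cons a pi ih =>
    cases rows with
    | nil => simp at hlen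
    | cons r rs =>
      have e : combo (a :: pi) (r :: rs) = add (smul a r) (combo pi rs) := rfl
      obtain ⟨h1, h2⟩ := hr
      rw [e, ev_add, ev_smul, ih rs (i + 1) h2 (by simpa using hlen), h1]
      unfold AV
      rw [mul_left_comm, ← mul_add, Finset.mul_sum, ← Finset.sum_add_distrib]
      congr 1
      refine Finset.sum_congr rfl fun g _ => ?_
      simp only [evalZ_cons]
      ring

/-- The semantic property of a table. -/
def RowsSem (sc : ℝ) (AF : (Fin 3 → ℝ) → (Fin 3 → ℝ) → ℝ) (rows : List Poly) : Prop :=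
  ∀ z t : Fin 3 → ℝ, ∑ i, z i = 0 → ∑ i, t i = 0 →
    RowsFrom (AV sc AF z t) (iA z) (iB z) (iA t) (iB t) rows 0

lemma entry_avg2 (sc : ℝ) (hsc : sc ≠ 0) (AF : (Fin 3 → ℝ) → (Fin 3 → ℝ) → ℝ)
    (z t : Fin 3 → ℝ) (hz : ∑ i, z i = 0) (ht : ∑ i, t i = 0)
    (pi : List ℤ) (rows : List Poly) (D : ℝ) (hc : RowsSem sc AF rows)
    (hlen : pi.length ≤ rows.length) :
    (1 / 6) * ∑ g : Equiv.Perm (Fin 3), AF z (t ∘ g) * (evalZ pi (3 * uu z (t ∘ g)) / D)
      = ev (combo pi rows) (iA z) (iB z) (iA t) (iB t) / (sc * D) := by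
  have h := combo_avg sc AF z t pi rows 0 (hc z t hz ht) hlen
  rw [h]
  by_cases hD : D = 0
  · simp [hD]
  · rw [Finset.mul_sum, Finset.mul_sum, Finset.sum_div]
    refine Finset.sum_congr rfl fun g _ => ?_
    field_simp

/-- Validity of the tables, in the semantic form. -/
structure Rows.OK2 (R : Rows) (A : Apx) : Prop where
  c01 : RowsSem 9 A01 R.R01
  c11 : RowsSem 9 A11 R.R11
  c21 : RowsSem 9 A21 R.R21
  c31 : RowsSem 9 A31 R.R31
  c12 : RowsSem 27 A12 R.R12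
  c22 : RowsSem 27 A22 R.R22
  c32 : RowsSem 27 A32 R.R32
  c13 : RowsSem 81 A13 R.R13
  c23 : RowsSem 81 A23 R.R23
  c33 : RowsSem 81 A33 R.R33
  c24 : RowsSem 243 A24 R.R24
  c34 : RowsSem 243 A34 R.R34
  c35 : RowsSem 729 A35 R.R35
  l01 : A.p1.length ≤ R.R01.length
  l11 : A.p1.length ≤ R.R11.length
  l21 : A.p1.length ≤ R.R21.length
  l31 : A.p1.length ≤ R.R31.length
  l12 : A.p2.length ≤ R.R12.length
  l22 : A.p2.length ≤ R.R22.length
  l32 : A.p2.length ≤ R.R32.length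
  l13 : A.p3.length ≤ R.R13.length
  l23 : A.p3.length ≤ R.R23.length
  l33 : A.p3.length ≤ R.R33.length
  l24 : A.p4.length ≤ R.R24.length
  l34 : A.p4.length ≤ R.R34.length
  l35 : A.p5.length ≤ R.R35.length

/-- The polynomial part, through the tables. -/
lemma Fav_rows2 (A : Apx) (R : Rows) (hR : R.OK2 A) (c1 c2 c4 : ℝ) (z t : Fin 3 → ℝ)
    (hz : ∑ i, z i = 0) (ht : ∑ i, t i = 0) :
    Fav A c1 c2 c4 z t =
      (ev (combo A.p1 R.R01) (iA z) (iB z) (iA t) (iB t) / (9 * A.D1)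
        + c1 / 36 * (ev (combo A.p1 R.R11) (iA z) (iB z) (iA t) (iB t) / (9 * A.D1))
        + c2 / 36 * (ev (combo A.p1 R.R21) (iA z) (iB z) (iA t) (iB t) / (9 * A.D1))
        + c4 / 36 * (ev (combo A.p1 R.R31) (iA z) (iB z) (iA t) (iB t) / (9 * A.D1)))
      + (c1 / 36 * (ev (combo A.p2 R.R12) (iA z) (iB z) (iA t) (iB t) / (27 * A.D2))
        + c2 / 36 * (ev (combo A.p2 R.R22) (iA z) (iB z) (iA t) (iB t) / (27 * A.D2))
        + c4 / 36 * (ev (combo A.p2 R.R32) (iA z) (iB z) (iA t) (iB t) / (27 * A.D2)))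
      + (c1 / 36 * (ev (combo A.p3 R.R13) (iA z) (iB z) (iA t) (iB t) / (81 * A.D3))
        + c2 / 36 * (ev (combo A.p3 R.R23) (iA z) (iB z) (iA t) (iB t) / (81 * A.D3))
        + c4 / 36 * (ev (combo A.p3 R.R33) (iA z) (iB z) (iA t) (iB t) / (81 * A.D3)))
      + (c2 / 36 * (ev (combo A.p4 R.R24) (iA z) (iB z) (iA t) (iB t) / (243 * A.D4))
        + c4 / 36 * (ev (combo A.p4 R.R34) (iA z) (iB z) (iA t) (iB t) / (243 * A.D4)))
      + c4 / 36 * (ev (combo A.p5 R.R35) (iA z) (iB z) (iA t) (iB t) / (729 * A.D5)) := by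
  rw [← entry_avg2 9 (by norm_num) A01 z t hz ht _ _ _ hR.c01 hR.l01,
    ← entry_avg2 9 (by norm_num) A11 z t hz ht _ _ _ hR.c11 hR.l11,
    ← entry_avg2 9 (by norm_num) A21 z t hz ht _ _ _ hR.c21 hR.l21,
    ← entry_avg2 9 (by norm_num) A31 z t hz ht _ _ _ hR.c31 hR.l31,
    ← entry_avg2 27 (by norm_num) A12 z t hz ht _ _ _ hR.c12 hR.l12,
    ← entry_avg2 27 (by norm_num) A22 z t hz ht _ _ _ hR.c22 hR.l22,
    ← entry_avg2 27 (by norm_num) A32 z t hz ht _ _ _ hR.c32 hR.l32,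
    ← entry_avg2 81 (by norm_num) A13 z t hz ht _ _ _ hR.c13 hR.l13,
    ← entry_avg2 81 (by norm_num) A23 z t hz ht _ _ _ hR.c23 hR.l23,
    ← entry_avg2 81 (by norm_num) A33 z t hz ht _ _ _ hR.c33 hR.l33,
    ← entry_avg2 243 (by norm_num) A24 z t hz ht _ _ _ hR.c24 hR.l24,
    ← entry_avg2 243 (by norm_num) A34 z t hz ht _ _ _ hR.c34 hR.l34,
    ← entry_avg2 729 (by norm_num) A35 z t hz ht _ _ _ hR.c35 hR.l35]
  unfold Fav
  simp only [Finset.mul_sum, ← Finset.sum_add_distrib]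
  refine Finset.sum_congr rfl fun g _ => ?_
  unfold Aj1 Aj2 Aj3 Aj4 Aj5
  ring

end Vale.Agent.P154
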