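import Vale.Agent.P154.Assemble
import Vale.Agent.P154.Tree

/-!
Nonreconstruction from a stationary certificate.
-/

open Finset Filter Topology

namespace Vale.Agent.P154

open PolyR Cert

section potential

variable {c1 c2 c4 : ℝ}

lemma quad_nonneg {α β γ a b : ℝ} (hα : 0 < α) (hd : β ^ 2 ≤ 4 * α * γ) :
    0 ≤ α * a ^ 2 + β * (a * b) + γ * b ^ 2 := by
  have h : 0 ≤ 4 * α * (α * a ^ 2 + β * (a * b) + γ * b ^ 2) := by
    have e : 4 * α * (α * a ^ 2 + β * (a * b) + γ * b ^ 2)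
        = (2 * α * a + β * b) ^ 2 + (4 * α * γ - β ^ 2) * b ^ 2 := by ring
    rw [e]
    have : 0 ≤ (4 * α * γ - β ^ 2) * b ^ 2 := mul_nonneg (by linarith) (sq_nonneg _)
    positivity
  by_contra hn
  rw [not_le] at hn
  have := mul_neg_of_pos_of_neg (by positivity : 0 < 4 * α) hn
  linarith

/-- The potential scales subquadratically: the form inside. -/
lemma inner_form (hc1 : 0 < c1) (hc4 : 0 < c4) (hc : 9 * c2 ^ 2 ≤ 32 * c1 * c4) (θ : ℝ) (h0 : 0 ≤ θ)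
    (a b : ℝ) : 0 ≤ c1 * (1 + θ) * a ^ 2 + c2 * (1 + θ + θ ^ 2) * (a * b)
      + c4 * ((1 + θ) * (1 + θ ^ 2)) * b ^ 2 := by
  apply quad_nonneg (by positivity)
  have h1 : 8 * (1 + θ + θ ^ 2) ^ 2 ≤ 9 * ((1 + θ) ^ 2 * (1 + θ ^ 2)) := by
    nlinarith [mul_nonneg (sq_nonneg (θ - 1)) (by positivity : 0 ≤ θ ^ 2 + 4 * θ + 1)]
  have h2 : (c2 * (1 + θ + θ ^ 2)) ^ 2 = c2 ^ 2 * (1 + θ + θ ^ 2) ^ 2 := by ring
  rw [h2]
  have hpos : 0 ≤ (1 + θ + θ ^ 2) ^ 2 := sq_nonneg _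
  have hp2 : 0 < (1 + θ) ^ 2 * (1 + θ ^ 2) := by positivity
  have h3 : 9 * c2 ^ 2 * (8 * (1 + θ + θ ^ 2) ^ 2) ≤ 32 * c1 * c4 * (9 * ((1 + θ) ^ 2 * (1 + θ ^ 2))) := by
    calc 9 * c2 ^ 2 * (8 * (1 + θ + θ ^ 2) ^ 2) ≤ 32 * c1 * c4 * (8 * (1 + θ + θ ^ 2) ^ 2) :=
          mul_le_mul_of_nonneg_right hc (by positivity)
      _ ≤ _ := mul_le_mul_of_nonneg_left h1 (by positivity)
  nlinarith

lemma Pq_scale (hc1 : 0 < c1) (hc4 : 0 < c4) (hc : 9 * c2 ^ 2 ≤ 32 * c1 * c4) (θ : ℝ) (h0 : 0 ≤ θ)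
    (h1 : θ ≤ 1) (a b : ℝ) :
    Pq c1 c2 c4 (θ ^ 2 * a) (θ ^ 3 * b) ≤ θ ^ 2 * Pq c1 c2 c4 a b := by
  unfold Pq
  have hf := inner_form hc1 hc4 hc θ h0 a b
  have key : θ ^ 2 * (a + c1 / 36 * a ^ 2 + c2 / 36 * (a * b) + c4 / 36 * b ^ 2)
      - (θ ^ 2 * a + c1 / 36 * (θ ^ 2 * a) ^ 2 + c2 / 36 * (θ ^ 2 * a * (θ ^ 3 * b)) + c4 / 36 * (θ ^ 3 * b) ^ 2)
      = θ ^ 2 / 36 * ((1 - θ) * (c1 * (1 + θ) * a ^ 2 + c2 * (1 + θ + θ ^ 2) * (a * b)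
      + c4 * ((1 + θ) * (1 + θ ^ 2)) * b ^ 2)) := by ring
  have : 0 ≤ θ ^ 2 / 36 * ((1 - θ) * (c1 * (1 + θ) * a ^ 2 + c2 * (1 + θ + θ ^ 2) * (a * b)
      + c4 * ((1 + θ) * (1 + θ ^ 2)) * b ^ 2)) :=
    mul_nonneg (by positivity) (mul_nonneg (by linarith) hf)
  linarith

lemma s2_smul (θ : ℝ) (v : Fin 3 → ℝ) : s2 (fun i => θ * v i) = θ ^ 2 * s2 v := by
  unfold s2
  simp only [mul_pow, ← Finset.mul_sum]

lemma s3_smul (θ : ℝ) (v : Fin 3 → ℝ) : s3 (fun i => θ * v i) = θ ^ 3 * s3 v := by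
  unfold s3
  simp only [mul_pow, ← Finset.mul_sum]

lemma Pq_low (hc1 : 0 < c1) (hc4 : 0 < c4) (hc : 9 * c2 ^ 2 ≤ 32 * c1 * c4) (a b : ℝ) :
    a ≤ Pq c1 c2 c4 a b := by
  have h : 0 ≤ c1 * a ^ 2 + c2 * (a * b) + c4 * b ^ 2 := by
    apply quad_nonneg hc1
    nlinarith [mul_pos hc1 hc4, sq_nonneg c2]
  unfold Pq
  linarith

lemma s3_abs_le_s2 (v : Fin 3 → ℝ) (hv : ∑ i, v i = 0) (h1 : ∀ i, -1 ≤ v i) : |s3 v| ≤ s2 v := by
  apply abs_le_of_sq_le_sq _ (s2_nonneg v)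
  have h6 := six_s3_sq_le v hv
  have a := s2_le_six v hv h1
  have b := s2_nonneg v
  have : s2 v ^ 3 ≤ 6 * s2 v ^ 2 := by nlinarith [sq_nonneg (s2 v)]
  linarith

lemma Pq_up (v : Fin 3 → ℝ) (hv : ∑ i, v i = 0) (h1 : ∀ i, -1 ≤ v i) (hc1 : 0 < c1) (hc4 : 0 < c4) :
    Pq c1 c2 c4 (s2 v) (s3 v) ≤ (1 + (c1 + |c2| + c4) / 6) * s2 v := by
  unfold Pq
  have a := s2_le_six v hv h1
  have b := s2_nonneg v
  have hs := s3_abs_le_s2 v hv h1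
  have h3 : s3 v ^ 2 ≤ s2 v ^ 2 := by
    have := sq_abs (s3 v)
    nlinarith [abs_nonneg (s3 v)]
  have h4 : c2 * (s2 v * s3 v) ≤ |c2| * (s2 v * s2 v) := by
    calc c2 * (s2 v * s3 v) ≤ |c2 * (s2 v * s3 v)| := le_abs_self _
      _ = |c2| * (s2 v * |s3 v|) := by rw [abs_mul, abs_mul, abs_of_nonneg b]
      _ ≤ _ := by gcongr
  have h5 : s2 v ^ 2 ≤ 6 * s2 v := by nlinarith
  have hm : 0 ≤ c1 + |c2| + c4 := by positivity
  have h6 : (c1 + |c2| + c4) / 36 * s2 v ^ 2 ≤ (c1 + |c2| + c4) / 36 * (6 * s2 v) :=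
    mul_le_mul_of_nonneg_left h5 (by positivity)
  have h7 : c4 / 36 * s3 v ^ 2 ≤ c4 / 36 * s2 v ^ 2 := mul_le_mul_of_nonneg_left h3 (by positivity)
  nlinarith

end potential

/-- The main theorem for stationary certificates. -/
theorem nonrecon_of_stat {S : StatData} (h : S.OK) (hc1 : 0 < S.c1) (hc4 : 0 < S.c4)
    (hc : 9 * S.c2 ^ 2 < 32 * S.c1 * S.c4) (d : ℕ) (hd : 1 ≤ d) (lam : ℝ) (h0 : 0 ≤ lam)
    (hl : lam ≤ S.lam) (hdl : (d : ℝ) * lam ^ 2 ≤ 1) :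
    Tendsto (reconError 3 d lam) atTop (𝓝 0) := by
  have hdpos : (0 : ℝ) < d := by exact_mod_cast hd
  have hl0 := h.hlam0
  have hl1 := h.hlam1
  have hlam1 : lam < 1 := by linarith
  have hdl' : lam ^ 2 ≤ 1 / d := by
    rw [le_div_iff₀ hdpos]; linarith
  have hc' : 9 * S.c2 ^ 2 ≤ 32 * S.c1 * S.c4 := hc.le
  set P := Pq S.c1 S.c2 S.c4 with hP
  have hPnn : ∀ v : Fin 3 → ℝ, 0 ≤ P (s2 v) (s3 v) := fun v =>
    (s2_nonneg v).trans (Pq_low hc1 hc4 hc' _ _)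
  -- the slack in the final step
  set κ := (S.c1 - 9 * S.c2 ^ 2 / (32 * S.c4)) / 2 with hκ
  have hmid : 9 * S.c2 ^ 2 / (32 * S.c4) < S.c1 := by
    rw [div_lt_iff₀ (by positivity)]
    nlinarith
  have hnn0 : 0 ≤ 9 * S.c2 ^ 2 / (32 * S.c4) := by positivity
  have hκ0 : 0 < κ := by rw [hκ]; linarith
  have hκ1 : 0 < S.c1 - κ := by rw [hκ]; linarith
  have hκ2 : 9 * S.c2 ^ 2 ≤ 32 * (S.c1 - κ) * S.c4 := by
    have h3 : 9 * S.c2 ^ 2 / (32 * S.c4) ≤ S.c1 - κ := by rw [hκ]; linarith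
    rw [div_le_iff₀ (by positivity)] at h3
    linarith
  have hslack : ∀ (a b : ℝ), κ * a ^ 2 ≤ S.c1 * (1 + lam) * a ^ 2 + S.c2 * (1 + lam + lam ^ 2) * (a * b)
      + S.c4 * ((1 + lam) * (1 + lam ^ 2)) * b ^ 2 := by
    intro a b
    have hform := inner_form hκ1 hc4 hκ2 lam h0 a b
    have hnn : 0 ≤ κ * lam * a ^ 2 := by positivity
    nlinarith
  have hPscale := fun (θ : ℝ) (h0 : 0 ≤ θ) (h1 : θ ≤ 1) (a b : ℝ) => Pq_scale (c1 := S.c1) (c2 := S.c2)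
    (c4 := S.c4) hc1 hc4 hc' θ h0 h1 a b
  set τ := (1 / (d : ℝ) - lam ^ 2) / 6 + lam ^ 2 / 36 * ((1 - lam) * κ) with hτ
  have hτ0 : 0 < τ := by
    have h1 : 0 ≤ (1 / (d : ℝ) - lam ^ 2) / 6 := by
      apply div_nonneg _ (by norm_num)
      linarith
    rcases h0.eq_or_lt with h00 | h00
    · rw [hτ, ← h00]
      have : (0 : ℝ) < 1 / d := by positivity
      simp
      positivity
    · have h2 : 0 < lam ^ 2 / 36 * ((1 - lam) * κ) :=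
        mul_pos (by positivity) (mul_pos (by linarith) hκ0)
      rw [hτ]; linarith
  refine nonrecon_of_chain (d := d) (lam := lam) hd h0 hlam1 (fun _ => P) τ 1
    (1 + (S.c1 + |S.c2| + S.c4) / 6) (fun _ => 0) hτ0 one_pos
    (by positivity) (fun j => by norm_num) ?_ ?_ ?_ ?_
  · intro k _ z hz hz1 v hv hv1
    have hlS : lam / S.lam ≤ 1 := by rw [div_le_one hl0]; exact hl
    have hθ0 : 0 ≤ lam / S.lam := by positivity
    set θ := lam / S.lam with hθ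
    have hy : ∑ i, (fun i => θ * v i) i = 0 := by
      simp only [← Finset.mul_sum, hv, mul_zero]
    have hy1 : ∀ i, -1 ≤ (fun i => θ * v i) i := by
      intro i
      have := hv1 i
      show -1 ≤ θ * v i
      nlinarith
    have hz1' : ∀ i, -1 ≤ z i := fun i => by linarith [hz1 i]
    have hstep := StatData.one_step h z (fun i => θ * v i) hz hy hz1' hy1
    have e1 : ∀ g : Equiv.Perm (Fin 3), (fun i => S.lam * (fun i => θ * v i) (g i))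
        = fun i => lam * v (g i) := by
      intro g
      funext i
      show S.lam * (θ * v (g i)) = lam * v (g i)
      rw [← mul_assoc, hθ, mul_div_cancel₀ _ hl0.ne']
    simp only [e1] at hstep
    refine hstep.trans ?_
    rw [s2_smul, s3_smul]
    have h3 := hPscale θ hθ0 hlS (s2 v) (s3 v)
    have h4 : S.lam ^ 2 * θ ^ 2 = lam ^ 2 := by
      rw [← mul_pow, hθ, mul_div_cancel₀ _ hl0.ne']
    have hPv := hPnn v
    have h5 : S.lam ^ 2 * P (θ ^ 2 * s2 v) (θ ^ 3 * s3 v) ≤ lam ^ 2 * P (s2 v) (s3 v) := by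
      rw [← h4, mul_assoc]
      exact mul_le_mul_of_nonneg_left h3 (by positivity)
    have h6 : lam ^ 2 * P (s2 v) (s3 v) ≤ (1 / d : ℝ) * P (s2 v) (s3 v) :=
      mul_le_mul_of_nonneg_right hdl' hPv
    linarith
  · intro v hv hv1
    rw [s2_smul, s3_smul]
    set a := s2 v with ha
    set b := s3 v with hb
    have ha6 : a ≤ 6 := s2_le_six v hv hv1
    have ha0 : 0 ≤ a := s2_nonneg v
    have hlow : a ≤ P a b := Pq_low hc1 hc4 hc' a b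
    have hform := hslack a b
    have key : lam ^ 2 * P a b - P (lam ^ 2 * a) (lam ^ 3 * b)
        = lam ^ 2 / 36 * ((1 - lam) * (S.c1 * (1 + lam) * a ^ 2 + S.c2 * (1 + lam + lam ^ 2) * (a * b)
            + S.c4 * ((1 + lam) * (1 + lam ^ 2)) * b ^ 2)) := by
      rw [hP]; unfold Pq; ring
    have h1 : lam ^ 2 / 36 * ((1 - lam) * (κ * a ^ 2)) ≤ lam ^ 2 * P a b - P (lam ^ 2 * a) (lam ^ 3 * b) := by
      rw [key]
      apply mul_le_mul_of_nonneg_left _ (by positivity)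
      exact mul_le_mul_of_nonneg_left hform (by linarith)
    have h2 : (1 / (d : ℝ) - lam ^ 2) * (a ^ 2 / 6) ≤ (1 / (d : ℝ) - lam ^ 2) * P a b := by
      apply mul_le_mul_of_nonneg_left _ (by linarith)
      nlinarith
    have e : τ * a ^ 2 = (1 / (d : ℝ) - lam ^ 2) * (a ^ 2 / 6) + lam ^ 2 / 36 * ((1 - lam) * (κ * a ^ 2)) := by
      rw [hτ]; ring
    show P (lam ^ 2 * a) (lam ^ 3 * b) ≤ (1 / (d : ℝ)) * P a b - τ * a ^ 2
    rw [e]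
    nlinarith
  · intro v _ _
    rw [one_mul]
    exact Pq_low hc1 hc4 hc' _ _
  · intro v hv hv1
    exact Pq_up v hv hv1 hc1 hc4

end Vale.Agent.P154
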