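import Vale.Agent.P154.Tree

/-!
The recursion on the regular tree for a stationary potential, for both signs of the eigenvalue.
-/

open Finset BigOperators Filter Topology

namespace Vale.Agent.P154.NegT

section law

variable {X : Type*} [Fintype X] {p : X → ℝ} {y : X → Fin 3 → ℝ} {lam : ℝ}

/-- The stationary potential gives the one-step bound. -/
theorem stat_bound
    (hp : ∀ ξ, 0 ≤ p ξ) (hp1 : ∑ ξ, p ξ = 1)
    (hy0 : ∀ ξ, ∑ i, y ξ i = 0) (hy1 : ∀ ξ i, -1 ≤ y ξ i)
    (hsym : ∀ (g : Equiv.Perm (Fin 3)) (f : (Fin 3 → ℝ) → ℝ),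
      ∑ ξ, p ξ * f (y ξ) = ∑ ξ, p ξ * f (fun i => y ξ (g i)))
    (hl0 : -(1 / 2) < lam) (hl1 : lam < 1)
    (d : ℕ) (hd : 1 ≤ d) (P : ℝ → ℝ → ℝ) (κ τ : ℝ)
    (hI : ∀ z : Fin 3 → ℝ, ∑ i, z i = 0 → (∀ i, -1 ≤ z i) →
      ∀ v : Fin 3 → ℝ, ∑ i, v i = 0 → (∀ i, -1 ≤ v i) →
        (1 / 6 : ℝ) * ∑ g : Equiv.Perm (Fin 3), Kp P z (fun i => lam * v (g i))
          ≤ P (s2 z) (s3 z) + κ * P (s2 v) (s3 v))
    (hT : ∀ v : Fin 3 → ℝ, ∑ i, v i = 0 → (∀ i, -1 ≤ v i) →
        P (s2 fun i => lam * v i) (s3 fun i => lam * v i)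
          ≤ κ * P (s2 v) (s3 v) - τ * s2 v ^ 2) :
    mergeA p y lam d (Hom P) (fun _ => 1)
      ≤ d * κ * (∑ ξ, p ξ * P (s2 (y ξ)) (s3 (y ξ))) - τ * ∑ ξ, p ξ * s2 (y ξ) ^ 2 := by
  classical
  set Φ := ∑ ξ, p ξ * P (s2 (y ξ)) (s3 (y ξ)) with hΦ
  have hpos : ∀ ξ i, 0 < 1 + lam * y ξ i := by
    intro ξ i
    have h1 := hy1 ξ i
    have h2 := y_le_two (hy0 ξ) (hy1 ξ) i
    rcases le_total 0 lam with hl | hl
    · nlinarith
    · nlinarith
  -- sum formula
  have hsumx : ∀ x : Fin 3 → ℝ,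
      ∑ ξ, p ξ * ((∑ i, x i * (1 + lam * y ξ i)) / 3) = (∑ i, x i) / 3 := by
    intro x
    have hm := mean_zero (p := p) (y := y) hy0 hsym
    have : ∀ ξ, p ξ * ((∑ i, x i * (1 + lam * y ξ i)) / 3)
        = p ξ * ((∑ i, x i) / 3) + (lam / 3) * ∑ i, x i * (p ξ * y ξ i) := by
      intro ξ
      simp only [Fin.sum_univ_three]
      ring
    simp only [this]
    rw [Finset.sum_add_distrib, ← Finset.sum_mul, hp1, one_mul]
    have h2 : ∑ ξ, (lam / 3) * ∑ i, x i * (p ξ * y ξ i) = 0 := by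
      rw [← Finset.mul_sum, Finset.sum_comm]
      have : ∀ i, ∑ ξ, x i * (p ξ * y ξ i) = 0 := by
        intro i
        rw [← Finset.mul_sum, hm, mul_zero]
      simp [this]
    rw [h2, add_zero]
  -- main claim
  have claim : ∀ k, k ≤ d - 1 → ∀ x : Fin 3 → ℝ, (∀ i, 0 < x i) →
      mergeA p y lam k (Hom P) x ≤ Hom P x + k * ((∑ i, x i) / 3 * (κ * Φ)) := by
    intro k
    induction k with
    | zero =>
      intro _ x _
      rw [mergeA_zero]; simp
    | succ k ih =>
      intro hk x hx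
      rw [mergeA_succ]
      have hS : 0 < ∑ i, x i := Finset.sum_pos (fun i _ => hx i) ⟨0, Finset.mem_univ _⟩
      have step : ∀ ξ, mergeA p y lam k (Hom P) (fun i => x i * (1 + lam * y ξ i))
          ≤ Hom P (fun i => x i * (1 + lam * y ξ i))
            + k * ((∑ i, x i * (1 + lam * y ξ i)) / 3 * (κ * Φ)) := by
        intro ξ
        apply ih (by omega)
        intro i; exact mul_pos (hx i) (hpos ξ i)
      calc ∑ ξ, p ξ * mergeA p y lam k (Hom P) (fun i => x i * (1 + lam * y ξ i))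
          ≤ ∑ ξ, p ξ * (Hom P (fun i => x i * (1 + lam * y ξ i))
            + k * ((∑ i, x i * (1 + lam * y ξ i)) / 3 * (κ * Φ))) :=
              Finset.sum_le_sum fun ξ _ => mul_le_mul_of_nonneg_left (step ξ) (hp ξ)
        _ = ∑ ξ, p ξ * Hom P (fun i => x i * (1 + lam * y ξ i))
            + k * ((∑ i, x i) / 3 * (κ * Φ)) := by
              have : ∀ ξ, p ξ * (Hom P (fun i => x i * (1 + lam * y ξ i))
                  + k * ((∑ i, x i * (1 + lam * y ξ i)) / 3 * (κ * Φ)))
                  = p ξ * Hom P (fun i => x i * (1 + lam * y ξ i))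
                    + (k * (κ * Φ)) * (p ξ * ((∑ i, x i * (1 + lam * y ξ i)) / 3)) := by
                intro ξ; ring
              simp only [this]
              rw [Finset.sum_add_distrib, ← Finset.mul_sum, hsumx]
              ring
        _ ≤ Hom P x + ((k + 1 : ℕ) : ℝ) * ((∑ i, x i) / 3 * (κ * Φ)) := by
              set z : Fin 3 → ℝ := fun i => 3 * x i / (∑ k, x k) - 1 with hz
              have hz0 : ∑ i, z i = 0 := by
                have h3 : ∑ i, 3 * x i / (∑ k, x k) = 3 := by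
                  rw [← Finset.sum_div, ← Finset.mul_sum]
                  field_simp
                simp only [hz, Finset.sum_sub_distrib, h3]
                simp
              have hzμ : ∀ i, -1 ≤ z i := by
                intro i
                have : 0 ≤ 3 * x i / (∑ k, x k) := by
                  have := hx i
                  positivity
                simp only [hz]
                linarith
              have e1 : ∀ ξ, Hom P (fun i => x i * (1 + lam * y ξ i))
                  = (∑ i, x i) / 3 * Kp P z (fun i => lam * y ξ i) := by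
                intro ξ
                exact Hom_mul P x (fun i => lam * y ξ i) hS.ne'
              have e2 : ∑ ξ, p ξ * Kp P z (fun i => lam * y ξ i)
                  ≤ P (s2 z) (s3 z) + κ * Φ := by
                have := avg_sym hsym (fun v => Kp P z (fun i => lam * v i))
                simp only at this
                rw [this]
                calc ∑ ξ, p ξ * ((1 / 6 : ℝ) * ∑ g : Equiv.Perm (Fin 3),
                        Kp P z (fun i => lam * y ξ (g i)))
                    ≤ ∑ ξ, p ξ * (P (s2 z) (s3 z) + κ * P (s2 (y ξ)) (s3 (y ξ))) := by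
                      refine Finset.sum_le_sum fun ξ _ => mul_le_mul_of_nonneg_left ?_ (hp ξ)
                      exact hI z hz0 hzμ (y ξ) (hy0 ξ) (hy1 ξ)
                  _ = P (s2 z) (s3 z) + κ * Φ := by
                      have : ∀ ξ, p ξ * (P (s2 z) (s3 z) + κ * P (s2 (y ξ)) (s3 (y ξ)))
                          = P (s2 z) (s3 z) * p ξ
                            + κ * (p ξ * P (s2 (y ξ)) (s3 (y ξ))) := by
                        intro ξ; ring
                      simp only [this]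
                      rw [Finset.sum_add_distrib, ← Finset.mul_sum, ← Finset.mul_sum, hp1, mul_one]
              have hHom : Hom P x = (∑ i, x i) / 3 * P (s2 z) (s3 z) := rfl
              simp only [e1]
              have e3 : ∑ ξ, p ξ * ((∑ i, x i) / 3 * Kp P z (fun i => lam * y ξ i))
                  = (∑ i, x i) / 3 * ∑ ξ, p ξ * Kp P z (fun i => lam * y ξ i) := by
                rw [Finset.mul_sum]
                refine Finset.sum_congr rfl fun ξ _ => ?_
                ring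
              rw [e3, hHom]
              have hS3 : 0 ≤ (∑ i, x i) / 3 := by positivity
              have := mul_le_mul_of_nonneg_left e2 hS3
              push_cast
              nlinarith
  -- the top level
  obtain ⟨d', rfl⟩ : ∃ d', d = d' + 1 := ⟨d - 1, by omega⟩
  rw [mergeA_succ]
  have hstep : ∀ ξ, mergeA p y lam d' (Hom P) (fun i => 1 * (1 + lam * y ξ i))
      ≤ κ * P (s2 (y ξ)) (s3 (y ξ)) - τ * s2 (y ξ) ^ 2 + d' * (κ * Φ) := by
    intro ξ
    have hsum3 : ∑ i, (1 + lam * y ξ i) = 3 := by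
      rw [Finset.sum_add_distrib, ← Finset.mul_sum, hy0]; simp
    have := claim d' (by omega) (fun i => 1 * (1 + lam * y ξ i))
      (fun i => by simpa using hpos ξ i)
    simp only [one_mul] at this ⊢
    rw [hsum3] at this
    have h2 : Hom (P) (fun i => 1 + lam * y ξ i)
        = P (s2 fun i => lam * y ξ i) (s3 fun i => lam * y ξ i) :=
      Hom_one_add (P) (fun i => lam * y ξ i) (by rw [← Finset.mul_sum, hy0, mul_zero])
    rw [h2] at this
    have h3 := hT (y ξ) (hy0 ξ) (hy1 ξ)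
    have e : (3 : ℝ) / 3 = 1 := by norm_num
    rw [e, one_mul] at this
    linarith
  calc ∑ ξ, p ξ * mergeA p y lam d' (Hom P) (fun i => 1 * (1 + lam * y ξ i))
      ≤ ∑ ξ, p ξ * (κ * P (s2 (y ξ)) (s3 (y ξ)) - τ * s2 (y ξ) ^ 2 + d' * (κ * Φ)) :=
        Finset.sum_le_sum fun ξ _ => mul_le_mul_of_nonneg_left (hstep ξ) (hp ξ)
    _ = _ := by
        have : ∀ ξ, p ξ * (κ * P (s2 (y ξ)) (s3 (y ξ)) - τ * s2 (y ξ) ^ 2 + d' * (κ * Φ))
            = κ * (p ξ * P (s2 (y ξ)) (s3 (y ξ))) - τ * (p ξ * s2 (y ξ) ^ 2)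
              + (d' * (κ * Φ)) * p ξ := by
          intro ξ; ring
        simp only [this]
        rw [Finset.sum_add_distrib, Finset.sum_sub_distrib, ← Finset.mul_sum, ← Finset.mul_sum,
          ← Finset.mul_sum, hp1, ← hΦ]
        push_cast
        ring

end law

section

variable {d : ℕ} {lam : ℝ}

lemma potts_nonneg' (h0 : -(1 / 2) < lam) (h1 : lam ≤ 1) (i j : Fin 3) : 0 ≤ potts 3 lam i j := by
  unfold potts
  push_cast
  split_ifs <;> linarith

lemma leafLik_nonneg (h0 : -(1 / 2) < lam) (h1 : lam ≤ 1) (n : ℕ) (i : Fin 3) (η : Cfg d n) :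
    0 ≤ leafLik 3 d lam n i η := by
  induction n generalizing i with
  | zero =>
    unfold leafLik
    split_ifs <;> norm_num
  | succ n ih =>
    rw [leafLik_succ]
    refine Finset.prod_nonneg fun c _ => Finset.sum_nonneg fun j _ => ?_
    exact mul_nonneg (potts_nonneg' h0 h1 i j) (ih _ _)

lemma Sn_pos (h0 : -(1 / 2) < lam) (h1 : lam < 1) (n : ℕ) (η : Cfg d n) : 0 < Sn d lam n η := by
  induction n with
  | zero =>
    unfold Sn
    have : leafLik 3 d lam 0 (η Fin.elim0) η = 1 := by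
      unfold leafLik; simp
    have h2 : ∀ i ∈ (Finset.univ : Finset (Fin 3)), 0 ≤ leafLik 3 d lam 0 i η :=
      fun i _ => leafLik_nonneg h0 h1.le 0 i η
    have h3 := Finset.single_le_sum h2 (Finset.mem_univ (η Fin.elim0))
    rw [this] at h3
    linarith
  | succ n ih =>
    unfold Sn
    refine Finset.sum_pos (fun i _ => ?_) ⟨0, Finset.mem_univ _⟩
    rw [leafLik_succ]
    refine Finset.prod_pos fun c _ => ?_
    rw [potts_sum]
    have h2 := ih (cfgEquiv d n η c)
    unfold Sn at h2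
    have h3 := leafLik_nonneg (d := d) h0 h1.le n i (cfgEquiv d n η c)
    rcases le_total 0 lam with hl | hl
    · have h4 : 0 < (1 - lam) / 3 := by linarith
      have : 0 ≤ lam * leafLik 3 d lam n i (cfgEquiv d n η c) := mul_nonneg hl h3
      have := mul_pos h4 h2
      linarith
    · have h5 : leafLik 3 d lam n i (cfgEquiv d n η c) ≤ ∑ j, leafLik 3 d lam n j (cfgEquiv d n η c) :=
        Finset.single_le_sum (f := fun j => leafLik 3 d lam n j (cfgEquiv d n η c))
          (fun j _ => leafLik_nonneg h0 h1.le n j (cfgEquiv d n η c)) (Finset.mem_univ i)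
      have h6 : lam * (∑ j, leafLik 3 d lam n j (cfgEquiv d n η c))
          ≤ lam * leafLik 3 d lam n i (cfgEquiv d n η c) :=
        mul_le_mul_of_nonpos_left h5 hl
      have h7 : 0 < (1 + 2 * lam) / 3 * ∑ j, leafLik 3 d lam n j (cfgEquiv d n η c) :=
        mul_pos (by linarith) h2
      nlinarith

lemma pn_nonneg (h0 : -(1 / 2) < lam) (h1 : lam < 1) (n : ℕ) (η : Cfg d n) : 0 ≤ pn d lam n η := by
  unfold pn
  have := Sn_pos h0 h1 n η
  positivity

lemma yn_sum (h0 : -(1 / 2) < lam) (h1 : lam < 1) (n : ℕ) (η : Cfg d n) : ∑ i, yn d lam n η i = 0 := by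
  unfold yn
  have hS := Sn_pos h0 h1 n η
  rw [Finset.sum_sub_distrib, ← Finset.sum_div, ← Finset.mul_sum]
  change 3 * Sn d lam n η / Sn d lam n η - _ = 0
  field_simp
  simp

lemma yn_ge (h0 : -(1 / 2) < lam) (h1 : lam < 1) (n : ℕ) (η : Cfg d n) (i : Fin 3) :
    -1 ≤ yn d lam n η i := by
  unfold yn
  have hS := Sn_pos h0 h1 n η
  have := leafLik_nonneg (d := d) h0 h1.le n i η
  have : 0 ≤ 3 * leafLik 3 d lam n i η / Sn d lam n η := by positivity
  linarith

/-- The message passed through an edge. -/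
lemma message (h0 : -(1 / 2) < lam) (h1 : lam < 1) (n : ℕ) (ξ : Cfg d n) (i : Fin 3) :
    ∑ j, potts 3 lam i j * leafLik 3 d lam n j ξ
      = pn d lam n ξ * (1 + lam * yn d lam n ξ i) := by
  rw [potts_sum]
  have hS := Sn_pos h0 h1 n ξ
  unfold pn yn
  change _ + (1 - lam) / 3 * Sn d lam n ξ = _
  field_simp
  ring

/-- The potential expectation at depth `n+1` is a merge of `d` messages from depth `n`. -/
lemma phi_succ (h0 : -(1 / 2) < lam) (h1 : lam < 1) (n : ℕ) (P : ℝ → ℝ → ℝ) :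
    ∑ η : Cfg d (n + 1), pn d lam (n + 1) η * P (s2 (yn d lam (n + 1) η)) (s3 (yn d lam (n + 1) η))
      = mergeA (pn d lam n) (yn d lam n) lam d (Hom P) (fun _ => 1) := by
  unfold mergeA
  rw [← (cfgEquiv d n).symm.sum_comp]
  refine Finset.sum_congr rfl fun f _ => ?_
  set η := (cfgEquiv d n).symm f with hη
  have hf : ∀ c, cfgEquiv d n η c = f c := by
    intro c; rw [hη]; simp
  have hW : ∀ i, leafLik 3 d lam (n + 1) i η
      = (∏ c, pn d lam n (f c)) * ∏ c, (1 + lam * yn d lam n (f c) i) := by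
    intro i
    rw [leafLik_succ, ← Finset.prod_mul_distrib]
    refine Finset.prod_congr rfl fun c _ => ?_
    rw [hf, message h0 h1]
  have hPi : (∏ c, pn d lam n (f c)) ≠ 0 := by
    refine Finset.prod_ne_zero_iff.mpr fun c _ => ?_
    unfold pn
    have := Sn_pos h0 h1 n (f c)
    positivity
  have hL : pn d lam (n + 1) η * P (s2 (yn d lam (n + 1) η)) (s3 (yn d lam (n + 1) η))
      = Hom P (fun i => leafLik 3 d lam (n + 1) i η) := rfl
  rw [hL]
  simp only [hW, one_mul]
  exact Hom_smul P _ hPi _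

/-- Recursion for the potential. -/
lemma phi_recursion (h0 : -(1 / 2) < lam) (h1 : lam < 1) (n : ℕ) (hd1 : 1 ≤ d)
    (P : ℝ → ℝ → ℝ) (κ τ : ℝ)
    (hI : ∀ z : Fin 3 → ℝ, ∑ i, z i = 0 → (∀ i, -1 ≤ z i) →
      ∀ v : Fin 3 → ℝ, ∑ i, v i = 0 → (∀ i, -1 ≤ v i) →
        (1 / 6 : ℝ) * ∑ g : Equiv.Perm (Fin 3), Kp P z (fun i => lam * v (g i))
          ≤ P (s2 z) (s3 z) + κ * P (s2 v) (s3 v))
    (hT : ∀ v : Fin 3 → ℝ, ∑ i, v i = 0 → (∀ i, -1 ≤ v i) →
        P (s2 fun i => lam * v i) (s3 fun i => lam * v i)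
          ≤ κ * P (s2 v) (s3 v) - τ * s2 v ^ 2) :
    ∑ η : Cfg d (n + 1), pn d lam (n + 1) η * P (s2 (yn d lam (n + 1) η)) (s3 (yn d lam (n + 1) η))
      ≤ d * κ * (∑ η : Cfg d n, pn d lam n η * P (s2 (yn d lam n η)) (s3 (yn d lam n η)))
        - τ * ∑ η : Cfg d n, pn d lam n η * s2 (yn d lam n η) ^ 2 := by
  rw [phi_succ h0 h1 n P]
  exact stat_bound (fun η => pn_nonneg h0 h1 n η) (sum_pn n) (fun η => yn_sum h0 h1 n η)
    (fun η i => yn_ge h0 h1 n η i) (fun g f => law_sym n g f) h0 h1 d hd1 P κ τ hI hT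

/-- Bound on the reconstruction error by the second moment. -/
lemma reconError_sq_le (h0 : -(1 / 2) < lam) (h1 : lam < 1) (n : ℕ) :
    reconError 3 d lam n ^ 2 ≤ (∑ η : Cfg d n, pn d lam n η * s2 (yn d lam n η)) / 12 := by
  have hl : ∀ η : Cfg d n, leafProb 3 d lam n η = pn d lam n η := by
    intro η
    unfold leafProb jointProb pn Sn
    rw [← Finset.mul_sum]
    push_cast
    ring
  have hj : ∀ (η : Cfg d n) (i : Fin 3),
      |jointProb 3 d lam n i η / pn d lam n η - 1 / ((3 : ℕ) : ℝ)|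
        = |yn d lam n η i| / 3 := by
    intro η i
    have hS := Sn_pos h0 h1 n η
    have e : jointProb 3 d lam n i η / pn d lam n η - 1 / ((3 : ℕ) : ℝ) = yn d lam n η i / 3 := by
      unfold jointProb pn yn
      push_cast
      field_simp
    rw [e, abs_div]
    simp
  have e1 : reconError 3 d lam n
      = ∑ η : Cfg d n, pn d lam n η * ((1 / 6 : ℝ) * ∑ i, |yn d lam n η i|) := by
    unfold reconError
    refine Finset.sum_congr rfl fun η _ => ?_
    rw [hl]
    congr 1
    simp only [hj, Fin.sum_univ_three]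
    ring
  rw [e1]
  -- Cauchy-Schwarz (Jensen) for the probability weights
  have hp := fun η : Cfg d n => pn_nonneg (d := d) h0 h1 n η
  have hp1 := sum_pn (d := d) (lam := lam) n
  have cs : (∑ η : Cfg d n, pn d lam n η * ((1 / 6 : ℝ) * ∑ i, |yn d lam n η i|)) ^ 2
      ≤ ∑ η : Cfg d n, pn d lam n η * ((1 / 6 : ℝ) * ∑ i, |yn d lam n η i|) ^ 2 := by
    have h := Finset.sum_mul_sq_le_sq_mul_sq (Finset.univ : Finset (Cfg d n))
      (fun η => Real.sqrt (pn d lam n η))
      (fun η => Real.sqrt (pn d lam n η) * ((1 / 6 : ℝ) * ∑ i, |yn d lam n η i|))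
    have e2 : ∀ η, Real.sqrt (pn d lam n η) *
        (Real.sqrt (pn d lam n η) * ((1 / 6 : ℝ) * ∑ i, |yn d lam n η i|))
        = pn d lam n η * ((1 / 6 : ℝ) * ∑ i, |yn d lam n η i|) := by
      intro η
      rw [← mul_assoc, Real.mul_self_sqrt (hp η)]
    have e3 : ∀ η, Real.sqrt (pn d lam n η) ^ 2 = pn d lam n η := fun η => Real.sq_sqrt (hp η)
    have e4 : ∀ η, (Real.sqrt (pn d lam n η) * ((1 / 6 : ℝ) * ∑ i, |yn d lam n η i|)) ^ 2
        = pn d lam n η * ((1 / 6 : ℝ) * ∑ i, |yn d lam n η i|) ^ 2 := by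
      intro η
      rw [mul_pow, e3]
    simp only [e2, e3, e4, hp1, one_mul] at h
    exact h
  refine cs.trans ?_
  rw [Finset.sum_div]
  refine Finset.sum_le_sum fun η _ => ?_
  rw [mul_div_assoc]
  refine mul_le_mul_of_nonneg_left ?_ (hp η)
  unfold s2
  simp only [Fin.sum_univ_three]
  have a0 := abs_nonneg (yn d lam n η 0)
  have a1 := abs_nonneg (yn d lam n η 1)
  have a2 := abs_nonneg (yn d lam n η 2)
  rw [← sq_abs (yn d lam n η 0), ← sq_abs (yn d lam n η 1), ← sq_abs (yn d lam n η 2)]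
  nlinarith [sq_nonneg (|yn d lam n η 0| - |yn d lam n η 1|),
    sq_nonneg (|yn d lam n η 0| - |yn d lam n η 2|),
    sq_nonneg (|yn d lam n η 1| - |yn d lam n η 2|)]

end

/-- Non-reconstruction from a stationary potential. -/
theorem nonrecon_stat {d : ℕ} {lam : ℝ} (hd1 : 1 ≤ d) (h0 : -(1 / 2) < lam) (h1 : lam < 1)
    (P : ℝ → ℝ → ℝ) (τ ε C : ℝ) (hτ : 0 < τ) (hε : 0 < ε) (hC : 0 < C)
    (hI : ∀ z : Fin 3 → ℝ, ∑ i, z i = 0 → (∀ i, -1 ≤ z i) →
      ∀ v : Fin 3 → ℝ, ∑ i, v i = 0 → (∀ i, -1 ≤ v i) →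
        (1 / 6 : ℝ) * ∑ g : Equiv.Perm (Fin 3), Kp P z (fun i => lam * v (g i))
          ≤ P (s2 z) (s3 z) + (1 / d : ℝ) * P (s2 v) (s3 v))
    (hT : ∀ v : Fin 3 → ℝ, ∑ i, v i = 0 → (∀ i, -1 ≤ v i) →
        P (s2 fun i => lam * v i) (s3 fun i => lam * v i)
          ≤ (1 / d : ℝ) * P (s2 v) (s3 v) - τ * s2 v ^ 2)
    (hlow : ∀ v : Fin 3 → ℝ, ∑ i, v i = 0 → (∀ i, -1 ≤ v i) → ε * s2 v ≤ P (s2 v) (s3 v))
    (hup : ∀ v : Fin 3 → ℝ, ∑ i, v i = 0 → (∀ i, -1 ≤ v i) → P (s2 v) (s3 v) ≤ C * s2 v) :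
    Tendsto (reconError 3 d lam) atTop (𝓝 0) := by
  set Φ : ℕ → ℝ := fun n =>
    ∑ η : Cfg d n, pn d lam n η * P (s2 (yn d lam n η)) (s3 (yn d lam n η)) with hΦ
  set e : ℕ → ℝ := fun n => ∑ η : Cfg d n, pn d lam n η * s2 (yn d lam n η) with he
  have hdpos : (0 : ℝ) < d := by exact_mod_cast hd1
  have hp := fun n (η : Cfg d n) => pn_nonneg (d := d) h0 h1 n η
  have hrec : ∀ n, Φ (n + 1) ≤ Φ n - τ * ∑ η : Cfg d n, pn d lam n η * s2 (yn d lam n η) ^ 2 := by
    intro n
    have := phi_recursion (d := d) (lam := lam) h0 h1 n hd1 P (1 / d : ℝ) τ hI hT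
    have e1 : (d : ℝ) * (1 / d : ℝ) = 1 := by field_simp
    rw [e1, one_mul] at this
    exact this
  have hΦe : ∀ n, Φ n ≤ C * e n := by
    intro n
    simp only [hΦ, he]
    rw [Finset.mul_sum]
    refine Finset.sum_le_sum fun η _ => ?_
    have := hup _ (yn_sum h0 h1 n η) (yn_ge h0 h1 n η)
    calc _ ≤ pn d lam n η * (C * s2 (yn d lam n η)) := mul_le_mul_of_nonneg_left this (hp n η)
      _ = _ := by ring
  have heΦ : ∀ n, ε * e n ≤ Φ n := by
    intro n
    simp only [hΦ, he]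
    rw [Finset.mul_sum]
    refine Finset.sum_le_sum fun η _ => ?_
    have := hlow _ (yn_sum h0 h1 n η) (yn_ge h0 h1 n η)
    calc _ = pn d lam n η * (ε * s2 (yn d lam n η)) := by ring
      _ ≤ _ := mul_le_mul_of_nonneg_left this (hp n η)
  have he0 : ∀ n, 0 ≤ e n := by
    intro n
    refine Finset.sum_nonneg fun η _ => mul_nonneg (hp n η) ?_
    unfold s2
    exact Finset.sum_nonneg fun i _ => sq_nonneg _
  have hΦ0 : ∀ n, 0 ≤ Φ n := fun n => le_trans (mul_nonneg hε.le (he0 n)) (heΦ n)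
  have hcs : ∀ n, e n ^ 2 ≤ ∑ η : Cfg d n, pn d lam n η * s2 (yn d lam n η) ^ 2 := by
    intro n
    have h := Finset.sum_mul_sq_le_sq_mul_sq (Finset.univ : Finset (Cfg d n))
      (fun η => Real.sqrt (pn d lam n η))
      (fun η => Real.sqrt (pn d lam n η) * s2 (yn d lam n η))
    have e2 : ∀ η : Cfg d n, Real.sqrt (pn d lam n η) *
        (Real.sqrt (pn d lam n η) * s2 (yn d lam n η))
        = pn d lam n η * s2 (yn d lam n η) := by
      intro η
      rw [← mul_assoc, Real.mul_self_sqrt (hp n η)]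
    have e3 : ∀ η : Cfg d n, Real.sqrt (pn d lam n η) ^ 2 = pn d lam n η :=
      fun η => Real.sq_sqrt (hp n η)
    have e4 : ∀ η : Cfg d n, (Real.sqrt (pn d lam n η) * s2 (yn d lam n η)) ^ 2
        = pn d lam n η * s2 (yn d lam n η) ^ 2 := by
      intro η
      rw [mul_pow, e3]
    have hp1 := sum_pn (d := d) (lam := lam) n
    simp only [e2, e3, e4, hp1, one_mul] at h
    exact h
  have hdec : ∀ n, Φ (n + 1) ≤ Φ n - τ * (Φ n / C) ^ 2 := by
    intro n
    have h1' := hrec n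
    have h2 := hcs n
    have h3 : Φ n / C ≤ e n := by
      rw [div_le_iff₀ hC]; linarith [hΦe n]
    have h4 : 0 ≤ Φ n / C := div_nonneg (hΦ0 n) hC.le
    have h5 : (Φ n / C) ^ 2 ≤ e n ^ 2 := by
      exact pow_le_pow_left₀ h4 h3 2
    have h6 : τ * (Φ n / C) ^ 2 ≤ τ * ∑ η : Cfg d n, pn d lam n η * s2 (yn d lam n η) ^ 2 :=
      mul_le_mul_of_nonneg_left (h5.trans h2) hτ.le
    linarith
  have hanti : Antitone Φ := by
    refine antitone_nat_of_succ_le fun n => ?_
    have := hdec n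
    have : 0 ≤ τ * (Φ n / C) ^ 2 := by positivity
    linarith
  have hbdd : BddBelow (Set.range Φ) := ⟨0, by rintro _ ⟨n, rfl⟩; exact hΦ0 n⟩
  have hlim := tendsto_atTop_ciInf hanti hbdd
  set L := ⨅ n, Φ n with hL
  have hL0 : 0 ≤ L := le_ciInf hΦ0
  have hlim2 : Tendsto (fun n => Φ n - τ * (Φ n / C) ^ 2) atTop (𝓝 (L - τ * (L / C) ^ 2)) :=
    hlim.sub (((hlim.div_const C).pow 2).const_mul τ)
  have hle : L ≤ L - τ * (L / C) ^ 2 :=
    le_of_tendsto_of_tendsto' (hlim.comp (tendsto_add_atTop_nat 1)) hlim2 hdec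
  have hLz : L = 0 := by
    have h2 : τ * (L / C) ^ 2 ≤ 0 := by linarith
    have h3 : 0 ≤ τ * (L / C) ^ 2 := by positivity
    have h4 : τ * (L / C) ^ 2 = 0 := le_antisymm h2 h3
    have h5 : (L / C) ^ 2 = 0 := by
      rcases mul_eq_zero.mp h4 with h | h
      · exact absurd h hτ.ne'
      · exact h
    have h6 : L / C = 0 := by simpa using h5
    rcases div_eq_zero_iff.mp h6 with h | h
    · exact h
    · exact absurd h hC.ne'
  rw [hLz] at hlim
  -- second moment tends to zero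
  have he_lim : Tendsto e atTop (𝓝 0) := by
    refine squeeze_zero he0 (fun n => ?_) (by simpa using hlim.div_const ε)
    rw [le_div_iff₀ hε]
    linarith [heΦ n]
  -- reconstruction error
  have hsq : ∀ n, reconError 3 d lam n ^ 2 ≤ e n / 12 := fun n => reconError_sq_le h0 h1 n
  have h12 : Tendsto (fun n => Real.sqrt (e n / 12)) atTop (𝓝 0) := by
    have := (he_lim.div_const 12).sqrt
    simpa using this
  refine squeeze_zero_norm (fun n => ?_) h12
  rw [Real.norm_eq_abs]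
  exact Real.abs_le_sqrt (hsq n)

end Vale.Agent.P154.NegT
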