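import Vale.Agent.P154.Step
import Vale.Agent.P154.TreeN
import Vale.Agent.P154.GWStat

/-!
Stationary certificates with the polynomial divided by `r ^ 2`, for both signs of the eigenvalue.
-/

open Finset Filter Topology

namespace Vale.Agent.P154

open PolyR Cert

/-- Flip of the sign of the fourth variable in a term. -/
def flipT (m : Tm) : Tm :=
  ⟨m.k, m.e1, m.e2, m.e3, m.e4, cond (Nat.beq (Nat.mod m.e4 2) 0) m.c (Int.neg m.c)⟩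

/-- Flip of the sign of the fourth variable. -/
noncomputable def flipP (p : Poly) : Poly := mapR flipT p

lemma val_flipT (m : Tm) (a b c w : ℝ) : (flipT m).val a b c (-w) = m.val a b c w := by
  unfold Tm.val flipT
  simp only
  rcases Nat.even_or_odd m.e4 with he | he
  · have h1 : Nat.mod m.e4 2 = 0 := Nat.even_iff.mp he
    have h2 : Nat.beq (Nat.mod m.e4 2) 0 = true := by rw [h1]; rfl
    rw [h2, he.neg_pow]
    rfl
  · have h1 : Nat.mod m.e4 2 = 1 := Nat.odd_iff.mp he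
    have h2 : Nat.beq (Nat.mod m.e4 2) 0 = false := by rw [h1]; rfl
    rw [h2, he.neg_pow]
    show ((Int.neg m.c : ℤ) : ℝ) * a ^ m.e1 * b ^ m.e2 * c ^ m.e3 * -w ^ m.e4 = _
    have : ((Int.neg m.c : ℤ) : ℝ) = -(m.c : ℝ) := by
      show ((-m.c : ℤ) : ℝ) = _
      push_cast; rfl
    rw [this]
    ring

lemma ev_flipP (p : Poly) (a b c w : ℝ) : ev (flipP p) a b c (-w) = ev p a b c w := by
  unfold flipP
  induction p with
  | nil => simp [mapR]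
  | cons m p ih =>
    have e : mapR flipT (m :: p) = flipT m :: mapR flipT p := rfl
    rw [e, ev_cons, ev_cons, val_flipT, ih]

namespace StepData

variable (S : StepData)

/-- The part of the validity which does not depend on the sign. -/
structure OKB : Prop where
  hden : S.den ≠ 0
  hzd : S.zd ≠ 0
  hlam0 : 0 < S.lam
  hzeta0 : 0 < S.zeta
  hzeta1 : S.zeta ≤ 1
  hCD : 0 < S.CD
  hR : S.R.OK2 S.A
  hKs : KsOK S.A S.c1 S.c2 S.c4 S.CD S.K01 S.K11 S.K21 S.K31 S.K12 S.K22 S.K32 S.K13 S.K23 S.K33 S.K24 S.K34 S.K35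
  hK : S.K.OK
  hk2 : 9 * (1 + 2 * S.zeta) ≤ S.K.k2
  hsmall : smallW2 S.Mz S.Nm S.FP = true
  hEC : ∀ ρ τ r σ : ℝ, 0 ≤ ρ → 0 ≤ r → ev S.EC ρ τ r σ
    = (S.zd : ℝ) ^ S.Mz * (S.den : ℝ) ^ S.Nm * S.CD * (ErrT S.A S.K S.c1 S.c2 S.c4 (S.zeta * ρ) (S.lam * r)
        + Pq S.c1 S.c2 S.c4 (6 * (S.zeta ^ 2 * ρ ^ 2)) (6 * (S.zeta ^ 3 * (ρ ^ 3 * τ)))
        - Pq S.d1 S.d2 S.d4 (6 * (S.zeta ^ 2 * ρ ^ 2)) (6 * (S.zeta ^ 3 * (ρ ^ 3 * τ)))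
        - S.lam ^ 2 * Pq S.e1 S.e2 S.e4 (6 * r ^ 2) (6 * (r ^ 3 * σ)))

/-- Validity for the positive sign, with the polynomial divided by `r ^ 2`. -/
structure OKP : Prop where
  b : S.OKB
  hzl : S.zeta * S.lam < 1
  hA : S.A.OK (-(S.zeta * S.lam)) (2 * (S.zeta * S.lam))
  hMP : beqP (normP S.MP) (normP (flatI S.G)) = true
  hneg : ∀ ρ τ r σ : ℝ, 0 ≤ ρ → ρ ≤ 1 → |τ| ≤ 1 → 0 ≤ r → r ≤ 1 → |σ| ≤ 1 →
    0 ≤ 1 - 3 * ρ ^ 2 + 2 * ρ ^ 3 * τ → 0 ≤ 1 - 3 * r ^ 2 + 2 * r ^ 3 * σ → evalI S.G ρ τ r σ ≤ 0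

/-- Validity for the negative sign, with the polynomial divided by `r ^ 2`. -/
structure OKN : Prop where
  b : S.OKB
  hzl : 2 * (S.zeta * S.lam) < 1
  hA : S.A.OK (-(2 * (S.zeta * S.lam))) (S.zeta * S.lam)
  hMP : beqP (normP (flipP S.MP)) (normP (flatI S.G)) = true
  hneg : ∀ ρ τ r σ : ℝ, 0 ≤ ρ → ρ ≤ 1 → |τ| ≤ 1 → 0 ≤ r → r ≤ 1 → |σ| ≤ 1 →
    0 ≤ 1 - 3 * ρ ^ 2 + 2 * ρ ^ 3 * τ → 0 ≤ 1 - 3 * r ^ 2 + 2 * r ^ 3 * σ → evalI S.G ρ τ r σ ≤ 0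

variable {S}

/-- The core of the one-step inequality. -/
theorem one_step_core (h : S.OKB) (u0 u1 : ℝ) (hu0 : -1 < u0) (hA : S.A.OK u0 u1)
    (x y : Fin 3 → ℝ) (hx : ∑ i, x i = 0) (hy : ∑ i, y i = 0) (hx1 : ∀ i, -1 ≤ x i)
    (ρ τ r σ : ℝ) (hρ0 : 0 ≤ ρ) (hr0 : 0 ≤ r) (hA1 : iA x = ρ ^ 2) (hB1 : iB x = ρ ^ 3 * τ)
    (hA' : iA y = r ^ 2) (hB' : iB y = r ^ 3 * σ)
    (hu : ∀ g : Equiv.Perm (Fin 3), u0 ≤ uu (fun i => S.zeta * x i) ((fun i => S.lam * y i) ∘ g) ∧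
      uu (fun i => S.zeta * x i) ((fun i => S.lam * y i) ∘ g) ≤ u1)
    (hle : ev S.MP ρ τ r σ ≤ 0) :
    (1 / 6) * ∑ g : Equiv.Perm (Fin 3),
        Kp (Pq S.c1 S.c2 S.c4) (fun i => S.zeta * x i) (fun i => S.lam * y (g i))
      ≤ Pq S.d1 S.d2 S.d4 (s2 fun i => S.zeta * x i) (s3 fun i => S.zeta * x i)
        + S.lam ^ 2 * Pq S.e1 S.e2 S.e4 (s2 y) (s3 y) := by
  set lam := S.lam with hlam
  set ζ := S.zeta with hζ
  have hl0 : 0 < lam := h.hlam0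
  have hz0 : 0 < ζ := h.hzeta0
  have hz1 : ζ ≤ 1 := h.hzeta1
  set t : Fin 3 → ℝ := fun i => lam * y i with ht
  set z : Fin 3 → ℝ := fun i => ζ * x i with hzdef
  have hts : ∑ i, t i = 0 := by
    simp only [ht, ← Finset.mul_sum, hy, mul_zero]
  have hzs : ∑ i, z i = 0 := by
    simp only [hzdef, ← Finset.mul_sum, hx, mul_zero]
  have e1 : iA z = ζ ^ 2 * ρ ^ 2 := by rw [hzdef, iA_smul, hA1]
  have e2 : iB z = ζ ^ 3 * (ρ ^ 3 * τ) := by rw [hzdef, iB_smul, hB1]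
  have e3 : iA t = lam ^ 2 * r ^ 2 := by rw [ht, iA_smul, hA']
  have e4 : iB t = lam ^ 3 * (r ^ 3 * σ) := by rw [ht, iB_smul, hB']
  have hts2 : s2 t = 6 * (lam * r) ^ 2 := by
    rw [s2_eq_six, e3]; ring
  have hq : (lam * r) ^ 2 = s2 t / 6 := by rw [hts2]; ring
  have hρz : (ζ * ρ) ^ 2 = s2 z / 6 := by
    rw [s2_eq_six, e1]; ring
  have hK := h.hK
  have hzb0 : ∀ i, 0 ≤ 1 + z i := by
    intro i
    have := hx1 i
    show 0 ≤ 1 + ζ * x i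
    nlinarith
  have hzb1 : ∀ i, 1 + z i ≤ 1 + 2 * ζ := by
    intro i
    have := y_le_two hx hx1 i
    show 1 + ζ * x i ≤ 1 + 2 * ζ
    nlinarith
  have hal2 : ∀ g : Equiv.Perm (Fin 3), al2 z (t ∘ g) ≤ S.K.k2 * (lam * r) ^ 2 := by
    intro g
    have h1 := al2_le z (t ∘ g) hzs (sum_zero_comp t hts g) (1 + 2 * ζ) hzb0 hzb1
    rw [s2_perm, hts2] at h1
    have h2 : (9 * (1 + 2 * ζ)) * (lam * r) ^ 2 ≤ S.K.k2 * (lam * r) ^ 2 :=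
      mul_le_mul_of_nonneg_right h.hk2 (by positivity)
    linarith
  have hmaster := master_bound S.A S.K u0 u1 S.c1 S.c2 S.c4
    hu0 hA z t hzs hts (ζ * ρ)
    (lam * r) (by positivity) (by positivity) hρz hq hK hal2 hu
  have hcomp : ∀ g : Equiv.Perm (Fin 3), t ∘ g = fun i => lam * y (g i) := fun g => rfl
  simp only [hcomp] at hmaster
  refine hmaster.trans ?_
  have hFP := ev_mkFP2 S.A S.R h.hR S.c1 S.c2 S.c4 S.CD S.K01 S.K11 S.K21 S.K31 S.K12 S.K22 S.K32 S.K13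
    S.K23 S.K33 S.K24 S.K34 S.K35 h.hKs z t hzs hts
  have hdenR : (0 : ℝ) < S.den := by
    have := h.hden
    have : 0 < S.den := Nat.pos_of_ne_zero this
    exact_mod_cast this
  have hzdR : (0 : ℝ) < S.zd := by
    have := h.hzd
    have : 0 < S.zd := Nat.pos_of_ne_zero this
    exact_mod_cast this
  have hMev : ev S.MP ρ τ r σ = (S.zd : ℝ) ^ S.Mz * (S.den : ℝ) ^ S.Nm * S.CD *
      (Fav S.A S.c1 S.c2 S.c4 z t + (ErrT S.A S.K S.c1 S.c2 S.c4 (ζ * ρ) (lam * r)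
        + Pq S.c1 S.c2 S.c4 (6 * (ζ ^ 2 * ρ ^ 2)) (6 * (ζ ^ 3 * (ρ ^ 3 * τ)))
        - Pq S.d1 S.d2 S.d4 (6 * (ζ ^ 2 * ρ ^ 2)) (6 * (ζ ^ 3 * (ρ ^ 3 * τ)))
        - lam ^ 2 * Pq S.e1 S.e2 S.e4 (6 * r ^ 2) (6 * (r ^ 3 * σ)))) := by
    unfold MP
    rw [ev_add, ev_toM2 _ _ _ _ _ _ h.hzd h.hden _ h.hsmall, h.hEC ρ τ r σ hρ0 hr0]
    rw [e1, e2, e3, e4] at hFP
    have h1 : ((S.num : ℝ) / S.den) = lam := rfl
    have h2 : ((S.zn : ℝ) / S.zd) = ζ := rfl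
    rw [h1, h2]
    show (S.zd : ℝ) ^ S.Mz * (S.den : ℝ) ^ S.Nm * ev S.FP _ _ _ _ + _ = _
    unfold FP
    rw [hFP]
    ring
  rw [hMev] at hle
  have hpos : 0 < (S.zd : ℝ) ^ S.Mz * (S.den : ℝ) ^ S.Nm * S.CD :=
    mul_pos (mul_pos (by positivity) (by positivity)) h.hCD
  have hle2 : Fav S.A S.c1 S.c2 S.c4 z t + (ErrT S.A S.K S.c1 S.c2 S.c4 (ζ * ρ) (lam * r)
        + Pq S.c1 S.c2 S.c4 (6 * (ζ ^ 2 * ρ ^ 2)) (6 * (ζ ^ 3 * (ρ ^ 3 * τ)))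
        - Pq S.d1 S.d2 S.d4 (6 * (ζ ^ 2 * ρ ^ 2)) (6 * (ζ ^ 3 * (ρ ^ 3 * τ)))
        - lam ^ 2 * Pq S.e1 S.e2 S.e4 (6 * r ^ 2) (6 * (r ^ 3 * σ))) ≤ 0 := by
    by_contra hn
    rw [not_le] at hn
    have := mul_pos hpos hn
    linarith
  have e5 : s2 y = 6 * r ^ 2 := by rw [s2_eq_six, hA']
  have e6 : s3 y = 6 * (r ^ 3 * σ) := by rw [s3_eq_six, hB']
  have e7 : s2 z = 6 * (ζ ^ 2 * ρ ^ 2) := by rw [s2_eq_six, e1]
  have e8 : s3 z = 6 * (ζ ^ 3 * (ρ ^ 3 * τ)) := by rw [s3_eq_six, e2]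
  rw [e5, e6, e7, e8]
  linarith

/-- The one-step inequality for the positive sign. -/
theorem one_step_pos (h : S.OKP) (x y : Fin 3 → ℝ) (hx : ∑ i, x i = 0) (hy : ∑ i, y i = 0)
    (hx1 : ∀ i, -1 ≤ x i) (hy1 : ∀ i, -1 ≤ y i) :
    (1 / 6) * ∑ g : Equiv.Perm (Fin 3),
        Kp (Pq S.c1 S.c2 S.c4) (fun i => S.zeta * x i) (fun i => S.lam * y (g i))
      ≤ Pq S.d1 S.d2 S.d4 (s2 fun i => S.zeta * x i) (s3 fun i => S.zeta * x i)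
        + S.lam ^ 2 * Pq S.e1 S.e2 S.e4 (s2 y) (s3 y) := by
  obtain ⟨ρ, τ, hρ0, hρ1, hτ, hA, hB, hc1⟩ := exists_polar x hx hx1
  obtain ⟨r, σ, hr0, hr1, hσ, hA', hB', hc2⟩ := exists_polar y hy hy1
  have hl0 := h.b.hlam0
  have hz0 := h.b.hzeta0
  refine one_step_core h.b _ _ (by linarith [h.hzl]) h.hA x y hx hy hx1 ρ τ r σ hρ0 hr0 hA hB hA' hB'
    ?_ ?_
  · intro g
    have e : (fun i => S.lam * y i) ∘ g = fun i => S.lam * (y ∘ g) i := rfl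
    rw [e, uu_smul, uu_smul_left]
    obtain ⟨a, b⟩ := uu_bounds x (y ∘ g) hx (sum_zero_comp y hy g) hx1 (fun i => hy1 (g i))
    have hp : 0 < S.zeta * S.lam := by positivity
    constructor <;> nlinarith
  · have h1 := ev_of_beqP _ _ h.hMP ρ τ r σ
    rw [ev_normP, ev_normP, ev_flatI] at h1
    rw [h1]
    exact mul_nonpos_of_nonneg_of_nonpos (by positivity) (h.hneg ρ τ r σ hρ0 hρ1 hτ hr0 hr1 hσ hc1 hc2)

/-- The one-step inequality for the negative sign: `-y` is in the simplex. -/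
theorem one_step_neg (h : S.OKN) (x y : Fin 3 → ℝ) (hx : ∑ i, x i = 0) (hy : ∑ i, y i = 0)
    (hx1 : ∀ i, -1 ≤ x i) (hy1 : ∀ i, -1 ≤ -y i) :
    (1 / 6) * ∑ g : Equiv.Perm (Fin 3),
        Kp (Pq S.c1 S.c2 S.c4) (fun i => S.zeta * x i) (fun i => S.lam * y (g i))
      ≤ Pq S.d1 S.d2 S.d4 (s2 fun i => S.zeta * x i) (s3 fun i => S.zeta * x i)
        + S.lam ^ 2 * Pq S.e1 S.e2 S.e4 (s2 y) (s3 y) := by
  obtain ⟨ρ, τ, hρ0, hρ1, hτ, hA, hB, hc1⟩ := exists_polar x hx hx1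
  set v : Fin 3 → ℝ := fun i => -1 * y i with hv
  have hvs : ∑ i, v i = 0 := by
    simp only [hv, ← Finset.mul_sum, hy, mul_zero]
  have hv1 : ∀ i, -1 ≤ v i := by
    intro i
    have := hy1 i
    simp only [hv]
    linarith
  obtain ⟨r, σ, hr0, hr1, hσ, hA', hB', hc2⟩ := exists_polar v hvs hv1
  have hl0 := h.b.hlam0
  have hz0 := h.b.hzeta0
  have eA : iA y = r ^ 2 := by
    rw [← hA', hv, iA_smul]; ring
  have eB : iB y = r ^ 3 * (-σ) := by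
    have : iB v = -iB y := by rw [hv, iB_smul]; ring
    have h3 : iB y = -(r ^ 3 * σ) := by linarith
    rw [h3]; ring
  refine one_step_core h.b _ _ (by linarith [h.hzl]) h.hA x y hx hy hx1 ρ τ r (-σ) hρ0 hr0 hA hB eA eB
    ?_ ?_
  · intro g
    have e : (fun i => S.lam * y i) ∘ g = fun i => S.lam * (y ∘ g) i := rfl
    rw [e, uu_smul, uu_smul_left]
    have e2 : y ∘ g = fun i => -1 * (v ∘ g) i := by
      funext i
      simp only [Function.comp, hv]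
      ring
    rw [e2, uu_smul]
    obtain ⟨a, b⟩ := uu_bounds x (v ∘ g) hx (sum_zero_comp v hvs g) hx1 (fun i => hv1 (g i))
    have hp : 0 < S.zeta * S.lam := by positivity
    constructor <;> nlinarith
  · have h1 := ev_of_beqP _ _ h.hMP ρ τ r σ
    rw [ev_normP, ev_normP, ev_flatI] at h1
    have h2 := ev_flipP S.MP ρ τ r (-σ)
    rw [neg_neg, h1] at h2
    rw [← h2]
    exact mul_nonpos_of_nonneg_of_nonpos (by positivity) (h.hneg ρ τ r σ hρ0 hρ1 hτ hr0 hr1 hσ hc1 hc2)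

end StepData

section final

variable {c1 c2 c4 : ℝ}

/-- The inner form, for eigenvalues of both signs. -/
lemma inner_form' (hc1 : 0 < c1) (hc4 : 0 < c4) (hc : 9 * c2 ^ 2 ≤ 32 * c1 * c4) (θ : ℝ) (h0 : 0 < 1 + θ)
    (h1 : 0 ≤ θ ^ 2 + 4 * θ + 1) (a b : ℝ) :
    0 ≤ c1 * (1 + θ) * a ^ 2 + c2 * (1 + θ + θ ^ 2) * (a * b)
      + c4 * ((1 + θ) * (1 + θ ^ 2)) * b ^ 2 := by
  apply quad_nonneg (by positivity)
  have h1' : 8 * (1 + θ + θ ^ 2) ^ 2 ≤ 9 * ((1 + θ) ^ 2 * (1 + θ ^ 2)) := by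
    nlinarith [mul_nonneg (sq_nonneg (θ - 1)) h1]
  have h2 : (c2 * (1 + θ + θ ^ 2)) ^ 2 = c2 ^ 2 * (1 + θ + θ ^ 2) ^ 2 := by ring
  rw [h2]
  have hpos : 0 ≤ (1 + θ + θ ^ 2) ^ 2 := sq_nonneg _
  have hp2 : 0 < (1 + θ) ^ 2 * (1 + θ ^ 2) := by positivity
  have h3 : 9 * c2 ^ 2 * (8 * (1 + θ + θ ^ 2) ^ 2) ≤ 32 * c1 * c4 * (9 * ((1 + θ) ^ 2 * (1 + θ ^ 2))) := by
    calc 9 * c2 ^ 2 * (8 * (1 + θ + θ ^ 2) ^ 2) ≤ 32 * c1 * c4 * (8 * (1 + θ + θ ^ 2) ^ 2) :=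
          mul_le_mul_of_nonneg_right hc (by positivity)
      _ ≤ _ := mul_le_mul_of_nonneg_left h1' (by positivity)
  nlinarith

/-- The last step and the constants, from the scaling of the potential. -/
lemma stat_terminal (hc1 : 0 < c1) (hc4 : 0 < c4) (hc : 9 * c2 ^ 2 < 32 * c1 * c4) (d lam : ℝ)
    (hd : 0 < d) (hdl : d * lam ^ 2 ≤ 1) (h0 : 0 < 1 + lam) (h1 : lam < 1)
    (h2 : 0 ≤ lam ^ 2 + 4 * lam + 1) :
    ∃ τ : ℝ, 0 < τ ∧ ∀ v : Fin 3 → ℝ, ∑ i, v i = 0 → (∀ i, -1 ≤ v i) →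
      Pq c1 c2 c4 (s2 fun i => lam * v i) (s3 fun i => lam * v i)
        ≤ (1 / d) * Pq c1 c2 c4 (s2 v) (s3 v) - τ * s2 v ^ 2 := by
  have hc' : 9 * c2 ^ 2 ≤ 32 * c1 * c4 := hc.le
  have hdl' : lam ^ 2 ≤ 1 / d := by
    rw [le_div_iff₀ hd]; linarith
  set κ := (c1 - 9 * c2 ^ 2 / (32 * c4)) / 2 with hκ
  have hmid : 9 * c2 ^ 2 / (32 * c4) < c1 := by
    rw [div_lt_iff₀ (by positivity)]
    nlinarith
  have hnn0 : 0 ≤ 9 * c2 ^ 2 / (32 * c4) := by positivity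
  have hκ0 : 0 < κ := by rw [hκ]; linarith
  have hκ1 : 0 < c1 - κ := by rw [hκ]; linarith
  have hκ2 : 9 * c2 ^ 2 ≤ 32 * (c1 - κ) * c4 := by
    have h3 : 9 * c2 ^ 2 / (32 * c4) ≤ c1 - κ := by rw [hκ]; linarith
    rw [div_le_iff₀ (by positivity)] at h3
    linarith
  have hslack : ∀ (a b : ℝ), κ * (1 + lam) * a ^ 2 ≤ c1 * (1 + lam) * a ^ 2
      + c2 * (1 + lam + lam ^ 2) * (a * b) + c4 * ((1 + lam) * (1 + lam ^ 2)) * b ^ 2 := by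
    intro a b
    have hform := inner_form' hκ1 hc4 hκ2 lam h0 h2 a b
    nlinarith
  set τ := (1 / d - lam ^ 2) / 6 + lam ^ 2 / 36 * ((1 - lam) * (κ * (1 + lam))) with hτ
  refine ⟨τ, ?_, ?_⟩
  · have h3 : 0 ≤ (1 / d - lam ^ 2) / 6 := by
      apply div_nonneg _ (by norm_num)
      linarith
    by_cases h00 : lam = 0
    · rw [hτ, h00]
      have : (0 : ℝ) < 1 / d := by positivity
      simp
      positivity
    · have hl2 : 0 < lam ^ 2 := by positivity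
      have h4 : 0 < lam ^ 2 / 36 * ((1 - lam) * (κ * (1 + lam))) :=
        mul_pos (by positivity) (mul_pos (by linarith) (by positivity))
      rw [hτ]; linarith
  · intro v hv hv1
    rw [s2_smul, s3_smul]
    set a := s2 v with ha
    set b := s3 v with hb
    have ha6 : a ≤ 6 := s2_le_six v hv hv1
    have ha0 : 0 ≤ a := s2_nonneg v
    have hlow : a ≤ Pq c1 c2 c4 a b := Pq_low hc1 hc4 hc' a b
    have hform := hslack a b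
    have key : lam ^ 2 * Pq c1 c2 c4 a b - Pq c1 c2 c4 (lam ^ 2 * a) (lam ^ 3 * b)
        = lam ^ 2 / 36 * ((1 - lam) * (c1 * (1 + lam) * a ^ 2 + c2 * (1 + lam + lam ^ 2) * (a * b)
            + c4 * ((1 + lam) * (1 + lam ^ 2)) * b ^ 2)) := by
      unfold Pq; ring
    have h1' : lam ^ 2 / 36 * ((1 - lam) * (κ * (1 + lam) * a ^ 2))
        ≤ lam ^ 2 * Pq c1 c2 c4 a b - Pq c1 c2 c4 (lam ^ 2 * a) (lam ^ 3 * b) := by
      rw [key]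
      apply mul_le_mul_of_nonneg_left _ (by positivity)
      exact mul_le_mul_of_nonneg_left hform (by linarith)
    have h2' : (1 / d - lam ^ 2) * (a ^ 2 / 6) ≤ (1 / d - lam ^ 2) * Pq c1 c2 c4 a b := by
      apply mul_le_mul_of_nonneg_left _ (by linarith)
      nlinarith
    have e : τ * a ^ 2 = (1 / d - lam ^ 2) * (a ^ 2 / 6)
        + lam ^ 2 / 36 * ((1 - lam) * (κ * (1 + lam) * a ^ 2)) := by
      rw [hτ]; ring
    rw [e]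
    nlinarith

/-- Nonreconstruction on regular trees from the stationary one-step inequality. -/
theorem regular_of_stat (hc1 : 0 < c1) (hc4 : 0 < c4) (hc : 9 * c2 ^ 2 < 32 * c1 * c4) (lam : ℝ)
    (h0 : -(1 / 2) < lam) (h1 : lam < 1) (h2 : 0 ≤ lam ^ 2 + 4 * lam + 1)
    (hI : ∀ z v : Fin 3 → ℝ, ∑ i, z i = 0 → (∀ i, -1 ≤ z i) → ∑ i, v i = 0 → (∀ i, -1 ≤ v i) →
      (1 / 6 : ℝ) * ∑ g : Equiv.Perm (Fin 3), Kp (Pq c1 c2 c4) z (fun i => lam * v (g i))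
        ≤ Pq c1 c2 c4 (s2 z) (s3 z) + lam ^ 2 * Pq c1 c2 c4 (s2 v) (s3 v))
    (d : ℕ) (hd : 1 ≤ d) (hdl : (d : ℝ) * lam ^ 2 ≤ 1) :
    Tendsto (reconError 3 d lam) atTop (𝓝 0) := by
  have hdpos : (0 : ℝ) < d := by exact_mod_cast hd
  have hc' := hc.le
  have hdl' : lam ^ 2 ≤ 1 / (d : ℝ) := by
    rw [le_div_iff₀ hdpos]; linarith
  obtain ⟨τ, hτ, hT⟩ := stat_terminal hc1 hc4 hc d lam hdpos hdl (by linarith) h1 h2
  refine NegT.nonrecon_stat hd h0 h1 (Pq c1 c2 c4) τ 1 (1 + (c1 + |c2| + c4) / 6) hτ one_pos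
    (by positivity) ?_ hT ?_ ?_
  · intro z hz hz1 v hv hv1
    refine (hI z v hz hz1 hv hv1).trans ?_
    have hPv : 0 ≤ Pq c1 c2 c4 (s2 v) (s3 v) := (s2_nonneg v).trans (Pq_low hc1 hc4 hc' _ _)
    have := mul_le_mul_of_nonneg_right hdl' hPv
    linarith
  · intro v _ _
    rw [one_mul]
    exact Pq_low hc1 hc4 hc' _ _
  · intro v hv hv1
    exact Pq_up v hv hv1 hc1 hc4

/-- Nonreconstruction on Galton-Watson trees from the stationary one-step inequality. -/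
theorem gw_of_stat (hc1 : 0 < c1) (hc4 : 0 < c4) (hc : 9 * c2 ^ 2 < 32 * c1 * c4) (lam : ℝ)
    (h0 : -(1 / 2) < lam) (h1 : lam < 1) (h2 : 0 ≤ lam ^ 2 + 4 * lam + 1)
    (hI : ∀ z v : Fin 3 → ℝ, ∑ i, z i = 0 → (∀ i, -1 ≤ z i) → ∑ i, v i = 0 → (∀ i, -1 ≤ v i) →
      (1 / 6 : ℝ) * ∑ g : Equiv.Perm (Fin 3), Kp (Pq c1 c2 c4) z (fun i => lam * v (g i))
        ≤ Pq c1 c2 c4 (s2 z) (s3 z) + lam ^ 2 * Pq c1 c2 c4 (s2 v) (s3 v))
    {off : ℕ → ℝ} (hoff : ∀ N, 0 < off N) (hsum : HasSum off 1) (d : ℝ) (hdpos : 0 < d)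
    (hm : HasSum (fun N : ℕ => off N * (N : ℝ)) d) (hdl : d * lam ^ 2 ≤ 1) :
    Tendsto (gwError 3 off lam) atTop (𝓝 0) := by
  have hc' := hc.le
  have hdl' : lam ^ 2 ≤ 1 / d := by
    rw [le_div_iff₀ hdpos]; linarith
  obtain ⟨τ, hτ, hT⟩ := stat_terminal hc1 hc4 hc d lam hdpos hdl (by linarith) h1 h2
  refine gw_nonrecon hoff hsum h0 h1 d hm (P := Pq c1 c2 c4) (κ := 1 / d) (τ := τ) (ε := 1)
    (C := 1 + (c1 + |c2| + c4) / 6) (by field_simp; exact le_refl _) hτ one_pos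
    (by positivity) (by unfold Pq; simp) ?_ hT ?_ ?_
  · intro z v hz hz1 hv hv1
    refine (hI z v hz hz1 hv hv1).trans ?_
    have hPv : 0 ≤ Pq c1 c2 c4 (s2 v) (s3 v) := (s2_nonneg v).trans (Pq_low hc1 hc4 hc' _ _)
    have := mul_le_mul_of_nonneg_right hdl' hPv
    linarith
  · intro v _ _
    rw [one_mul]
    exact Pq_low hc1 hc4 hc' _ _
  · intro v hv hv1
    exact Pq_up v hv hv1 hc1 hc4

/-- The stationary inequality at all smaller positive eigenvalues. -/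
theorem stat_ineq_pos {S : StepData} (h : S.OKP) (hz : S.zeta = 1) (hc1 : 0 < S.c1) (hc4 : 0 < S.c4)
    (hc : 9 * S.c2 ^ 2 ≤ 32 * S.c1 * S.c4)
    (hd1 : S.d1 = S.c1) (hd2 : S.d2 = S.c2) (hd4 : S.d4 = S.c4)
    (he1 : S.e1 = S.c1) (he2 : S.e2 = S.c2) (he4 : S.e4 = S.c4)
    (lam : ℝ) (h0 : 0 ≤ lam) (hl : lam ≤ S.lam) (z v : Fin 3 → ℝ) (hz0 : ∑ i, z i = 0)
    (hz1 : ∀ i, -1 ≤ z i) (hv : ∑ i, v i = 0) (hv1 : ∀ i, -1 ≤ v i) :
    (1 / 6 : ℝ) * ∑ g : Equiv.Perm (Fin 3), Kp (Pq S.c1 S.c2 S.c4) z (fun i => lam * v (g i))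
      ≤ Pq S.c1 S.c2 S.c4 (s2 z) (s3 z) + lam ^ 2 * Pq S.c1 S.c2 S.c4 (s2 v) (s3 v) := by
  have hl0 := h.b.hlam0
  have hlS : lam / S.lam ≤ 1 := by rw [div_le_one hl0]; exact hl
  have hθ0 : 0 ≤ lam / S.lam := by positivity
  set θ := lam / S.lam with hθ
  have hy : ∑ i, (fun i => θ * v i) i = 0 := by
    simp only [← Finset.mul_sum, hv, mul_zero]
  have hy1 : ∀ i, -1 ≤ (fun i => θ * v i) i := by
    intro i
    have := hv1 i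
    show -1 ≤ θ * v i
    nlinarith
  have hstep := StepData.one_step_pos h z (fun i => θ * v i) hz0 hy hz1 hy1
  have e0 : (fun i => S.zeta * z i) = z := by
    funext i; rw [hz, one_mul]
  rw [e0, hd1, hd2, hd4, he1, he2, he4] at hstep
  have e1 : ∀ g : Equiv.Perm (Fin 3), (fun i => S.lam * (fun i => θ * v i) (g i))
      = fun i => lam * v (g i) := by
    intro g
    funext i
    show S.lam * (θ * v (g i)) = lam * v (g i)
    rw [← mul_assoc, hθ, mul_div_cancel₀ _ hl0.ne']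
  simp only [e1] at hstep
  refine hstep.trans ?_
  rw [s2_smul, s3_smul]
  have h3 := Pq_scale hc1 hc4 hc θ hθ0 hlS (s2 v) (s3 v)
  have h4 : S.lam ^ 2 * θ ^ 2 = lam ^ 2 := by
    rw [← mul_pow, hθ, mul_div_cancel₀ _ hl0.ne']
  have h5 : S.lam ^ 2 * Pq S.c1 S.c2 S.c4 (θ ^ 2 * s2 v) (θ ^ 3 * s3 v)
      ≤ lam ^ 2 * Pq S.c1 S.c2 S.c4 (s2 v) (s3 v) := by
    rw [← h4, mul_assoc]
    exact mul_le_mul_of_nonneg_left h3 (by positivity)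
  linarith

/-- The stationary inequality at all smaller negative eigenvalues. -/
theorem stat_ineq_neg {S : StepData} (h : S.OKN) (hz : S.zeta = 1) (hc1 : 0 < S.c1) (hc4 : 0 < S.c4)
    (hc : 9 * S.c2 ^ 2 ≤ 32 * S.c1 * S.c4)
    (hd1 : S.d1 = S.c1) (hd2 : S.d2 = S.c2) (hd4 : S.d4 = S.c4)
    (he1 : S.e1 = S.c1) (he2 : S.e2 = -S.c2) (he4 : S.e4 = S.c4)
    (lam : ℝ) (h0 : lam ≤ 0) (hl : -S.lam ≤ lam) (z v : Fin 3 → ℝ) (hz0 : ∑ i, z i = 0)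
    (hz1 : ∀ i, -1 ≤ z i) (hv : ∑ i, v i = 0) (hv1 : ∀ i, -1 ≤ v i) :
    (1 / 6 : ℝ) * ∑ g : Equiv.Perm (Fin 3), Kp (Pq S.c1 S.c2 S.c4) z (fun i => lam * v (g i))
      ≤ Pq S.c1 S.c2 S.c4 (s2 z) (s3 z) + lam ^ 2 * Pq S.c1 S.c2 S.c4 (s2 v) (s3 v) := by
  have hl0 := h.b.hlam0
  have hlS : -lam / S.lam ≤ 1 := by rw [div_le_one hl0]; linarith
  have hθ0 : 0 ≤ -lam / S.lam := div_nonneg (by linarith) hl0.le
  set θ := -lam / S.lam with hθ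
  have hy : ∑ i, (fun i => -θ * v i) i = 0 := by
    simp only [← Finset.mul_sum, hv, mul_zero]
  have hy1 : ∀ i, -1 ≤ -(fun i => -θ * v i) i := by
    intro i
    have := hv1 i
    show -1 ≤ -(-θ * v i)
    nlinarith
  have hstep := StepData.one_step_neg h z (fun i => -θ * v i) hz0 hy hz1 hy1
  have e0 : (fun i => S.zeta * z i) = z := by
    funext i; rw [hz, one_mul]
  rw [e0, hd1, hd2, hd4, he1, he2, he4] at hstep
  have hθl : S.lam * θ = -lam := by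
    rw [hθ, mul_div_cancel₀ _ hl0.ne']
  have e1 : ∀ g : Equiv.Perm (Fin 3), (fun i => S.lam * (fun i => -θ * v i) (g i))
      = fun i => lam * v (g i) := by
    intro g
    funext i
    show S.lam * (-θ * v (g i)) = lam * v (g i)
    have : S.lam * (-θ * v (g i)) = -(S.lam * θ) * v (g i) := by ring
    rw [this, hθl, neg_neg]
  simp only [e1] at hstep
  refine hstep.trans ?_
  rw [s2_smul, s3_smul]
  have h3 := Pq_scale hc1 hc4 hc θ hθ0 hlS (s2 v) (s3 v)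
  have h4 : S.lam ^ 2 * θ ^ 2 = lam ^ 2 := by
    rw [← mul_pow, hθl]; ring
  have e2 : Pq S.c1 (-S.c2) S.c4 ((-θ) ^ 2 * s2 v) ((-θ) ^ 3 * s3 v)
      = Pq S.c1 S.c2 S.c4 (θ ^ 2 * s2 v) (θ ^ 3 * s3 v) := by
    unfold Pq; ring
  rw [e2]
  have h5 : S.lam ^ 2 * Pq S.c1 S.c2 S.c4 (θ ^ 2 * s2 v) (θ ^ 3 * s3 v)
      ≤ lam ^ 2 * Pq S.c1 S.c2 S.c4 (s2 v) (s3 v) := by
    rw [← h4, mul_assoc]
    exact mul_le_mul_of_nonneg_left h3 (by positivity)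
  linarith

end final

end Vale.Agent.P154
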