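import Vale.Agent.P154.Law2
import Vale.Agent.P154.Tree

/-!
Nonreconstruction from a chain of potentials, with the sharper chain bound.
-/

open Finset BigOperators Filter Topology

namespace Vale.Agent.P154

section

variable {d : ℕ} {lam : ℝ}

/-- Recursion for the potential. -/
lemma phi_recursion2 (h0 : 0 ≤ lam) (h1 : lam < 1) (n : ℕ) (hd1 : 1 ≤ d)
    (P : ℕ → ℝ → ℝ → ℝ) (κ τ : ℝ) (μ : ℕ → ℝ)
    (hμ : ∀ j, μ j * (2 + ((1 + 2 * lam) / (1 - lam)) ^ j) ≤ 3)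
    (hI : ∀ k, k + 1 ≤ d - 1 → ∀ z : Fin 3 → ℝ, ∑ i, z i = 0 → (∀ i, μ (d - (k + 1)) ≤ 1 + z i) →
      ∀ v : Fin 3 → ℝ, ∑ i, v i = 0 → (∀ i, -1 ≤ v i) →
        (1 / 6 : ℝ) * ∑ g : Equiv.Perm (Fin 3), Kp (P k) z (fun i => lam * v (g i))
          ≤ P (k + 1) (s2 z) (s3 z) + κ * P 0 (s2 v) (s3 v))
    (hT : ∀ v : Fin 3 → ℝ, ∑ i, v i = 0 → (∀ i, -1 ≤ v i) →
        P (d - 1) (s2 fun i => lam * v i) (s3 fun i => lam * v i)
          ≤ κ * P 0 (s2 v) (s3 v) - τ * s2 v ^ 2) :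
    ∑ η : Cfg d (n + 1), pn d lam (n + 1) η * P 0 (s2 (yn d lam (n + 1) η)) (s3 (yn d lam (n + 1) η))
      ≤ d * κ * (∑ η : Cfg d n, pn d lam n η * P 0 (s2 (yn d lam n η)) (s3 (yn d lam n η)))
        - τ * ∑ η : Cfg d n, pn d lam n η * s2 (yn d lam n η) ^ 2 := by
  rw [phi_succ h0 h1 n (P 0)]
  exact chain_bound2 (fun η => pn_nonneg h0 h1 n η) (sum_pn n) (fun η => yn_sum h0 h1 n η)
    (fun η i => yn_ge h0 h1 n η i) (fun g f => law_sym n g f) h0 h1 d hd1 P κ τ μ hμ hI hT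

end

/-- Non-reconstruction from a chain of potentials. -/
theorem nonrecon_of_chain2 {d : ℕ} {lam : ℝ} (hd1 : 1 ≤ d) (h0 : 0 ≤ lam) (h1 : lam < 1)
    (P : ℕ → ℝ → ℝ → ℝ) (τ ε C : ℝ) (μ : ℕ → ℝ) (hτ : 0 < τ) (hε : 0 < ε) (hC : 0 < C)
    (hμ : ∀ j, μ j * (2 + ((1 + 2 * lam) / (1 - lam)) ^ j) ≤ 3)
    (hI : ∀ k, k + 1 ≤ d - 1 → ∀ z : Fin 3 → ℝ, ∑ i, z i = 0 → (∀ i, μ (d - (k + 1)) ≤ 1 + z i) →
      ∀ v : Fin 3 → ℝ, ∑ i, v i = 0 → (∀ i, -1 ≤ v i) →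
        (1 / 6 : ℝ) * ∑ g : Equiv.Perm (Fin 3), Kp (P k) z (fun i => lam * v (g i))
          ≤ P (k + 1) (s2 z) (s3 z) + (1 / d : ℝ) * P 0 (s2 v) (s3 v))
    (hT : ∀ v : Fin 3 → ℝ, ∑ i, v i = 0 → (∀ i, -1 ≤ v i) →
        P (d - 1) (s2 fun i => lam * v i) (s3 fun i => lam * v i)
          ≤ (1 / d : ℝ) * P 0 (s2 v) (s3 v) - τ * s2 v ^ 2)
    (hlow : ∀ v : Fin 3 → ℝ, ∑ i, v i = 0 → (∀ i, -1 ≤ v i) → ε * s2 v ≤ P 0 (s2 v) (s3 v))
    (hup : ∀ v : Fin 3 → ℝ, ∑ i, v i = 0 → (∀ i, -1 ≤ v i) → P 0 (s2 v) (s3 v) ≤ C * s2 v) :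
    Tendsto (reconError 3 d lam) atTop (𝓝 0) := by
  set Φ : ℕ → ℝ := fun n =>
    ∑ η : Cfg d n, pn d lam n η * P 0 (s2 (yn d lam n η)) (s3 (yn d lam n η)) with hΦ
  set e : ℕ → ℝ := fun n => ∑ η : Cfg d n, pn d lam n η * s2 (yn d lam n η) with he
  have hdpos : (0 : ℝ) < d := by exact_mod_cast hd1
  have hp := fun n (η : Cfg d n) => pn_nonneg (d := d) h0 h1 n η
  have hrec : ∀ n, Φ (n + 1) ≤ Φ n - τ * ∑ η : Cfg d n, pn d lam n η * s2 (yn d lam n η) ^ 2 := by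
    intro n
    have := phi_recursion2 (d := d) (lam := lam) h0 h1 n hd1 P (1 / d : ℝ) τ μ hμ hI hT
    have e1 : (d : ℝ) * (1 / d : ℝ) = 1 := by field_simp
    rw [e1, one_mul] at this
    exact this
  have hΦe : ∀ n, Φ n ≤ C * e n := by
    intro n
    simp only [hΦ, he]
    rw [Finset.mul_sum]
    refine Finset.sum_le_sum fun η _ => ?_
    have := hup _ (yn_sum h0 h1 n η) (yn_ge h0 h1 n η)
    calc _ ≤ pn d lam n η * (C * s2 (yn d lam n η)) := mul_le_mul_of_nonneg_left this (hp n η)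
      _ = _ := by ring
  have heΦ : ∀ n, ε * e n ≤ Φ n := by
    intro n
    simp only [hΦ, he]
    rw [Finset.mul_sum]
    refine Finset.sum_le_sum fun η _ => ?_
    have := hlow _ (yn_sum h0 h1 n η) (yn_ge h0 h1 n η)
    calc _ = pn d lam n η * (ε * s2 (yn d lam n η)) := by ring
      _ ≤ _ := mul_le_mul_of_nonneg_left this (hp n η)
  have he0 : ∀ n, 0 ≤ e n := by
    intro n
    refine Finset.sum_nonneg fun η _ => mul_nonneg (hp n η) ?_
    unfold s2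
    exact Finset.sum_nonneg fun i _ => sq_nonneg _
  have hΦ0 : ∀ n, 0 ≤ Φ n := fun n => le_trans (mul_nonneg hε.le (he0 n)) (heΦ n)
  have hcs : ∀ n, e n ^ 2 ≤ ∑ η : Cfg d n, pn d lam n η * s2 (yn d lam n η) ^ 2 := by
    intro n
    have h := Finset.sum_mul_sq_le_sq_mul_sq (Finset.univ : Finset (Cfg d n))
      (fun η => Real.sqrt (pn d lam n η))
      (fun η => Real.sqrt (pn d lam n η) * s2 (yn d lam n η))
    have e2 : ∀ η : Cfg d n, Real.sqrt (pn d lam n η) *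
        (Real.sqrt (pn d lam n η) * s2 (yn d lam n η))
        = pn d lam n η * s2 (yn d lam n η) := by
      intro η
      rw [← mul_assoc, Real.mul_self_sqrt (hp n η)]
    have e3 : ∀ η : Cfg d n, Real.sqrt (pn d lam n η) ^ 2 = pn d lam n η :=
      fun η => Real.sq_sqrt (hp n η)
    have e4 : ∀ η : Cfg d n, (Real.sqrt (pn d lam n η) * s2 (yn d lam n η)) ^ 2
        = pn d lam n η * s2 (yn d lam n η) ^ 2 := by
      intro η
      rw [mul_pow, e3]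
    have hp1 := sum_pn (d := d) (lam := lam) n
    simp only [e2, e3, e4, hp1, one_mul] at h
    exact h
  have hdec : ∀ n, Φ (n + 1) ≤ Φ n - τ * (Φ n / C) ^ 2 := by
    intro n
    have h1' := hrec n
    have h2 := hcs n
    have h3 : Φ n / C ≤ e n := by
      rw [div_le_iff₀ hC]; linarith [hΦe n]
    have h4 : 0 ≤ Φ n / C := div_nonneg (hΦ0 n) hC.le
    have h5 : (Φ n / C) ^ 2 ≤ e n ^ 2 := by
      exact pow_le_pow_left₀ h4 h3 2
    have h6 : τ * (Φ n / C) ^ 2 ≤ τ * ∑ η : Cfg d n, pn d lam n η * s2 (yn d lam n η) ^ 2 :=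
      mul_le_mul_of_nonneg_left (h5.trans h2) hτ.le
    linarith
  have hanti : Antitone Φ := by
    refine antitone_nat_of_succ_le fun n => ?_
    have := hdec n
    have : 0 ≤ τ * (Φ n / C) ^ 2 := by positivity
    linarith
  have hbdd : BddBelow (Set.range Φ) := ⟨0, by rintro _ ⟨n, rfl⟩; exact hΦ0 n⟩
  have hlim := tendsto_atTop_ciInf hanti hbdd
  set L := ⨅ n, Φ n with hL
  have hL0 : 0 ≤ L := le_ciInf hΦ0
  have hlim2 : Tendsto (fun n => Φ n - τ * (Φ n / C) ^ 2) atTop (𝓝 (L - τ * (L / C) ^ 2)) :=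
    hlim.sub (((hlim.div_const C).pow 2).const_mul τ)
  have hle : L ≤ L - τ * (L / C) ^ 2 :=
    le_of_tendsto_of_tendsto' (hlim.comp (tendsto_add_atTop_nat 1)) hlim2 hdec
  have hLz : L = 0 := by
    have h2 : τ * (L / C) ^ 2 ≤ 0 := by linarith
    have h3 : 0 ≤ τ * (L / C) ^ 2 := by positivity
    have h4 : τ * (L / C) ^ 2 = 0 := le_antisymm h2 h3
    have h5 : (L / C) ^ 2 = 0 := by
      rcases mul_eq_zero.mp h4 with h | h
      · exact absurd h hτ.ne'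
      · exact h
    have h6 : L / C = 0 := by simpa using h5
    rcases div_eq_zero_iff.mp h6 with h | h
    · exact h
    · exact absurd h hC.ne'
  rw [hLz] at hlim
  -- second moment tends to zero
  have he_lim : Tendsto e atTop (𝓝 0) := by
    refine squeeze_zero he0 (fun n => ?_) (by simpa using hlim.div_const ε)
    rw [le_div_iff₀ hε]
    linarith [heΦ n]
  -- reconstruction error
  have hsq : ∀ n, reconError 3 d lam n ^ 2 ≤ e n / 12 := fun n => reconError_sq_le h0 h1 n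
  have h12 : Tendsto (fun n => Real.sqrt (e n / 12)) atTop (𝓝 0) := by
    have := (he_lim.div_const 12).sqrt
    simpa using this
  refine squeeze_zero_norm (fun n => ?_) h12
  rw [Real.norm_eq_abs]
  exact Real.abs_le_sqrt (hsq n)

end Vale.Agent.P154
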