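import Vale.Agent.P154.Stat
import Vale.Agent.P154.Rows2
import Vale.Agent.P154.Tree2

/-!
One step of a chain of potentials, from certified data.
The partial product is `z = ζ x`, with `x` in the simplex.
-/

open Finset Filter Topology

namespace Vale.Agent.P154

open PolyR Cert

/-- The term in the new variables; both pairs of invariants are scaled. -/
def toMt2 (zn zd Mz num den Nm : ℕ) (m : Tm) : Tm :=
  let n := Nat.add (Nat.mul 2 m.e3) (Nat.mul 3 m.e4)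
  let a := Nat.add (Nat.mul 2 m.e1) (Nat.mul 3 m.e2)
  ⟨keyOf a m.e2 n m.e4, a, m.e2, n, m.e4,
    Int.mul m.c (Int.ofNat (Nat.mul (Nat.mul (Nat.pow zn a) (Nat.pow zd (Nat.sub Mz a)))
      (Nat.mul (Nat.pow num n) (Nat.pow den (Nat.sub Nm n)))))⟩

/-- All terms have small weights. -/
noncomputable def smallW2 (Mz Nm : ℕ) (p : Poly) : Bool :=
  List.rec (motive := fun _ => Bool) true
    (fun m _ ih => and (Nat.ble (Nat.add (Nat.mul 2 m.e1) (Nat.mul 3 m.e2)) Mz)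
      (and (Nat.ble (Nat.add (Nat.mul 2 m.e3) (Nat.mul 3 m.e4)) Nm) ih)) p

/-- The polynomial in the new variables. -/
noncomputable def toM2 (zn zd Mz num den Nm : ℕ) (p : Poly) : Poly :=
  normP (mapR (toMt2 zn zd Mz num den Nm) p)

lemma ev_toM2 (zn zd Mz num den Nm : ℕ) (hzd : zd ≠ 0) (hden : den ≠ 0) (p : Poly)
    (hs : smallW2 Mz Nm p = true) (ρ τ r σ : ℝ) :
    ev (toM2 zn zd Mz num den Nm p) ρ τ r σ
      = (zd : ℝ) ^ Mz * (den : ℝ) ^ Nm * ev p (((zn : ℝ) / zd) ^ 2 * ρ ^ 2)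
          (((zn : ℝ) / zd) ^ 3 * (ρ ^ 3 * τ)) (((num : ℝ) / den) ^ 2 * r ^ 2)
          (((num : ℝ) / den) ^ 3 * (r ^ 3 * σ)) := by
  unfold toM2
  rw [ev_normP]
  induction p with
  | nil => simp [mapR]
  | cons m p ih =>
    have hs' : and (Nat.ble (Nat.add (Nat.mul 2 m.e1) (Nat.mul 3 m.e2)) Mz)
      (and (Nat.ble (Nat.add (Nat.mul 2 m.e3) (Nat.mul 3 m.e4)) Nm) (smallW2 Mz Nm p)) = true := hs
    simp only [Bool.and_eq_true] at hs'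
    obtain ⟨h0, h1, h2⟩ := hs'
    have hle0 : 2 * m.e1 + 3 * m.e2 ≤ Mz := Nat.le_of_ble_eq_true h0
    have hle : 2 * m.e3 + 3 * m.e4 ≤ Nm := Nat.le_of_ble_eq_true h1
    have e : mapR (toMt2 zn zd Mz num den Nm) (m :: p)
        = toMt2 zn zd Mz num den Nm m :: mapR (toMt2 zn zd Mz num den Nm) p := rfl
    rw [e, ev_cons, ev_cons, ih h2, mul_add]
    congr 1
    have hd : (den : ℝ) ≠ 0 := by exact_mod_cast hden
    have hd0 : (zd : ℝ) ≠ 0 := by exact_mod_cast hzd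
    have hc : (((toMt2 zn zd Mz num den Nm m).c : ℤ) : ℝ)
        = (m.c : ℝ) * (((zn : ℝ) ^ (2 * m.e1 + 3 * m.e2) * (zd : ℝ) ^ (Mz - (2 * m.e1 + 3 * m.e2)))
          * ((num : ℝ) ^ (2 * m.e3 + 3 * m.e4) * (den : ℝ) ^ (Nm - (2 * m.e3 + 3 * m.e4)))) := by
      show ((m.c * (((zn ^ (2 * m.e1 + 3 * m.e2) * zd ^ (Mz - (2 * m.e1 + 3 * m.e2)))
        * (num ^ (2 * m.e3 + 3 * m.e4) * den ^ (Nm - (2 * m.e3 + 3 * m.e4))) : ℕ) : ℤ) : ℤ) : ℝ) = _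
      push_cast
      ring
    have hpow : (den : ℝ) ^ Nm
        = (den : ℝ) ^ (Nm - (2 * m.e3 + 3 * m.e4)) * (den : ℝ) ^ (2 * m.e3 + 3 * m.e4) := by
      rw [← pow_add, Nat.sub_add_cancel hle]
    have hpow0 : (zd : ℝ) ^ Mz
        = (zd : ℝ) ^ (Mz - (2 * m.e1 + 3 * m.e2)) * (zd : ℝ) ^ (2 * m.e1 + 3 * m.e2) := by
      rw [← pow_add, Nat.sub_add_cancel hle0]
    unfold Tm.val
    rw [hc, hpow, hpow0]
    have hE : (toMt2 zn zd Mz num den Nm m).e1 = 2 * m.e1 + 3 * m.e2 := rfl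
    have hE2 : (toMt2 zn zd Mz num den Nm m).e2 = m.e2 := rfl
    have hE3 : (toMt2 zn zd Mz num den Nm m).e3 = 2 * m.e3 + 3 * m.e4 := rfl
    have hE4 : (toMt2 zn zd Mz num den Nm m).e4 = m.e4 := rfl
    rw [hE, hE2, hE3, hE4]
    set L : ℝ := (num : ℝ) / den with hL
    set Z : ℝ := (zn : ℝ) / zd with hZ
    have hnum : (num : ℝ) = L * den := by rw [hL]; field_simp
    have hzn : (zn : ℝ) = Z * zd := by rw [hZ]; field_simp
    rw [hnum, hzn]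
    ring

/-- Flat form of a list of groups. -/
def flat0 (G : List IGp) : Poly :=
  G.flatMap fun g => g.l.map fun m => ⟨keyOf m.a m.b g.n g.s, m.a, m.b, g.n, g.s, m.c⟩

lemma ev_flat0 (G : List IGp) (ρ τ r σ : ℝ) :
    ev (flat0 G) ρ τ r σ = evalI G ρ τ r σ := by
  induction G with
  | nil => simp [flat0, evalI]
  | cons g G ih =>
    have e : flat0 (g :: G) = (g.l.map fun m => (⟨keyOf m.a m.b g.n g.s, m.a, m.b, g.n, g.s, m.c⟩ : Tm)) ++ flat0 G := by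
      simp [flat0]
    rw [e, ev_append, ih]
    have h : ev (g.l.map fun m => (⟨keyOf m.a m.b g.n g.s, m.a, m.b, g.n, g.s, m.c⟩ : Tm)) ρ τ r σ
        = evalIL g.l ρ τ * (r ^ g.n * σ ^ g.s) := by
      induction g.l with
      | nil => simp [evalIL]
      | cons m l ih2 =>
        simp only [List.map_cons, ev_cons, ih2, evalIL, List.sum_cons, Tm.val]
        ring
    rw [h]
    simp [evalI]

lemma ev_mkFP2 (A : Apx) (R : Rows) (hR : R.OK2 A) (c1 c2 c4 CD : ℝ)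
    (K01 K11 K21 K31 K12 K22 K32 K13 K23 K33 K24 K34 K35 : ℤ)
    (hK : KsOK A c1 c2 c4 CD K01 K11 K21 K31 K12 K22 K32 K13 K23 K33 K24 K34 K35)
    (z t : Fin 3 → ℝ) (hz : ∑ i, z i = 0) (ht : ∑ i, t i = 0) :
    ev (mkFP A R K01 K11 K21 K31 K12 K22 K32 K13 K23 K33 K24 K34 K35) (iA z) (iB z) (iA t) (iB t)
      = CD * Fav A c1 c2 c4 z t := by
  rw [Fav_rows2 A R hR c1 c2 c4 z t hz ht]
  unfold mkFP
  rw [ev_sumP]
  simp only [evs, List.map_cons, List.map_nil, List.sum_cons, List.sum_nil, ev_smul, add_zero]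
  rw [hK.k01, hK.k11, hK.k21, hK.k31, hK.k12, hK.k22, hK.k32, hK.k13, hK.k23, hK.k33, hK.k24,
    hK.k34, hK.k35]
  ring

lemma uu_smul_left (z y : Fin 3 → ℝ) (a : ℝ) : uu (fun i => a * z i) y = a * uu z y := by
  unfold uu
  have : ∀ i, (a * z i) * y i = a * (z i * y i) := fun i => by ring
  simp only [this, ← Finset.mul_sum]
  ring

/-- The data of a step of the chain. -/
structure StepData where
  num : ℕ
  den : ℕ
  zn : ℕ
  zd : ℕ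
  Nm : ℕ
  Mz : ℕ
  CD : ℝ
  c1 : ℝ
  c2 : ℝ
  c4 : ℝ
  d1 : ℝ
  d2 : ℝ
  d4 : ℝ
  e1 : ℝ
  e2 : ℝ
  e4 : ℝ
  A : Apx
  K : Ks
  R : Rows
  K01 : ℤ
  K11 : ℤ
  K21 : ℤ
  K31 : ℤ
  K12 : ℤ
  K22 : ℤ
  K32 : ℤ
  K13 : ℤ
  K23 : ℤ
  K33 : ℤ
  K24 : ℤ
  K34 : ℤ
  K35 : ℤ
  EC : Poly
  G : List IGp

namespace StepData

variable (S : StepData)

/-- The scaling factor `λ`. -/
noncomputable def lam : ℝ := (S.num : ℝ) / S.den

/-- The scaling factor `ζ`. -/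
noncomputable def zeta : ℝ := (S.zn : ℝ) / S.zd

/-- The main polynomial. -/
noncomputable def FP : Poly :=
  mkFP S.A S.R S.K01 S.K11 S.K21 S.K31 S.K12 S.K22 S.K32 S.K13 S.K23 S.K33 S.K24 S.K34 S.K35

/-- The polynomial with error terms in the coordinates `(ρ, τ, r, σ)`. -/
noncomputable def MP : Poly := add (toM2 S.zn S.zd S.Mz S.num S.den S.Nm S.FP) S.EC

/-- What has to be checked of a step. -/
structure OK : Prop where
  hden : S.den ≠ 0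
  hzd : S.zd ≠ 0
  hlam0 : 0 < S.lam
  hzeta0 : 0 < S.zeta
  hzeta1 : S.zeta ≤ 1
  hzl : S.zeta * S.lam < 1
  hCD : 0 < S.CD
  hR : S.R.OK2 S.A
  hKs : KsOK S.A S.c1 S.c2 S.c4 S.CD S.K01 S.K11 S.K21 S.K31 S.K12 S.K22 S.K32 S.K13 S.K23 S.K33 S.K24 S.K34 S.K35
  hA : S.A.OK (-(S.zeta * S.lam)) (2 * (S.zeta * S.lam))
  hK : S.K.OK
  hk2 : 9 * (1 + 2 * S.zeta) ≤ S.K.k2
  hsmall : smallW2 S.Mz S.Nm S.FP = true
  hEC : ∀ ρ τ r σ : ℝ, 0 ≤ ρ → 0 ≤ r → ev S.EC ρ τ r σ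
    = (S.zd : ℝ) ^ S.Mz * (S.den : ℝ) ^ S.Nm * S.CD * (ErrT S.A S.K S.c1 S.c2 S.c4 (S.zeta * ρ) (S.lam * r)
        + Pq S.c1 S.c2 S.c4 (6 * (S.zeta ^ 2 * ρ ^ 2)) (6 * (S.zeta ^ 3 * (ρ ^ 3 * τ)))
        - Pq S.d1 S.d2 S.d4 (6 * (S.zeta ^ 2 * ρ ^ 2)) (6 * (S.zeta ^ 3 * (ρ ^ 3 * τ)))
        - S.lam ^ 2 * Pq S.e1 S.e2 S.e4 (6 * r ^ 2) (6 * (r ^ 3 * σ)))
  hMP : beqP (normP S.MP) (normP (flat0 S.G)) = true
  hneg : ∀ ρ τ r σ : ℝ, 0 ≤ ρ → ρ ≤ 1 → |τ| ≤ 1 → 0 ≤ r → r ≤ 1 → |σ| ≤ 1 →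
    0 ≤ 1 - 3 * ρ ^ 2 + 2 * ρ ^ 3 * τ → 0 ≤ 1 - 3 * r ^ 2 + 2 * r ^ 3 * σ → evalI S.G ρ τ r σ ≤ 0

variable {S}

lemma s2_eq_six (v : Fin 3 → ℝ) : s2 v = 6 * iA v := by
  unfold iA; rw [show (∑ i, v i ^ 2) = s2 v from rfl]; ring

lemma s3_eq_six (v : Fin 3 → ℝ) : s3 v = 6 * iB v := by
  unfold iB; rw [show (∑ i, v i ^ 3) = s3 v from rfl]; ring

/-- The one-step inequality. -/
theorem one_step (h : S.OK) (x y : Fin 3 → ℝ) (hx : ∑ i, x i = 0) (hy : ∑ i, y i = 0)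
    (hx1 : ∀ i, -1 ≤ x i) (hy1 : ∀ i, -1 ≤ y i) :
    (1 / 6) * ∑ g : Equiv.Perm (Fin 3),
        Kp (Pq S.c1 S.c2 S.c4) (fun i => S.zeta * x i) (fun i => S.lam * y (g i))
      ≤ Pq S.d1 S.d2 S.d4 (s2 fun i => S.zeta * x i) (s3 fun i => S.zeta * x i)
        + S.lam ^ 2 * Pq S.e1 S.e2 S.e4 (s2 y) (s3 y) := by
  obtain ⟨ρ, τ, hρ0, hρ1, hτ, hA, hB, hc1⟩ := exists_polar x hx hx1
  obtain ⟨r, σ, hr0, hr1, hσ, hA', hB', hc2⟩ := exists_polar y hy hy1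
  set lam := S.lam with hlam
  set ζ := S.zeta with hζ
  have hl0 : 0 < lam := h.hlam0
  have hz0 : 0 < ζ := h.hzeta0
  have hz1 : ζ ≤ 1 := h.hzeta1
  set t : Fin 3 → ℝ := fun i => lam * y i with ht
  set z : Fin 3 → ℝ := fun i => ζ * x i with hzdef
  have hts : ∑ i, t i = 0 := by
    simp only [ht, ← Finset.mul_sum, hy, mul_zero]
  have hzs : ∑ i, z i = 0 := by
    simp only [hzdef, ← Finset.mul_sum, hx, mul_zero]
  have e1 : iA z = ζ ^ 2 * ρ ^ 2 := by rw [hzdef, iA_smul, hA]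
  have e2 : iB z = ζ ^ 3 * (ρ ^ 3 * τ) := by rw [hzdef, iB_smul, hB]
  have e3 : iA t = lam ^ 2 * r ^ 2 := by rw [ht, iA_smul, hA']
  have e4 : iB t = lam ^ 3 * (r ^ 3 * σ) := by rw [ht, iB_smul, hB']
  have hts2 : s2 t = 6 * (lam * r) ^ 2 := by
    rw [s2_eq_six, e3]; ring
  have hq : (lam * r) ^ 2 = s2 t / 6 := by rw [hts2]; ring
  have hρz : (ζ * ρ) ^ 2 = s2 z / 6 := by
    rw [s2_eq_six, e1]; ring
  have hK := h.hK
  have hzb0 : ∀ i, 0 ≤ 1 + z i := by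
    intro i
    have := hx1 i
    show 0 ≤ 1 + ζ * x i
    nlinarith
  have hzb1 : ∀ i, 1 + z i ≤ 1 + 2 * ζ := by
    intro i
    have := y_le_two hx hx1 i
    show 1 + ζ * x i ≤ 1 + 2 * ζ
    nlinarith
  have hal2 : ∀ g : Equiv.Perm (Fin 3), al2 z (t ∘ g) ≤ S.K.k2 * (lam * r) ^ 2 := by
    intro g
    have h1 := al2_le z (t ∘ g) hzs (sum_zero_comp t hts g) (1 + 2 * ζ) hzb0 hzb1
    rw [s2_perm, hts2] at h1
    have h2 : (9 * (1 + 2 * ζ)) * (lam * r) ^ 2 ≤ S.K.k2 * (lam * r) ^ 2 :=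
      mul_le_mul_of_nonneg_right h.hk2 (by positivity)
    linarith
  have hu : ∀ g : Equiv.Perm (Fin 3),
      -(ζ * lam) ≤ uu z (t ∘ g) ∧ uu z (t ∘ g) ≤ 2 * (ζ * lam) := by
    intro g
    have e : t ∘ g = fun i => lam * (y ∘ g) i := rfl
    rw [e, uu_smul, hzdef, uu_smul_left]
    obtain ⟨a, b⟩ := uu_bounds x (y ∘ g) hx (sum_zero_comp y hy g) hx1 (fun i => hy1 (g i))
    have hp : 0 < ζ * lam := by positivity
    constructor <;> nlinarith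
  have hmaster := master_bound S.A S.K (-(ζ * lam)) (2 * (ζ * lam)) S.c1 S.c2 S.c4
    (by linarith [h.hzl]) h.hA z t hzs hts (ζ * ρ)
    (lam * r) (by positivity) (by positivity) hρz hq hK hal2 hu
  have hcomp : ∀ g : Equiv.Perm (Fin 3), t ∘ g = fun i => lam * y (g i) := fun g => rfl
  simp only [hcomp] at hmaster
  refine hmaster.trans ?_
  have hFP := ev_mkFP2 S.A S.R h.hR S.c1 S.c2 S.c4 S.CD S.K01 S.K11 S.K21 S.K31 S.K12 S.K22 S.K32 S.K13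
    S.K23 S.K33 S.K24 S.K34 S.K35 h.hKs z t hzs hts
  have hdenR : (0 : ℝ) < S.den := by
    have := h.hden
    have : 0 < S.den := Nat.pos_of_ne_zero this
    exact_mod_cast this
  have hzdR : (0 : ℝ) < S.zd := by
    have := h.hzd
    have : 0 < S.zd := Nat.pos_of_ne_zero this
    exact_mod_cast this
  have hMev : ev S.MP ρ τ r σ = (S.zd : ℝ) ^ S.Mz * (S.den : ℝ) ^ S.Nm * S.CD *
      (Fav S.A S.c1 S.c2 S.c4 z t + (ErrT S.A S.K S.c1 S.c2 S.c4 (ζ * ρ) (lam * r)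
        + Pq S.c1 S.c2 S.c4 (6 * (ζ ^ 2 * ρ ^ 2)) (6 * (ζ ^ 3 * (ρ ^ 3 * τ)))
        - Pq S.d1 S.d2 S.d4 (6 * (ζ ^ 2 * ρ ^ 2)) (6 * (ζ ^ 3 * (ρ ^ 3 * τ)))
        - lam ^ 2 * Pq S.e1 S.e2 S.e4 (6 * r ^ 2) (6 * (r ^ 3 * σ)))) := by
    unfold MP
    rw [ev_add, ev_toM2 _ _ _ _ _ _ h.hzd h.hden _ h.hsmall, h.hEC ρ τ r σ hρ0 hr0]
    rw [e1, e2, e3, e4] at hFP
    have h1 : ((S.num : ℝ) / S.den) = lam := rfl
    have h2 : ((S.zn : ℝ) / S.zd) = ζ := rfl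
    rw [h1, h2]
    show (S.zd : ℝ) ^ S.Mz * (S.den : ℝ) ^ S.Nm * ev S.FP _ _ _ _ + _ = _
    unfold FP
    rw [hFP]
    ring
  have hM2 : ev S.MP ρ τ r σ = evalI S.G ρ τ r σ := by
    have h1 := ev_of_beqP _ _ h.hMP ρ τ r σ
    rw [ev_normP, ev_normP, ev_flat0] at h1
    exact h1
  have hneg := h.hneg ρ τ r σ hρ0 hρ1 hτ hr0 hr1 hσ hc1 hc2
  have hle : ev S.MP ρ τ r σ ≤ 0 := by
    rw [hM2]
    exact hneg
  rw [hMev] at hle
  have hpos : 0 < (S.zd : ℝ) ^ S.Mz * (S.den : ℝ) ^ S.Nm * S.CD :=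
    mul_pos (mul_pos (by positivity) (by positivity)) h.hCD
  have hle2 : Fav S.A S.c1 S.c2 S.c4 z t + (ErrT S.A S.K S.c1 S.c2 S.c4 (ζ * ρ) (lam * r)
        + Pq S.c1 S.c2 S.c4 (6 * (ζ ^ 2 * ρ ^ 2)) (6 * (ζ ^ 3 * (ρ ^ 3 * τ)))
        - Pq S.d1 S.d2 S.d4 (6 * (ζ ^ 2 * ρ ^ 2)) (6 * (ζ ^ 3 * (ρ ^ 3 * τ)))
        - lam ^ 2 * Pq S.e1 S.e2 S.e4 (6 * r ^ 2) (6 * (r ^ 3 * σ))) ≤ 0 := by
    by_contra hn
    rw [not_le] at hn
    have := mul_pos hpos hn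
    linarith
  have e5 : s2 y = 6 * r ^ 2 := by rw [s2_eq_six, hA']
  have e6 : s3 y = 6 * (r ^ 3 * σ) := by rw [s3_eq_six, hB']
  have e7 : s2 z = 6 * (ζ ^ 2 * ρ ^ 2) := by rw [s2_eq_six, e1]
  have e8 : s3 z = 6 * (ζ ^ 3 * (ρ ^ 3 * τ)) := by rw [s3_eq_six, e2]
  rw [e5, e6, e7, e8]
  linarith

end StepData

/-- Data of a chain of potentials, for `d` children. -/
structure ChainHyp (d : ℕ) (lam' : ℝ) (c1 c2 c4 ζ : ℕ → ℝ) (τ' : ℝ) : Prop where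
  hd : 1 ≤ d
  hl0 : 0 < lam'
  hl1 : lam' < 1
  hld : 1 ≤ (d : ℝ) * lam' ^ 2
  hτ' : 0 < τ'
  hc01 : 0 < c1 0
  hc04 : 0 < c4 0
  hc0 : 9 * c2 0 ^ 2 ≤ 32 * c1 0 * c4 0
  hcd1 : 0 < c1 (d - 1)
  hcd4 : 0 < c4 (d - 1)
  hcd : 9 * c2 (d - 1) ^ 2 ≤ 32 * c1 (d - 1) * c4 (d - 1)
  hζ0 : ∀ k, k + 1 ≤ d - 1 → 0 < ζ k
  hζ1 : ∀ k, k + 1 ≤ d - 1 →
    1 - 3 / (2 + ((1 + 2 * lam') / (1 - lam')) ^ (d - (k + 1))) ≤ ζ k
  hstep : ∀ k, k + 1 ≤ d - 1 → ∀ x y : Fin 3 → ℝ, ∑ i, x i = 0 → ∑ i, y i = 0 →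
    (∀ i, -1 ≤ x i) → (∀ i, -1 ≤ y i) →
    (1 / 6) * ∑ g : Equiv.Perm (Fin 3),
        Kp (Pq (c1 k) (c2 k) (c4 k)) (fun i => ζ k * x i) (fun i => lam' * y (g i))
      ≤ Pq (c1 (k + 1)) (c2 (k + 1)) (c4 (k + 1)) (s2 fun i => ζ k * x i) (s3 fun i => ζ k * x i)
        + lam' ^ 2 * Pq (c1 0) (c2 0) (c4 0) (s2 y) (s3 y)
  hT : ∀ a b : ℝ, Pq (c1 (d - 1)) (c2 (d - 1)) (c4 (d - 1)) (lam' ^ 2 * a) (lam' ^ 3 * b)
    ≤ lam' ^ 2 * Pq (c1 0) (c2 0) (c4 0) a b - τ' * a ^ 2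

/-- Nonreconstruction from a chain of potentials at `λ' ≥ 1/√d`. -/
theorem nonrecon_of_hyp {d : ℕ} {lam' τ' : ℝ} {c1 c2 c4 ζ : ℕ → ℝ}
    (H : ChainHyp d lam' c1 c2 c4 ζ τ') (lam : ℝ) (h0 : 0 ≤ lam) (hdl : (d : ℝ) * lam ^ 2 ≤ 1) :
    Tendsto (reconError 3 d lam) atTop (𝓝 0) := by
  have hdpos : (0 : ℝ) < d := by exact_mod_cast H.hd
  have hl0 := H.hl0
  have hl1 := H.hl1
  have hll : lam ≤ lam' := by
    by_contra hn
    rw [not_le] at hn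
    have h2 : lam' ^ 2 < lam ^ 2 := by nlinarith
    have := mul_lt_mul_of_pos_left h2 hdpos
    linarith [H.hld]
  have hlam1 : lam < 1 := by linarith
  have hdl' : lam ^ 2 ≤ 1 / d := by
    rw [le_div_iff₀ hdpos]; linarith
  set θ := lam / lam' with hθ
  have hθ0 : 0 ≤ θ := by positivity
  have hθ1 : θ ≤ 1 := by rw [hθ, div_le_one hl0]; exact hll
  have hθl : lam' * θ = lam := by rw [hθ]; field_simp
  set P : ℕ → ℝ → ℝ → ℝ := fun k => Pq (c1 k) (c2 k) (c4 k) with hP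
  have hPnn : ∀ v : Fin 3 → ℝ, 0 ≤ P 0 (s2 v) (s3 v) := fun v =>
    (s2_nonneg v).trans (Pq_low H.hc01 H.hc04 H.hc0 _ _)
  set τ := (1 / (d : ℝ) - lam ^ 2) / 6 + θ ^ 2 * τ' with hτ
  have hτ0 : 0 < τ := by
    have h1 : 0 ≤ (1 / (d : ℝ) - lam ^ 2) / 6 := by
      apply div_nonneg _ (by norm_num)
      linarith
    rcases h0.eq_or_lt with h00 | h00
    · rw [hτ, ← h00]
      have : (0 : ℝ) < 1 / d := by positivity
      have h3 : 0 ≤ θ ^ 2 * τ' := mul_nonneg (by positivity) H.hτ'.le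
      simp only [ne_eq, OfNat.ofNat_ne_zero, not_false_eq_true, zero_pow, sub_zero]
      have : (0 : ℝ) < 1 / d / 6 := by positivity
      linarith
    · have hθp : 0 < θ := by positivity
      have h2 : 0 < θ ^ 2 * τ' := mul_pos (by positivity) H.hτ'
      rw [hτ]; linarith
  set R := (1 + 2 * lam) / (1 - lam) with hR
  set R' := (1 + 2 * lam') / (1 - lam') with hR'
  have hRR : R ≤ R' := by
    rw [hR, hR', div_le_div_iff₀ (by linarith) (by linarith)]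
    nlinarith
  have hR0 : 0 ≤ R := by
    rw [hR]; apply div_nonneg <;> linarith
  refine nonrecon_of_chain2 (d := d) (lam := lam) H.hd h0 hlam1 P τ 1
    (1 + (c1 0 + |c2 0| + c4 0) / 6) (fun j => 3 / (2 + R ^ j)) hτ0 one_pos
    (by have := H.hc01; have := H.hc04; positivity) ?_ ?_ ?_ ?_ ?_
  · intro j
    have : 0 < 2 + R ^ j := by positivity
    rw [div_mul_cancel₀ _ this.ne']
  · intro k hk z hz hz1 v hv hv1
    have hζ0 := H.hζ0 k hk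
    have hζ1 := H.hζ1 k hk
    set ζk := ζ k with hζk
    -- the point `x`
    have hRj : R ^ (d - (k + 1)) ≤ R' ^ (d - (k + 1)) := pow_le_pow_left₀ hR0 hRR _
    have hq1 : 3 / (2 + R' ^ (d - (k + 1))) ≤ 3 / (2 + R ^ (d - (k + 1))) := by
      apply div_le_div_of_nonneg_left (by norm_num) (by positivity) (by linarith)
    have hzζ : ∀ i, -ζk ≤ z i := by
      intro i
      have : 3 / (2 + R ^ (d - (k + 1))) ≤ 1 + z i := hz1 i
      linarith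
    set x : Fin 3 → ℝ := fun i => z i / ζk with hx
    have hxz : (fun i => ζk * x i) = z := by
      funext i
      simp only [hx]
      field_simp
    have hxs : ∑ i, x i = 0 := by
      simp only [hx]
      rw [← Finset.sum_div, hz]
      simp
    have hx1 : ∀ i, -1 ≤ x i := by
      intro i
      simp only [hx]
      rw [le_div_iff₀ hζ0]
      linarith [hzζ i]
    have hy : ∑ i, (fun i => θ * v i) i = 0 := by
      simp only [← Finset.mul_sum, hv, mul_zero]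
    have hy1 : ∀ i, -1 ≤ (fun i => θ * v i) i := by
      intro i
      have := hv1 i
      show -1 ≤ θ * v i
      nlinarith
    have hstep := H.hstep k hk x (fun i => θ * v i) hxs hy hx1 hy1
    rw [hxz] at hstep
    have e1 : ∀ g : Equiv.Perm (Fin 3), (fun i => lam' * (fun i => θ * v i) (g i))
        = fun i => lam * v (g i) := by
      intro g
      funext i
      show lam' * (θ * v (g i)) = lam * v (g i)
      rw [← mul_assoc, hθl]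
    simp only [e1] at hstep
    refine hstep.trans ?_
    rw [s2_smul, s3_smul]
    have h3 := Pq_scale H.hc01 H.hc04 H.hc0 θ hθ0 hθ1 (s2 v) (s3 v)
    have h4 : lam' ^ 2 * θ ^ 2 = lam ^ 2 := by
      rw [← mul_pow, hθl]
    have hPv := hPnn v
    have h5 : lam' ^ 2 * Pq (c1 0) (c2 0) (c4 0) (θ ^ 2 * s2 v) (θ ^ 3 * s3 v)
        ≤ lam ^ 2 * Pq (c1 0) (c2 0) (c4 0) (s2 v) (s3 v) := by
      rw [← h4, mul_assoc]
      exact mul_le_mul_of_nonneg_left h3 (by positivity)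
    have h6 : lam ^ 2 * P 0 (s2 v) (s3 v) ≤ (1 / d : ℝ) * P 0 (s2 v) (s3 v) :=
      mul_le_mul_of_nonneg_right hdl' hPv
    have h7 : P 0 (s2 v) (s3 v) = Pq (c1 0) (c2 0) (c4 0) (s2 v) (s3 v) := rfl
    rw [h7] at h6 ⊢
    have h8 : P (k + 1) (s2 z) (s3 z) = Pq (c1 (k + 1)) (c2 (k + 1)) (c4 (k + 1)) (s2 z) (s3 z) := rfl
    rw [h8]
    linarith
  · intro v hv hv1
    rw [s2_smul, s3_smul]
    set a := s2 v with ha
    set b := s3 v with hb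
    have ha6 : a ≤ 6 := s2_le_six v hv hv1
    have ha0 : 0 ≤ a := s2_nonneg v
    have hlow : a ≤ P 0 a b := Pq_low H.hc01 H.hc04 H.hc0 a b
    have hT := H.hT a b
    have hs := Pq_scale H.hcd1 H.hcd4 H.hcd θ hθ0 hθ1 (lam' ^ 2 * a) (lam' ^ 3 * b)
    have e1 : lam ^ 2 = θ ^ 2 * lam' ^ 2 := by rw [← hθl]; ring
    have e2 : lam ^ 3 = θ ^ 3 * lam' ^ 3 := by rw [← hθl]; ring
    have e3 : Pq (c1 (d - 1)) (c2 (d - 1)) (c4 (d - 1)) (lam ^ 2 * a) (lam ^ 3 * b)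
        = Pq (c1 (d - 1)) (c2 (d - 1)) (c4 (d - 1)) (θ ^ 2 * (lam' ^ 2 * a)) (θ ^ 3 * (lam' ^ 3 * b)) := by
      rw [e1, e2]; ring_nf
    have h9 : θ ^ 2 * Pq (c1 (d - 1)) (c2 (d - 1)) (c4 (d - 1)) (lam' ^ 2 * a) (lam' ^ 3 * b)
        ≤ θ ^ 2 * (lam' ^ 2 * Pq (c1 0) (c2 0) (c4 0) a b - τ' * a ^ 2) :=
      mul_le_mul_of_nonneg_left hT (by positivity)
    have h10 : (1 / (d : ℝ) - lam ^ 2) * (a ^ 2 / 6) ≤ (1 / (d : ℝ) - lam ^ 2) * P 0 a b := by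
      apply mul_le_mul_of_nonneg_left _ (by linarith)
      nlinarith
    have h11 : P (d - 1) (lam ^ 2 * a) (lam ^ 3 * b)
        = Pq (c1 (d - 1)) (c2 (d - 1)) (c4 (d - 1)) (lam ^ 2 * a) (lam ^ 3 * b) := rfl
    have h12 : P 0 a b = Pq (c1 0) (c2 0) (c4 0) a b := rfl
    rw [h11, e3]
    rw [h12] at h10
    rw [hτ]
    have h13 : θ ^ 2 * (lam' ^ 2 * Pq (c1 0) (c2 0) (c4 0) a b) = lam ^ 2 * Pq (c1 0) (c2 0) (c4 0) a b := by
      rw [e1]; ring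
    show _ ≤ (1 / (d : ℝ)) * Pq (c1 0) (c2 0) (c4 0) a b - _
    nlinarith
  · intro v _ _
    rw [one_mul]
    exact Pq_low H.hc01 H.hc04 H.hc0 _ _
  · intro v hv hv1
    exact Pq_up v hv hv1 H.hc01 H.hc04

end Vale.Agent.P154
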